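import Crest.Agent.S0122.Invariant

/-! C4: finite-time absorption. -/

set_option autoImplicit false

namespace Crest.Agent.S0122Lib

open Crest.AnalysisR.MassAction Set Filter Topology

variable {d : ℕ}

/-- Real-analysis lemma: a continuous function that decreases at rate `δ` from the right whenever it
is nonnegative is eventually nonpositive. -/
theorem eventually_nonpos {φ : ℝ → ℝ} {T δ : ℝ} (hδ : 0 < δ) (hφ : ContinuousOn φ (Set.Ici T))
    (hdec : ∀ t, T ≤ t → 0 ≤ φ t → ∃ ε > 0, ∀ s, t < s → s < t + ε → φ s ≤ φ t - δ * (s - t)) :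
    ∃ T', T ≤ T' ∧ ∀ t, T' ≤ t → φ t ≤ 0 := by
  -- step (i): once nonpositive, always nonpositive
  have hstay : ∀ t₁, T ≤ t₁ → φ t₁ ≤ 0 → ∀ t, t₁ ≤ t → φ t ≤ 0 := by
    intro t₁ ht₁ h₁ t ht
    have hcl : IsClosed ({u | φ u ≤ 0} ∩ Icc t₁ t) := by
      have hc : ContinuousOn φ (Icc t₁ t) := hφ.mono fun u hu => le_trans ht₁ hu.1
      have := hc.preimage_isClosed_of_isClosed isClosed_Icc (isClosed_Iic (a := (0 : ℝ)))
      rwa [inter_comm] at this
    have hsub := hcl.Icc_subset_of_forall_exists_gt (a := t₁) (b := t) h₁ ?_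
    · exact hsub ⟨ht, le_rfl⟩
    rintro u ⟨hu, hu1, hu2⟩ y hy
    have hu' : φ u ≤ 0 := hu
    have hTu : T ≤ u := le_trans ht₁ hu1
    rcases hu'.lt_or_eq with hlt | heq
    · have hcw : ContinuousWithinAt φ (Ici T) u := hφ u hTu
      have hIci : Ici T ∈ 𝓝[>] u :=
        mem_of_superset self_mem_nhdsWithin (fun w hw => le_trans hTu (mem_Ioi.mp hw).le)
      have hr : Tendsto φ (𝓝[>] u) (𝓝 (φ u)) :=
        hcw.tendsto.mono_left (nhdsWithin_le_iff.mpr hIci)
      have h1 := hr.eventually (gt_mem_nhds hlt)
      have h2 : ∀ᶠ w in 𝓝[>] u, w ∈ Ioc u y := Ioc_mem_nhdsGT hy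
      obtain ⟨w, hw1, hw2⟩ := (h1.and h2).exists
      exact ⟨w, hw1.le, hw2⟩
    · obtain ⟨ε, hε, h⟩ := hdec u hTu heq.ge
      refine ⟨min (u + ε / 2) y, ?_, lt_min (by linarith) hy, min_le_right _ _⟩
      have hlt1 : u < min (u + ε / 2) y := lt_min (by linarith) hy
      have hlt2 : min (u + ε / 2) y < u + ε := lt_of_le_of_lt (min_le_left _ _) (by linarith)
      have h3 := h _ hlt1 hlt2
      show φ (min (u + ε / 2) y) ≤ 0
      rw [heq] at h3
      have : 0 < δ * (min (u + ε / 2) y - u) := mul_pos hδ (sub_pos.mpr hlt1)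
      linarith
  -- step (ii): some point is nonpositive
  have hex : ∃ t₁, T ≤ t₁ ∧ φ t₁ ≤ 0 := by
    by_contra hno
    push Not at hno
    set T₂ := T + φ T / δ + 1 with hT₂
    have hφT := hno T le_rfl
    have hTT₂ : T ≤ T₂ := by
      have : 0 < φ T / δ := div_pos hφT hδ
      simp only [hT₂]
      linarith
    set f : ℝ → ℝ := fun t => φ t + δ * (t - T) with hf
    have hcl : IsClosed ({u | f u ≤ φ T} ∩ Icc T T₂) := by
      have hc : ContinuousOn f (Icc T T₂) :=
        (hφ.mono fun u hu => hu.1).add (by fun_prop)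
      have := hc.preimage_isClosed_of_isClosed isClosed_Icc (isClosed_Iic (a := φ T))
      rwa [inter_comm] at this
    have h0 : T ∈ {u | f u ≤ φ T} := by simp [hf]
    have hsub := hcl.Icc_subset_of_forall_exists_gt (a := T) (b := T₂) h0 ?_
    · have h1 : f T₂ ≤ φ T := hsub ⟨hTT₂, le_rfl⟩
      have h2 := hno T₂ hTT₂
      simp only [hf] at h1
      have h3 : δ * (T₂ - T) = φ T + δ := by
        simp only [hT₂]
        field_simp
        ring
      rw [h3] at h1
      linarith
    rintro u ⟨hu, hu1, hu2⟩ y hy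
    have hu' : f u ≤ φ T := hu
    obtain ⟨ε, hε, h⟩ := hdec u hu1 (hno u hu1).le
    have hlt1 : u < min (u + ε / 2) y := lt_min (by linarith) hy
    have hlt2 : min (u + ε / 2) y < u + ε := lt_of_le_of_lt (min_le_left _ _) (by linarith)
    have h3 := h _ hlt1 hlt2
    refine ⟨min (u + ε / 2) y, ?_, hlt1, min_le_right _ _⟩
    show f _ ≤ φ T
    simp only [hf] at hu' ⊢
    nlinarith
  obtain ⟨t₁, ht₁, h₁⟩ := hex
  exact ⟨t₁, ht₁, fun t ht => hstay t₁ ht₁ h₁ t ht⟩

/-- `ch` is the target, `ch'` is a chain whose set contains the orbit. -/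
theorem chain_absorb {R : Network d} {k : (Fin d → ℕ) × (Fin d → ℕ) → ℝ} {B : ℕ} {Q : ℝ}
    (hF : FieldNeg R k B Q) {C₀ C₀' : Set (Fin d → ℝ)} (ch : Chain d B Q C₀)
    (ch' : Chain d B Q C₀') {c : Fin d → ℝ} (hc : c ∈ C₀) (hc' : c ∈ C₀')
    {x : ℝ → Fin d → ℝ} (hx : IsForwardSolution (field R k) x)
    (hx0 : x 0 ∈ ch'.K) (hxc : x 0 - c ∈ stoichSubspace R) :
    ∃ T : ℝ, 0 ≤ T ∧ ∀ t : ℝ, T ≤ t → x t ∈ ch.K := by
  classical
  have hinv : ∀ t, 0 ≤ t → x t ∈ ch'.K := fun t ht =>
    chain_invariant hF ch' hc' (fun y => field_mem R k y) (fun _ _ => rfl) hx hx0 hxc ht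
  obtain ⟨ε', hε', A', hbox'⟩ := ch'.box
  have hob : ∀ t, 0 ≤ t → ∀ i, ε' ≤ x t i ∧ x t i ≤ A' := fun t ht => hbox' _ (hinv t ht)
  have hclass : ∀ t, 0 ≤ t → x t - c ∈ stoichSubspace R := fun t ht => by
    have h1 := sol_mem_class (fun y => field_mem R k y) hx ht
    have := Submodule.add_mem _ h1 hxc
    simpa using this
  have hxcont : ContinuousOn x (Ici 0) := fun u hu => (hx u hu).continuousWithinAt
  have hfield : Continuous (field R k) := (Crest.Agent.MassActionODE.field_contDiff R k).continuous
  -- the induction on the groups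
  have main : ∀ j, j ≤ ch.r → ∃ T : ℝ, 0 ≤ T ∧ ∀ t, T ≤ t → ∀ j' < j, ∀ a ∈ ch.g j', a.val (x t) ≤ 0 := by
    intro j
    induction j with
    | zero => exact fun _ => ⟨0, le_rfl, fun _ _ j' hj' => absurd hj' (Nat.not_lt_zero _)⟩
    | succ j ih =>
      intro hj1
      have hj : j < ch.r := hj1
      obtain ⟨Tj, hTj0, hTj⟩ := ih hj.le
      have hfin := ch.lf j hj ε' hε' A'
      set F := hfin.toFinset with hFdef
      have hFmem : ∀ a, a ∈ F ↔ a ∈ ch.g j ∧ ∃ y : Fin d → ℝ, (∀ i, ε' ≤ y i ∧ y i ≤ A') ∧ 0 ≤ a.val y := by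
        intro a
        rw [hFdef, Set.Finite.mem_toFinset]
        rfl
      have hnotF : ∀ a ∈ ch.g j, a ∉ F → ∀ t, 0 ≤ t → a.val (x t) < 0 := by
        intro a ha hnF t ht
        by_contra hcon
        exact hnF ((hFmem a).2 ⟨ha, x t, hob t ht, not_lt.mp hcon⟩)
      by_cases hne : F.Nonempty
      · -- the maximum of the finitely many relevant constraints
        set Φ : (Fin d → ℝ) → ℝ := fun y => F.sup' hne (fun a => a.val y) with hΦ
        have hΦc : Continuous Φ := by
          have : Φ = F.sup' hne (fun a => a.val) := by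
            funext y
            simp only [hΦ, Finset.sup'_apply]
          rw [this]
          exact Continuous.finset_sup' _ (fun a _ => a.continuous_val)
        have hle : ∀ a ∈ F, ∀ y, a.val y ≤ Φ y := fun a ha y =>
          Finset.le_sup' (fun a => a.val y) ha
        -- the compact set
        set C : Set (Fin d → ℝ) := {y | (∀ i, ε' ≤ y i ∧ y i ≤ A') ∧
          (∀ j' < j, ∀ a ∈ ch.g j', a.val y ≤ 0) ∧ y - c ∈ stoichSubspace R ∧ 0 ≤ Φ y} with hC
        have hbc : IsCompact {y : Fin d → ℝ | ∀ i, ε' ≤ y i ∧ y i ≤ A'} := by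
          have : {y : Fin d → ℝ | ∀ i, ε' ≤ y i ∧ y i ≤ A'} = Icc (fun _ => ε') (fun _ => A') := by
            ext y
            simp only [mem_ofPred_eq, mem_Icc, Pi.le_def]
            exact ⟨fun h => ⟨fun i => (h i).1, fun i => (h i).2⟩, fun h i => ⟨h.1 i, h.2 i⟩⟩
          rw [this]
          exact isCompact_Icc
        have hCcl2 : IsClosed {y : Fin d → ℝ | ∀ j' < j, ∀ a ∈ ch.g j', a.val y ≤ 0} := by
          have : {y : Fin d → ℝ | ∀ j' < j, ∀ a ∈ ch.g j', a.val y ≤ 0} =
              ⋂ j' ∈ {j' | j' < j}, ⋂ a ∈ ch.g j', {y | a.val y ≤ 0} := by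
            ext y
            simp
          rw [this]
          exact isClosed_biInter fun j' _ => isClosed_biInter fun a _ =>
            isClosed_le a.continuous_val continuous_const
        have hScl : IsClosed {y : Fin d → ℝ | y - c ∈ stoichSubspace R} := by
          have h1 : IsClosed ((stoichSubspace R : Submodule ℝ (Fin d → ℝ)) : Set (Fin d → ℝ)) :=
            Submodule.closed_of_finiteDimensional _
          exact h1.preimage (continuous_id.sub continuous_const)
        have hCc : IsCompact C := by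
          refine hbc.of_isClosed_subset ?_ (fun y hy => hy.1)
          have hcl1 : IsClosed {y : Fin d → ℝ | ∀ i, ε' ≤ y i ∧ y i ≤ A'} := hbc.isClosed
          have hcl4 : IsClosed {y : Fin d → ℝ | 0 ≤ Φ y} := isClosed_le continuous_const hΦc
          have : C = {y : Fin d → ℝ | ∀ i, ε' ≤ y i ∧ y i ≤ A'} ∩
              ({y : Fin d → ℝ | ∀ j' < j, ∀ a ∈ ch.g j', a.val y ≤ 0} ∩
              ({y : Fin d → ℝ | y - c ∈ stoichSubspace R} ∩ {y : Fin d → ℝ | 0 ≤ Φ y})) := by
            ext y
            simp [hC]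
          rw [this]
          exact hcl1.inter (hCcl2.inter (hScl.inter hcl4))
        -- the derivative rates
        set I : Cstr d → (Fin d → ℝ) → ℝ := fun a y => ∑ i, field R k y i * a.L i with hI
        have hIc : ∀ a, Continuous (I a) := by
          intro a
          refine continuous_finsetSum _ fun i _ => ?_
          exact ((continuous_apply i).comp hfield).mul continuous_const
        have hneg : ∀ a ∈ F, ∀ y ∈ C, a.val y = Φ y → I a y < 0 := by
          intro a ha y hy hay
          have haj := ((hFmem a).1 ha).1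
          refine inner_neg hF ch hc hj (fun i => lt_of_lt_of_le hε' (hy.1 i).1) hy.2.1 hy.2.2.1 haj
            (by rw [hay]; exact hy.2.2.2) ?_
          intro a' ha'
          rw [hay]
          by_cases ha'F : a' ∈ F
          · exact hle a' ha'F y
          · -- not in `F`: negative on the box
            have : ¬ (0 ≤ a'.val y) := fun h0 => ha'F ((hFmem a').2 ⟨ha', y, hy.1, h0⟩)
            exact (not_le.mp this).le.trans hy.2.2.2
        have hδa : ∀ a ∈ F, ∃ δ > 0, ∀ y ∈ C, a.val y = Φ y → I a y ≤ -δ := by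
          intro a ha
          have hCa : IsCompact (C ∩ {y | a.val y = Φ y}) :=
            hCc.inter_right (isClosed_eq a.continuous_val hΦc)
          by_cases hCne : (C ∩ {y | a.val y = Φ y}).Nonempty
          · obtain ⟨y₀, hy₀, hmax⟩ := hCa.exists_isMaxOn hCne (hIc a).continuousOn
            have hneg0 := hneg a ha y₀ hy₀.1 hy₀.2
            refine ⟨-I a y₀, by linarith, fun y hy hay => ?_⟩
            have := hmax (a := y) ⟨hy, hay⟩
            simpa using this
          · refine ⟨1, one_pos, fun y hy hay => ?_⟩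
            exact absurd ⟨y, hy, hay⟩ hCne
        choose! δa hδapos hδa' using hδa
        set δ := F.inf' hne δa with hδ
        have hδpos : 0 < δ := (Finset.lt_inf'_iff hne).2 fun a ha => hδapos a ha
        have hδle : ∀ a ∈ F, δ ≤ δa a := fun a ha => Finset.inf'_le _ ha
        have hrate : ∀ a ∈ F, ∀ y ∈ C, a.val y = Φ y → I a y ≤ -δ := fun a ha y hy hay =>
          (hδa' a ha y hy hay).trans (by linarith [hδle a ha])
        -- apply the one-dimensional lemma to `t ↦ Φ (x t)`
        have hφc : ContinuousOn (fun t => Φ (x t)) (Ici Tj) :=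
          hΦc.comp_continuousOn (hxcont.mono fun u hu => le_trans hTj0 hu)
        have hdec : ∀ t, Tj ≤ t → 0 ≤ Φ (x t) → ∃ ε > 0, ∀ s, t < s → s < t + ε →
            Φ (x s) ≤ Φ (x t) - (δ / 2) * (s - t) := by
          intro t ht hnn
          have ht0 : 0 ≤ t := le_trans hTj0 ht
          have hyC : x t ∈ C := ⟨hob t ht0, fun j' hj' a ha => hTj t ht j' hj' a ha, hclass t ht0, hnn⟩
          have hIci : Ici 0 ∈ 𝓝[>] t :=
            mem_of_superset self_mem_nhdsWithin (fun w hw => le_trans ht0 (mem_Ioi.mp hw).le)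
          have hxr : Tendsto x (𝓝[>] t) (𝓝 (x t)) :=
            (hx t ht0).continuousWithinAt.tendsto.mono_left (nhdsWithin_le_iff.mpr hIci)
          have hev : ∀ a ∈ F, ∀ᶠ s in 𝓝[>] t, a.val (x s) ≤ Φ (x t) - (δ / 2) * (s - t) := by
            intro a ha
            by_cases hact : a.val (x t) = Φ (x t)
            · have hr := hrate a ha _ hyC hact
              have hd1 := val_hasDerivWithinAt a (hx t ht0)
              have hd2 : HasDerivWithinAt (fun u => a.val (x u)) (I a (x t)) (Ioi t) t :=
                hd1.mono_of_mem_nhdsWithin hIci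
              have hslope := (hasDerivWithinAt_iff_tendsto_slope' (by simp)).mp hd2
              have hev := hslope.eventually (gt_mem_nhds (show I a (x t) < -(δ / 2) by linarith))
              filter_upwards [hev, self_mem_nhdsWithin] with s hs hst
              have hst' : 0 < s - t := sub_pos.mpr hst
              rw [slope_def_field, div_lt_iff₀ hst'] at hs
              rw [← hact]
              linarith
            · have hlt : a.val (x t) < Φ (x t) := lt_of_le_of_ne (hle a ha _) hact
              set g := Φ (x t) - a.val (x t) with hg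
              have hgpos : 0 < g := sub_pos.mpr hlt
              have h1 : Tendsto (fun s => a.val (x s)) (𝓝[>] t) (𝓝 (a.val (x t))) :=
                a.continuous_val.continuousAt.tendsto.comp hxr
              have h2 := h1.eventually (gt_mem_nhds (show a.val (x t) < a.val (x t) + g / 2 by linarith))
              have h3 : ∀ᶠ s in 𝓝[>] t, s < t + g / δ := by
                have : t < t + g / δ := by
                  have := div_pos hgpos hδpos
                  linarith
                filter_upwards [Ioo_mem_nhdsGT this] with s hs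
                exact hs.2
              filter_upwards [h2, h3] with s hs1 hs3
              have h5 : (δ / 2) * (s - t) ≤ g / 2 := by
                have h6 : s - t < g / δ := by linarith
                have h7 : δ * (s - t) < g := by
                  have := (lt_div_iff₀ hδpos).mp h6
                  linarith
                linarith
              have h8 : Φ (x t) = a.val (x t) + g := by simp only [hg]; ring
              linarith
          have hevall : ∀ᶠ s in 𝓝[>] t, ∀ a ∈ F, a.val (x s) ≤ Φ (x t) - (δ / 2) * (s - t) :=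
            (Finset.eventually_all F).2 hev
          rcases (mem_nhdsGT_iff_exists_Ioo_subset).mp hevall with ⟨u, hu, hsub⟩
          refine ⟨u - t, sub_pos.mpr hu, fun s hs1 hs2 => ?_⟩
          have hsu : s ∈ Ioo t u := ⟨hs1, by linarith⟩
          exact Finset.sup'_le _ _ (hsub hsu)
        obtain ⟨T', hT'1, hT'2⟩ := eventually_nonpos (half_pos hδpos) hφc hdec
        refine ⟨T', le_trans hTj0 hT'1, fun t ht j' hj' a ha => ?_⟩
        have ht0 : 0 ≤ t := le_trans hTj0 (le_trans hT'1 ht)
        rcases Nat.lt_succ_iff_lt_or_eq.mp hj' with h | h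
        · exact hTj t (le_trans hT'1 ht) j' h a ha
        · subst h
          by_cases haF : a ∈ F
          · exact (hle a haF _).trans (hT'2 t ht)
          · exact (hnotF a ha haF t ht0).le
      · -- no relevant constraint
        refine ⟨Tj, hTj0, fun t ht j' hj' a ha => ?_⟩
        have ht0 : 0 ≤ t := le_trans hTj0 ht
        rcases Nat.lt_succ_iff_lt_or_eq.mp hj' with h | h
        · exact hTj t ht j' h a ha
        · subst h
          have : a ∉ F := fun haF => hne ⟨a, haF⟩
          exact (hnotF a ha this t ht0).le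
  obtain ⟨T, hT0, hT⟩ := main ch.r le_rfl
  exact ⟨T, hT0, fun t ht j hj a ha => hT t ht j hj a ha⟩

end Crest.Agent.S0122Lib
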