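import Crest.Agent.S0122.Invariant
import Crest.Agent.Lib.MassAction.Basic

/-! C5, C6: global existence and uniqueness. -/

set_option autoImplicit false

namespace Crest.Agent.S0122Lib

open Crest.AnalysisR.MassAction Set Filter Topology
open scoped NNReal ContDiff

variable {d : ℕ}

/-- The box as an order interval. -/
theorem box_eq (ε A : ℝ) : {y : Fin d → ℝ | ∀ i, ε ≤ y i ∧ y i ≤ A} =
    Icc (fun _ => ε) (fun _ => A) := by
  ext y
  simp only [mem_ofPred_eq, mem_Icc, Pi.le_def]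
  exact ⟨fun h => ⟨fun i => (h i).1, fun i => (h i).2⟩, fun h i => ⟨h.1 i, h.2 i⟩⟩

/-- The field is Lipschitz on a box. -/
theorem field_lipschitzOn (R : Network d) (k : (Fin d → ℕ) × (Fin d → ℕ) → ℝ) (ε A : ℝ) :
    ∃ K : NNReal, LipschitzOnWith K (field R k) {y : Fin d → ℝ | ∀ i, ε ≤ y i ∧ y i ≤ A} := by
  rw [box_eq]
  have hv : ContDiff ℝ 1 (field R k) :=
    (Crest.Agent.MassActionODE.field_contDiff R k).of_le (by simp)
  have hcomp : IsCompact (Icc (fun _ : Fin d => ε) (fun _ => A)) := isCompact_Icc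
  have hd : ContinuousOn (fun z => ‖fderiv ℝ (field R k) z‖₊) (Icc (fun _ : Fin d => ε) (fun _ => A)) :=
    (hv.continuous_fderiv one_ne_zero).nnnorm.continuousOn
  obtain ⟨C, hC⟩ : ∃ C : ℝ≥0, ∀ z ∈ Icc (fun _ : Fin d => ε) (fun _ => A),
      ‖fderiv ℝ (field R k) z‖₊ ≤ C := by
    obtain ⟨C, hC⟩ := (hcomp.image_of_continuousOn hd).bddAbove
    exact ⟨C, fun z hz => hC ⟨z, hz, rfl⟩⟩
  exact ⟨C, (convex_Icc _ _).lipschitzOnWith_of_nnnorm_fderiv_le
    (fun z _ => (hv.differentiable one_ne_zero) z) hC⟩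

/-- A globally Lipschitz, bounded autonomous field has a global forward solution. -/
theorem exists_global_solution {v : (Fin d → ℝ) → Fin d → ℝ} {K : NNReal} (hK : LipschitzWith K v)
    {L : ℝ} (hL : ∀ y, ‖v y‖ ≤ L) (x₀ : Fin d → ℝ) :
    ∃ x : ℝ → Fin d → ℝ, IsForwardSolution v x ∧ x 0 = x₀ := by
  obtain ⟨γ, hγ0, hγ⟩ := Crest.Agent.Lib.SmoothFlow.exists_global_solution (X := v) (K := K)
    (M := ⟨max L 0, le_max_right _ _⟩) hK (fun y => (hL y).trans (le_max_left _ _)) x₀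
  exact ⟨γ, fun t _ => (hγ t).hasDerivWithinAt, hγ0⟩

/-- The coordinatewise clamp. -/
noncomputable def clampBox (ε A : ℝ) (y : Fin d → ℝ) : Fin d → ℝ := fun i => max ε (min A (y i))

theorem clampBox_lipschitz (ε A : ℝ) : LipschitzWith 1 (clampBox (d := d) ε A) := by
  refine LipschitzWith.of_dist_le_mul fun y y' => ?_
  rw [NNReal.coe_one, one_mul]
  refine (dist_pi_le_iff dist_nonneg).2 fun i => ?_
  refine le_trans ?_ (dist_le_pi_dist y y' i)
  simp only [clampBox, Real.dist_eq]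
  rw [abs_le]
  have h := abs_le.mp (le_refl |y i - y' i|)
  simp only [max_def, min_def]
  split_ifs <;> constructor <;> linarith [h.1, h.2]

theorem clampBox_mem {ε A : ℝ} (hεA : ε ≤ A) (y : Fin d → ℝ) (i : Fin d) :
    ε ≤ clampBox ε A y i ∧ clampBox ε A y i ≤ A := by
  simp only [clampBox]
  exact ⟨le_max_left _ _, max_le hεA (min_le_left _ _)⟩

theorem clampBox_of_mem {ε A : ℝ} {y : Fin d → ℝ} (h : ∀ i, ε ≤ y i ∧ y i ≤ A) :
    clampBox ε A y = y := by
  funext i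
  simp only [clampBox]
  rw [min_eq_right (h i).2, max_eq_right (h i).1]

/-- Global existence in a chain set. -/
theorem chain_exists_solution {R : Network d} {k : (Fin d → ℕ) × (Fin d → ℕ) → ℝ} {B : ℕ} {Q : ℝ}
    (hF : FieldNeg R k B Q) {C₀ : Set (Fin d → ℝ)} (ch : Chain d B Q C₀) {c : Fin d → ℝ}
    (hc : c ∈ C₀) {x₀ : Fin d → ℝ} (hx₀ : x₀ ∈ ch.K) (hx₀c : x₀ - c ∈ stoichSubspace R) :
    ∃ x : ℝ → Fin d → ℝ, IsForwardSolution (field R k) x ∧ x 0 = x₀ := by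
  obtain ⟨ε, hε, A, hbox⟩ := ch.box
  have hx₀box := hbox x₀ hx₀
  -- `ε ≤ A` if the dimension is positive; otherwise all spaces are trivial
  set A' := max A ε with hA'
  have hεA : ε ≤ A' := le_max_right _ _
  have hbox' : ∀ x ∈ ch.K, ∀ i, ε ≤ x i ∧ x i ≤ A' := fun x hx i =>
    ⟨(hbox x hx i).1, (hbox x hx i).2.trans (le_max_left _ _)⟩
  obtain ⟨K, hK⟩ := field_lipschitzOn R k ε A'
  let v : (Fin d → ℝ) → Fin d → ℝ := fun y => field R k (clampBox ε A' y)
  have hclamp_mem : ∀ y, clampBox ε A' y ∈ {y : Fin d → ℝ | ∀ i, ε ≤ y i ∧ y i ≤ A'} :=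
    fun y i => clampBox_mem hεA y i
  have hvL : LipschitzWith K v := by
    refine LipschitzWith.of_dist_le_mul fun y y' => ?_
    have h1 := hK.dist_le_mul _ (hclamp_mem y) _ (hclamp_mem y')
    have h2 := (clampBox_lipschitz (d := d) ε A').dist_le_mul y y'
    rw [NNReal.coe_one, one_mul] at h2
    exact h1.trans (mul_le_mul_of_nonneg_left h2 K.2)
  obtain ⟨L, hL⟩ : ∃ L : ℝ, ∀ y, ‖v y‖ ≤ L := by
    have hcomp : IsCompact {y : Fin d → ℝ | ∀ i, ε ≤ y i ∧ y i ≤ A'} := by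
      rw [box_eq]; exact isCompact_Icc
    have hcont : ContinuousOn (field R k) {y : Fin d → ℝ | ∀ i, ε ≤ y i ∧ y i ≤ A'} :=
      (Crest.Agent.MassActionODE.field_contDiff R k).continuous.continuousOn
    obtain ⟨L, hL⟩ := hcomp.exists_bound_of_continuousOn hcont
    exact ⟨L, fun y => hL _ (hclamp_mem y)⟩
  obtain ⟨x, hx, hx0⟩ := exists_global_solution hvL hL x₀
  have hvK : ∀ y ∈ ch.K, v y = field R k y := by
    intro y hy
    show field R k (clampBox ε A' y) = field R k y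
    rw [clampBox_of_mem (hbox' y hy)]
  have hinv : ∀ t, 0 ≤ t → x t ∈ ch.K := fun t ht =>
    chain_invariant hF ch hc (fun y => field_mem R k _) hvK hx (hx0 ▸ hx₀) (hx0 ▸ hx₀c) ht
  refine ⟨x, fun t ht => ?_, hx0⟩
  have := hx t ht
  rwa [hvK _ (hinv t ht)] at this

/-- Uniqueness for solutions staying in a box. -/
theorem solution_unique {R : Network d} {k : (Fin d → ℕ) × (Fin d → ℕ) → ℝ} {ε A : ℝ}
    {x x' : ℝ → Fin d → ℝ} (hx : IsForwardSolution (field R k) x)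
    (hx' : IsForwardSolution (field R k) x') (h0 : x 0 = x' 0)
    (_hbox : ∀ t, 0 ≤ t → ∀ i, ε ≤ x t i ∧ x t i ≤ A)
    (_hbox' : ∀ t, 0 ≤ t → ∀ i, ε ≤ x' t i ∧ x' t i ≤ A) {t : ℝ} (ht : 0 ≤ t) : x t = x' t :=
  Crest.Agent.MassActionODE.forward_unique R k hx hx' h0 ht

end Crest.Agent.S0122Lib
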