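import Crest.Agent.S0122.Field
import Crest.Agent.S0122.Absorb
import Crest.Agent.S0122.Exist

/-! C7: final assembly from the existence of chains. -/

set_option autoImplicit false

namespace Crest.Agent.S0122Lib

open Crest.AnalysisR.MassAction Set

theorem result_of_chains
    (d : ℕ) (R : Network d) (hR : IsWeaklyReversible R)
    (k : (Fin d → ℕ) × (Fin d → ℕ) → ℝ) (hk : ∀ r ∈ R, 0 < k r)
    (c : Fin d → ℝ) (hc : ∀ i, 0 < c i)
    (hchain : ∀ (B : ℕ) (Q : ℝ), 1 ≤ B → ∀ C₀ : Set (Fin d → ℝ), C₀.Finite →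
      (∀ z ∈ C₀, ∀ i, 0 < z i) → Nonempty (Chain d B Q C₀)) :
    ∃ K : Set (Fin d → ℝ), K ⊆ positiveClass R c ∧ K.Nonempty ∧ IsCompact K ∧ Convex ℝ K ∧
      (∀ x : ℝ → (Fin d → ℝ), IsForwardSolution (field R k) x → x 0 ∈ K →
        ∀ t : ℝ, 0 ≤ t → x t ∈ K) ∧
      (∀ x₀ ∈ positiveClass R c,
        (∃ x : ℝ → (Fin d → ℝ), IsForwardSolution (field R k) x ∧ x 0 = x₀) ∧
        (∀ x x' : ℝ → (Fin d → ℝ), IsForwardSolution (field R k) x →
          IsForwardSolution (field R k) x' → x 0 = x₀ → x' 0 = x₀ →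
          ∀ t : ℝ, 0 ≤ t → x t = x' t) ∧
        (∀ x : ℝ → (Fin d → ℝ), IsForwardSolution (field R k) x → x 0 = x₀ →
          (∀ t : ℝ, 0 ≤ t → ∀ i, 0 < x t i) ∧
          ∃ T : ℝ, 0 ≤ T ∧ ∀ t : ℝ, T ≤ t → x t ∈ K)) := by
  obtain ⟨B, Q, hB, hF⟩ := field_inner hR hk
  obtain ⟨ch⟩ := hchain B Q hB {c} (finite_singleton c) (by
    rintro z rfl i
    exact hc i)
  have hcc : c ∈ ({c} : Set (Fin d → ℝ)) := rfl
  have hfield : ∀ y, field R k y ∈ stoichSubspace R := fun y => field_mem R k y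
  obtain ⟨ε, hε, A, hbox⟩ := ch.box
  refine ⟨ch.K ∩ {y | y - c ∈ stoichSubspace R}, ?_, ?_, ?_, ?_, ?_, ?_⟩
  · -- contained in the class
    rintro y ⟨hy1, hy2⟩
    exact ⟨fun i => lt_of_lt_of_le hε (hbox y hy1 i).1, hy2⟩
  · -- nonempty
    refine ⟨c, fun j hj a ha => (ch.inner j hj a ha c hcc).le, ?_⟩
    show c - c ∈ stoichSubspace R
    simp
  · -- compact
    have hS : IsClosed {y : Fin d → ℝ | y - c ∈ stoichSubspace R} := by
      have h1 : IsClosed ((stoichSubspace R : Submodule ℝ (Fin d → ℝ)) : Set (Fin d → ℝ)) :=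
        Submodule.closed_of_finiteDimensional _
      exact h1.preimage (continuous_id.sub continuous_const)
    refine (isCompact_Icc (a := fun _ : Fin d => ε) (b := fun _ => A)).of_isClosed_subset
      ((isClosed_chainK ch).inter hS) ?_
    rintro y ⟨hy, -⟩
    exact ⟨fun i => (hbox y hy i).1, fun i => (hbox y hy i).2⟩
  · -- convex
    rintro y ⟨hy1, hy2⟩ z ⟨hz1, hz2⟩ p q hp hq hpq
    refine ⟨fun j hj a ha => ?_, ?_⟩
    · have h1 := hy1 j hj a ha
      have h2 := hz1 j hj a ha
      have h3 : a.val (p • y + q • z) = p * a.val y + q * a.val z := by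
        unfold Cstr.val
        have h4 : ∑ i, a.L i * (p • y + q • z) i =
            p * ∑ i, a.L i * y i + q * ∑ i, a.L i * z i := by
          rw [Finset.mul_sum, Finset.mul_sum, ← Finset.sum_add_distrib]
          refine Finset.sum_congr rfl fun i _ => ?_
          simp only [Pi.add_apply, Pi.smul_apply, smul_eq_mul]
          ring
        rw [h4]
        have h5 : q = 1 - p := by linarith
        rw [h5]
        ring
      rw [h3]
      have := mul_nonneg hp (neg_nonneg.mpr h1)
      have := mul_nonneg hq (neg_nonneg.mpr h2)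
      nlinarith
    · have h3 : p • y + q • z - c = p • (y - c) + q • (z - c) := by
        have h5 : q = 1 - p := by linarith
        rw [h5]
        funext i
        simp only [Pi.add_apply, Pi.smul_apply, Pi.sub_apply, smul_eq_mul]
        ring
      show p • y + q • z - c ∈ stoichSubspace R
      rw [h3]
      exact Submodule.add_mem _ (Submodule.smul_mem _ _ hy2) (Submodule.smul_mem _ _ hz2)
  · -- forward invariance
    rintro x hx ⟨h1, h2⟩ t ht
    refine ⟨chain_invariant hF ch hcc hfield (fun _ _ => rfl) hx h1 h2 ht, ?_⟩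
    have h3 := sol_mem_class hfield hx ht
    have := Submodule.add_mem _ h3 h2
    show x t - c ∈ stoichSubspace R
    simpa using this
  · -- the points of the class
    intro x₀ hx₀
    obtain ⟨ch'⟩ := hchain B Q hB {c, x₀} ((finite_singleton x₀).insert c) (by
      rintro z (rfl | rfl) i
      · exact hc i
      · exact hx₀.1 i)
    have hcc' : c ∈ ({c, x₀} : Set (Fin d → ℝ)) := Or.inl rfl
    have hx₀K : x₀ ∈ ch'.K := fun j hj a ha => (ch'.inner j hj a ha x₀ (Or.inr rfl)).le
    obtain ⟨ε', hε', A', hbox'⟩ := ch'.box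
    refine ⟨chain_exists_solution hF ch' hcc' hx₀K hx₀.2, ?_, ?_⟩
    · intro x x' hx hx' h0 h0' t ht
      exact Crest.Agent.MassActionODE.forward_unique R k hx hx' (h0.trans h0'.symm) ht
    · intro x hx h0
      have hx0K : x 0 ∈ ch'.K := h0 ▸ hx₀K
      have hx0c : x 0 - c ∈ stoichSubspace R := h0 ▸ hx₀.2
      refine ⟨fun t ht i => ?_, ?_⟩
      · exact lt_of_lt_of_le hε'
          (hbox' _ (chain_invariant hF ch' hcc' hfield (fun _ _ => rfl) hx hx0K hx0c ht) i).1
      · obtain ⟨T, hT0, hT⟩ := chain_absorb hF ch ch' hcc hcc' hx hx0K hx0c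
        refine ⟨T, hT0, fun t ht => ⟨hT t ht, ?_⟩⟩
        have h3 := sol_mem_class hfield hx (le_trans hT0 ht)
        have := Submodule.add_mem _ h3 hx0c
        show x t - c ∈ stoichSubspace R
        simpa using this

end Crest.Agent.S0122Lib
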