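import Mathlib

/-! The interface between Part A (core lemma) and Part B (chain of constraints). -/

set_option autoImplicit false

namespace Crest.Agent.S0122Lib

/-- The black-box content of the Core Lemma in dimension `n`. -/
def CoreClaim (n B : ℕ) (Q : ℝ) : Prop :=
  ∃ (N : ℕ) (T : Set (Fin n → ℝ)) (W : (Fin n → ℝ) → ℝ) (w₀ w₁ S : ℝ),
    0 < N ∧ 0 < w₀ ∧ 0 < w₁ ∧
    (∀ τ ∈ T, Antitone τ ∧ ∀ i, ∃ z : ℤ, τ i = (z : ℝ) / (N : ℝ)) ∧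
    (∀ τ : Fin n → ℤ, Antitone τ → (fun i => (τ i : ℝ)) ∈ T) ∧
    (∀ τ : Fin n → ℝ, w₀ * ∑ i, Real.exp (τ i) ≤ W τ ∧ W τ ≤ w₁ * ∑ i, Real.exp (τ i)) ∧
    (∀ x : Fin n → ℝ, (∀ i, 0 < x i) → ∀ (π : Equiv.Perm (Fin n)), ∀ τ ∈ T,
      (∀ (π' : Equiv.Perm (Fin n)), ∀ τ' ∈ T,
        ∑ i, τ' i * x (π' i) - W τ' ≤ ∑ i, τ i * x (π i) - W τ) →
      (∀ s : Fin n → ℤ, (∀ i, |s i| ≤ (B : ℤ)) → 0 < ∑ i, (s (π i) : ℝ) * τ i →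
        Q ≤ ∑ i, (s i : ℝ) * Real.log (x i)) ∧
      ∀ i, |τ i - Real.log (x (π i))| ≤ S)

end Crest.Agent.S0122Lib
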