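import Crest.Agent.S0122.Core
import Crest.Agent.S0122.CoreClaim

/-! Packaging of the Core Lemma. -/

set_option autoImplicit false

namespace Crest.Agent.S0122Lib

open Finset

theorem core_claim (n B : ℕ) (hn : 1 ≤ n) (hB : 1 ≤ B) (Q : ℝ) : CoreClaim n B Q := by
  obtain ⟨Λ, hΛ⟩ := exists_good (n := n) hn hB Q
  have h2 : (2:ℝ) ≤ Λ := hΛ.two_le
  have hMb : 0 < Mbar Λ n := by unfold Mbar; positivity
  refine ⟨den B n (n - 1), {τ | Lat B τ}, WW Λ B, Real.exp (-Mbar Λ n), Real.exp (2 * Mbar Λ n),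
    2 * Mbar Λ n + 1 + lbar Λ n, den_pos hB _, Real.exp_pos _, Real.exp_pos _, ?_, ?_, ?_, ?_⟩
  · -- T inside the coarse lattice
    intro τ hτ
    refine ⟨hτ.1, fun i => ?_⟩
    obtain ⟨z, hz⟩ := hτ.2 i
    obtain ⟨c, hc⟩ : den B n i.val ∣ den B n (n - 1) := den_dvd (by have := i.isLt; omega)
    refine ⟨z * c, ?_⟩
    have h1 : (den B n i.val : ℝ) ≠ 0 := by
      have := den_pos (n := n) hB i.val; positivity
    have h3 : (c : ℝ) ≠ 0 := by
      intro h0
      have : c = 0 := by exact_mod_cast h0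
      have h4 := den_pos (n := n) hB (n - 1)
      rw [hc, this] at h4; simp at h4
    rw [hz, hc]
    push_cast
    field_simp
  · -- integer sequences
    intro τ hτ
    refine ⟨fun a b hab => ?_, fun i => ?_⟩
    · have h3 := hτ hab
      show ((τ b : ℤ) : ℝ) ≤ ((τ a : ℤ) : ℝ)
      exact_mod_cast h3
    · refine ⟨τ i * den B n i.val, ?_⟩
      have h1 : (den B n i.val : ℝ) ≠ 0 := by
        have := den_pos (n := n) hB i.val; positivity
      push_cast
      field_simp
  · -- bounds on `W`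
    intro τ
    unfold WW
    rw [Finset.mul_sum, Finset.mul_sum]
    constructor
    · apply Finset.sum_le_sum
      intro i _
      exact mul_le_mul_of_nonneg_right (om_bounds h2 τ i).1 (Real.exp_pos _).le
    · apply Finset.sum_le_sum
      intro i _
      exact mul_le_mul_of_nonneg_right (om_bounds h2 τ i).2 (Real.exp_pos _).le
  · -- maximisers
    intro x hx π τ hτ hmax
    have hmaxi : IsMaxi Λ B x π τ := ⟨hτ, fun π' τ' hτ' => hmax π' τ' hτ'⟩
    refine ⟨fun s hs hpos => final_sign hB hΛ hx hmaxi s hs hpos, fun i => ?_⟩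
    have hlbar0 : 0 ≤ lbar Λ n := by
      unfold lbar
      have : 0 ≤ Real.log (2 * Mbar Λ n + 3) := Real.log_nonneg (by linarith)
      linarith
    rw [abs_sub_comm]
    rcases swing hB hΛ hx hmaxi i with ⟨e, _, hb⟩ | hb
    · have := MM_le (B := B) h2 τ e.isLt.le
      linarith
    · linarith

end Crest.Agent.S0122Lib
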