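import Crest.Agent.S0122.Chain

/-! Part B: from the Core Lemma to chains. -/

set_option autoImplicit false
set_option linter.unusedSectionVars false
set_option linter.unusedVariables false

namespace Crest.Agent.S0122Lib

open Finset

variable {d : ℕ}

/-! ### Constraint shape -/

/-- The constraint `∑ τ_i x_{e i} - w + η ≤ 0`. -/
noncomputable def mkC {n : ℕ} (e : Fin n ↪ Fin d) (τ : Fin n → ℝ) (w η : ℝ) : Cstr d :=
  ⟨fun l => ∑ i, if e i = l then τ i else 0, w - η⟩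

lemma mkC_pair {n : ℕ} (e : Fin n ↪ Fin d) (τ : Fin n → ℝ) (w η : ℝ) (x : Fin d → ℝ) :
    ∑ l, x l * (mkC e τ w η).L l = ∑ i, τ i * x (e i) := by
  simp only [mkC, Finset.mul_sum]
  rw [Finset.sum_comm]
  refine Finset.sum_congr rfl fun i _ => ?_
  rw [Finset.sum_eq_single (e i)]
  · simp [mul_comm]
  · intro b _ hb
    simp [Ne.symm hb]
  · simp

lemma mkC_val {n : ℕ} (e : Fin n ↪ Fin d) (τ : Fin n → ℝ) (w η : ℝ) (x : Fin d → ℝ) :
    (mkC e τ w η).val x = ∑ i, τ i * x (e i) - w + η := by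
  have h1 := mkC_pair e τ w η x
  have h2 : ∑ i, (mkC e τ w η).L i * x i = ∑ l, x l * (mkC e τ w η).L l :=
    Finset.sum_congr rfl fun l _ => mul_comm _ _
  rw [Cstr.val, h2, h1]
  simp only [mkC]
  ring

/-! ### Elementary estimates -/

lemma E1 {w₀ A t y : ℝ} (hw : 0 < w₀) (hy0 : 0 < y) (hyA : y ≤ A) :
    t * y - w₀ * Real.exp t ≤ A ^ 2 / (2 * w₀) := by
  have hA : 0 ≤ A ^ 2 / (2 * w₀) := by positivity
  by_cases ht : t ≤ 0
  · have h1 : t * y ≤ 0 := mul_nonpos_of_nonpos_of_nonneg ht hy0.le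
    have h2 : 0 < w₀ * Real.exp t := mul_pos hw (Real.exp_pos t)
    linarith
  · push Not at ht
    have h1 : 1 + t + t ^ 2 / 2 ≤ Real.exp t := Real.quadratic_le_exp_of_nonneg ht.le
    have h2 : w₀ * (1 + t + t ^ 2 / 2) ≤ w₀ * Real.exp t := mul_le_mul_of_nonneg_left h1 hw.le
    have hy2 : y ^ 2 ≤ A ^ 2 := by nlinarith
    rw [le_div_iff₀ (by positivity)]
    have h3 : (t * y - w₀ * Real.exp t) * (2 * w₀) ≤ (t * y - w₀ * (1 + t + t ^ 2 / 2)) * (2 * w₀) :=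
      mul_le_mul_of_nonneg_right (by linarith) (by positivity)
    have h4 : (t * y - w₀ * (1 + t + t ^ 2 / 2)) * (2 * w₀) ≤ y ^ 2 := by
      nlinarith [sq_nonneg (y - w₀ * t), mul_pos hw hw, mul_pos (mul_pos hw hw) ht]
    linarith

lemma E2 {ε A w₀ C : ℝ} (hε : 0 < ε) (hw : 0 < w₀) :
    ∃ R : ℝ, 0 ≤ R ∧ ∀ y t : ℝ, ε ≤ y → y ≤ A → w₀ * Real.exp t - t * y ≤ C → |t| ≤ R := by
  refine ⟨max (|C| / ε) (1 + 2 * (|A| + |C|) / w₀), le_max_of_le_left (by positivity), ?_⟩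
  intro y t hy1 hy2 h
  by_cases ht : t < 0
  · rw [abs_of_neg ht]
    refine le_max_of_le_left ?_
    rw [le_div_iff₀ hε]
    have h1 : 0 < w₀ * Real.exp t := mul_pos hw (Real.exp_pos t)
    have h2 : -t * ε ≤ -t * y := mul_le_mul_of_nonneg_left hy1 (by linarith)
    have h3 : C ≤ |C| := le_abs_self C
    nlinarith
  · push Not at ht
    rw [abs_of_nonneg ht]
    refine le_max_of_le_right ?_
    by_contra hlt
    push Not at hlt
    have h1 : 1 + t + t ^ 2 / 2 ≤ Real.exp t := Real.quadratic_le_exp_of_nonneg ht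
    have h2 : w₀ * (1 + t + t ^ 2 / 2) ≤ w₀ * Real.exp t := mul_le_mul_of_nonneg_left h1 hw.le
    have hA1 : y ≤ |A| := hy2.trans (le_abs_self A)
    have hC1 : C ≤ |C| := le_abs_self C
    have ht1 : 1 ≤ t := by
      have : 0 ≤ 2 * (|A| + |C|) / w₀ := by positivity
      linarith
    have h3 : 2 * (|A| + |C|) < w₀ * t := by
      have : 2 * (|A| + |C|) / w₀ < t := by linarith
      rw [div_lt_iff₀ hw] at this
      linarith
    have h4 : t * y ≤ t * |A| := mul_le_mul_of_nonneg_left hA1 ht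
    have h5 : |C| ≤ t * |C| := by nlinarith [abs_nonneg C]
    have h6 : t * (2 * (|A| + |C|)) ≤ t * (w₀ * t) := mul_le_mul_of_nonneg_left h3.le ht
    nlinarith [abs_nonneg A, abs_nonneg C]

lemma lattice_finite {n N : ℕ} (hN : 0 < N) (R : ℝ) :
    {τ : Fin n → ℝ | (∀ i, ∃ z : ℤ, τ i = (z : ℝ) / (N : ℝ)) ∧ ∀ i, |τ i| ≤ R}.Finite := by
  have hN' : (0 : ℝ) < N := by exact_mod_cast hN
  set S : Set ℝ := {r | ∃ z : ℤ, r = (z : ℝ) / (N : ℝ) ∧ |r| ≤ R} with hS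
  have hSfin : S.Finite := by
    refine Set.Finite.subset (((Set.finite_Icc (-⌈R * N⌉) ⌈R * N⌉)).image
      (fun z : ℤ => (z : ℝ) / (N : ℝ))) ?_
    rintro r ⟨z, rfl, hr⟩
    refine ⟨z, ?_, rfl⟩
    have h1 : |(z : ℝ)| ≤ R * N := by
      rw [abs_div, Nat.abs_cast, div_le_iff₀ hN'] at hr
      exact hr
    have h2 := abs_le.mp h1
    constructor
    · have : (-(⌈R * N⌉ : ℤ) : ℝ) ≤ z := by
        have h3 := Int.le_ceil (R * N)
        linarith
      exact_mod_cast this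
    · have : (z : ℝ) ≤ (⌈R * N⌉ : ℤ) := by
        have h3 := Int.le_ceil (R * N)
        linarith
      exact_mod_cast this
  refine Set.Finite.subset (Set.Finite.pi (fun _ : Fin n => hSfin)) ?_
  rintro τ ⟨h1, h2⟩ i _
  obtain ⟨z, hz⟩ := h1 i
  exact ⟨z, hz, h2 i⟩

/-! ### The data of the Core Lemma -/

/-- The data delivered by the Core Lemma. -/
structure CD (n B : ℕ) (Q : ℝ) where
  N : ℕ
  T : Set (Fin n → ℝ)
  W : (Fin n → ℝ) → ℝ
  w₀ : ℝ
  w₁ : ℝ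
  S : ℝ
  hN : 0 < N
  hw₀ : 0 < w₀
  hw₁ : 0 < w₁
  hT : ∀ τ ∈ T, Antitone τ ∧ ∀ i, ∃ z : ℤ, τ i = (z : ℝ) / (N : ℝ)
  hint : ∀ τ : Fin n → ℤ, Antitone τ → (fun i => (τ i : ℝ)) ∈ T
  hW : ∀ τ : Fin n → ℝ, w₀ * ∑ i, Real.exp (τ i) ≤ W τ ∧ W τ ≤ w₁ * ∑ i, Real.exp (τ i)
  hmax : ∀ x : Fin n → ℝ, (∀ i, 0 < x i) → ∀ (π : Equiv.Perm (Fin n)), ∀ τ ∈ T,
      (∀ (π' : Equiv.Perm (Fin n)), ∀ τ' ∈ T,
        ∑ i, τ' i * x (π' i) - W τ' ≤ ∑ i, τ i * x (π i) - W τ) →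
      (∀ s : Fin n → ℤ, (∀ i, |s i| ≤ (B : ℤ)) → 0 < ∑ i, (s (π i) : ℝ) * τ i →
        Q ≤ ∑ i, (s i : ℝ) * Real.log (x i)) ∧
      ∀ i, |τ i - Real.log (x (π i))| ≤ S

lemma CD.nonempty_of_claim {n B : ℕ} {Q : ℝ} (h : CoreClaim n B Q) : Nonempty (CD n B Q) := by
  obtain ⟨N, T, W, w₀, w₁, S, hN, hw₀, hw₁, hT, hint, hW, hmax⟩ := h
  exact ⟨⟨N, T, W, w₀, w₁, S, hN, hw₀, hw₁, hT, hint, hW, hmax⟩⟩

variable {n B : ℕ} {Q' : ℝ}

/-- A value of a constraint at `x` is bounded by the sum of the elementary terms. -/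
lemma CD.sum_ge_of_W (D : CD n B Q') (τ : Fin n → ℝ) (y : Fin n → ℝ) :
    ∑ i, τ i * y i - D.W τ ≤ ∑ i, (τ i * y i - D.w₀ * Real.exp (τ i)) := by
  have h := (D.hW τ).1
  rw [Finset.sum_sub_distrib, ← Finset.mul_sum]
  linarith

/-- Coercivity: a large value forces bounded `τ`. -/
lemma CD.coercive (D : CD n B Q') {ε A C : ℝ} (hε : 0 < ε) :
    ∃ R : ℝ, 0 ≤ R ∧ ∀ (τ y : Fin n → ℝ), (∀ i, ε ≤ y i ∧ y i ≤ A) →
      C ≤ ∑ i, τ i * y i - D.W τ → ∀ i, |τ i| ≤ R := by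
  obtain ⟨R, hR, h⟩ := E2 (ε := ε) (A := A) (w₀ := D.w₀)
    (C := -C + n * (A ^ 2 / (2 * D.w₀))) hε D.hw₀
  refine ⟨R, hR, fun τ y hy hC i => ?_⟩
  have hb : ∀ j, τ j * y j - D.w₀ * Real.exp (τ j) ≤ A ^ 2 / (2 * D.w₀) := fun j =>
    E1 D.hw₀ (lt_of_lt_of_le hε (hy j).1) (hy j).2
  have h1 := D.sum_ge_of_W τ y
  have h2 : ∑ j, (τ j * y j - D.w₀ * Real.exp (τ j)) =
      (τ i * y i - D.w₀ * Real.exp (τ i)) +
        ∑ j ∈ univ.erase i, (τ j * y j - D.w₀ * Real.exp (τ j)) :=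
    (Finset.add_sum_erase _ _ (Finset.mem_univ i)).symm
  have h3 : ∑ j ∈ univ.erase i, (τ j * y j - D.w₀ * Real.exp (τ j)) ≤
      n * (A ^ 2 / (2 * D.w₀)) := by
    have hA : 0 ≤ A ^ 2 / (2 * D.w₀) := div_nonneg (sq_nonneg _) (by linarith [D.hw₀])
    calc _ ≤ ∑ j ∈ univ.erase i, (A ^ 2 / (2 * D.w₀)) := Finset.sum_le_sum fun j _ => hb j
      _ = ((univ.erase i).card : ℝ) * (A ^ 2 / (2 * D.w₀)) := by simp
      _ ≤ n * (A ^ 2 / (2 * D.w₀)) := by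
        refine mul_le_mul_of_nonneg_right ?_ hA
        have : (univ.erase i).card ≤ n := by
          simpa using Finset.card_le_univ (univ.erase i)
        exact_mod_cast this
  refine h (y i) (τ i) (hy i).1 (hy i).2 ?_
  linarith

/-- Existence of a global maximiser of the Core family at a positive point. -/
lemma CD.exists_maximiser (D : CD (n + 1) B Q') (y : Fin (n + 1) → ℝ) (hy : ∀ i, 0 < y i) :
    ∃ (π : Equiv.Perm (Fin (n + 1))), ∃ τ ∈ D.T, ∀ (π' : Equiv.Perm (Fin (n + 1))), ∀ τ' ∈ D.T,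
      ∑ i, τ' i * y (π' i) - D.W τ' ≤ ∑ i, τ i * y (π i) - D.W τ := by
  classical
  obtain ⟨i₁, hi₁⟩ := Finite.exists_min y
  obtain ⟨i₂, hi₂⟩ := Finite.exists_max y
  have h0 : (fun _ : Fin (n + 1) => ((0 : ℤ) : ℝ)) ∈ D.T :=
    D.hint (fun _ => 0) (fun _ _ _ => le_rfl)
  set τ₀ : Fin (n + 1) → ℝ := fun _ => ((0 : ℤ) : ℝ) with hτ₀
  set v₀ : ℝ := ∑ i, τ₀ i * y ((1 : Equiv.Perm (Fin (n + 1))) i) - D.W τ₀ with hv₀
  obtain ⟨R, hR0, hR⟩ := D.coercive (ε := y i₁) (A := y i₂) (C := v₀) (hy i₁)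
  have hF : {τ : Fin (n + 1) → ℝ | (∀ i, ∃ z : ℤ, τ i = (z : ℝ) / (D.N : ℝ)) ∧ ∀ i, |τ i| ≤ R}.Finite :=
    lattice_finite D.hN R
  set F : Set (Fin (n + 1) → ℝ) := D.T ∩ {τ | (∀ i, ∃ z : ℤ, τ i = (z : ℝ) / (D.N : ℝ)) ∧ ∀ i, |τ i| ≤ R}
    with hFdef
  have hFfin : F.Finite := hF.subset Set.inter_subset_right
  have hτ₀F : τ₀ ∈ F := by
    refine ⟨h0, (D.hT τ₀ h0).2, fun i => ?_⟩
    simpa [hτ₀] using hR0
  set s : Finset (Equiv.Perm (Fin (n + 1)) × (Fin (n + 1) → ℝ)) :=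
    (Finset.univ : Finset (Equiv.Perm (Fin (n + 1)))) ×ˢ hFfin.toFinset with hs
  have hsne : s.Nonempty := ⟨(1, τ₀), by simp [hs, hτ₀F]⟩
  obtain ⟨⟨π, τ⟩, hmem, hmaxs⟩ := Finset.exists_max_image s
    (fun a => ∑ i, a.2 i * y (a.1 i) - D.W a.2) hsne
  have hτF : τ ∈ F := by
    have := (Finset.mem_product.mp hmem).2
    simpa using this
  refine ⟨π, τ, hτF.1, fun π' τ' hτ' => ?_⟩
  by_cases hin : τ' ∈ F
  · exact hmaxs (π', τ') (by simp [hs, hin])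
  · have hlt : ∑ i, τ' i * y (π' i) - D.W τ' < v₀ := by
      by_contra hge
      push Not at hge
      apply hin
      refine ⟨hτ', (D.hT τ' hτ').2, fun i => ?_⟩
      have := hR τ' (y ∘ π') (fun j => ⟨hi₁ _, hi₂ _⟩) hge i
      exact this
    have h2 := hmaxs (1, τ₀) (by simp [hs, hτ₀F])
    simp only at h2
    exact hlt.le.trans h2

/-! ### Groups of constraints -/

/-- A group of constraints from the Core family, with `τ` restricted by `P`, at level `η`. -/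
def grp (D : CD n B Q') (P : (Fin n → ℝ) → Prop) (η : ℝ) : Set (Cstr d) :=
  {a | ∃ (e : Fin n ↪ Fin d), ∃ τ ∈ D.T, P τ ∧ a = mkC e τ (D.W τ) η}

lemma grp_lf (D : CD n B Q') (P : (Fin n → ℝ) → Prop) (η ε : ℝ) (hε : 0 < ε) (A : ℝ) :
    {a ∈ (grp D P η : Set (Cstr d)) |
      ∃ y : Fin d → ℝ, (∀ i, ε ≤ y i ∧ y i ≤ A) ∧ 0 ≤ a.val y}.Finite := by
  classical
  obtain ⟨R, hR0, hR⟩ := D.coercive (ε := ε) (A := A) (C := -η) hε
  have hF := lattice_finite (n := n) D.hN R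
  refine Set.Finite.subset ((Set.finite_univ (α := Fin n ↪ Fin d)).prod hF |>.image
    (fun q => mkC q.1 q.2 (D.W q.2) η)) ?_
  rintro a ⟨⟨e, τ, hτ, hP, rfl⟩, y, hy, hval⟩
  refine ⟨(e, τ), ⟨Set.mem_univ _, (D.hT τ hτ).2, ?_⟩, rfl⟩
  rw [mkC_val] at hval
  exact hR τ (fun i => y (e i)) (fun i => hy (e i)) (by linarith)

/-! ### Sign compatibility from the Core Lemma -/

lemma sgn_of_core {Q : ℝ} (D : CD n B Q') (x : Fin d → ℝ) (hx : ∀ l, 0 < x l)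
    (e : Fin n ↪ Fin d) (τ : Fin n → ℝ) (hτ : τ ∈ D.T)
    (hmax : ∀ (π' : Equiv.Perm (Fin n)), ∀ τ' ∈ D.T,
       ∑ i, τ' i * x (e (π' i)) - D.W τ' ≤ ∑ i, τ i * x (e i) - D.W τ)
    {T₀ : ℝ} (hT₀ : 0 ≤ T₀) (hLB : ∀ l, l ∉ Set.range e → |Real.log (x l)| ≤ T₀)
    (hQ : Q' = Q + d * B * T₀) (w η : ℝ) :
    Sgn B Q (mkC e τ w η).L x := by
  classical
  intro s hs hpos
  have hpos' : 0 < ∑ i, ((s (e ((1 : Equiv.Perm (Fin n)) i)) : ℤ) : ℝ) * τ i := by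
    have h := mkC_pair e τ w η (fun l => (s l : ℝ))
    rw [h] at hpos
    simpa [mul_comm] using hpos
  have h1 := (D.hmax (fun i => x (e i)) (fun i => hx _) 1 τ hτ (by simpa using hmax)).1
    (fun i => s (e i)) (fun i => hs _) hpos'
  -- split the sum
  set I : Finset (Fin d) := Finset.univ.image e with hI
  have h2 : ∑ l ∈ I, (s l : ℝ) * Real.log (x l) = ∑ i, (s (e i) : ℝ) * Real.log (x (e i)) :=
    Finset.sum_image fun a _ b _ hab => e.injective hab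
  have h3 := Finset.sum_add_sum_compl I (fun l => (s l : ℝ) * Real.log (x l))
  have hB0 : (0 : ℝ) ≤ B := Nat.cast_nonneg _
  have h4 : ∀ l ∈ Iᶜ, -((B : ℝ) * T₀) ≤ (s l : ℝ) * Real.log (x l) := by
    intro l hl
    have hl' : l ∉ Set.range e := by
      rintro ⟨i, rfl⟩
      exact (Finset.mem_compl.mp hl) (Finset.mem_image_of_mem _ (Finset.mem_univ i))
    have h5 := hLB l hl'
    have h6 : |(s l : ℝ)| ≤ B := by exact_mod_cast hs l
    have h7 : |(s l : ℝ) * Real.log (x l)| ≤ B * T₀ := by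
      rw [abs_mul]
      exact mul_le_mul h6 h5 (abs_nonneg _) hB0
    linarith [neg_abs_le ((s l : ℝ) * Real.log (x l))]
  have h8 : -((d : ℝ) * B * T₀) ≤ ∑ l ∈ Iᶜ, (s l : ℝ) * Real.log (x l) := by
    have h9 : (Iᶜ.card : ℝ) • (-((B : ℝ) * T₀)) ≤ ∑ l ∈ Iᶜ, (s l : ℝ) * Real.log (x l) := by
      have := Finset.card_nsmul_le_sum Iᶜ _ _ h4
      simpa [nsmul_eq_mul] using this
    have h10 : (Iᶜ.card : ℝ) ≤ d := by
      have : Iᶜ.card ≤ d := by simpa using Finset.card_le_univ Iᶜ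
      exact_mod_cast this
    have h11 : (0 : ℝ) ≤ B * T₀ := mul_nonneg hB0 hT₀
    rw [smul_eq_mul] at h9
    nlinarith
  have h12 : Q' ≤ ∑ l ∈ I, (s l : ℝ) * Real.log (x l) := by
    rw [h2]; exact h1
  rw [← h3]
  linarith

/-! ### Partial chains -/

/-- A partial chain: the top group and the caps of dimensions `> n`, at indices `≤ m`. -/
structure Partial (B : ℕ) (Q : ℝ) (C₀ : Set (Fin d → ℝ)) (A : ℝ) (m n : ℕ)
    (g : ℕ → Set (Cstr d)) (T₀ ηb : ℝ) : Prop where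
  hT : 0 ≤ T₀
  hη : 0 < ηb
  lf : ∀ j ≤ m, ∀ ε > 0, ∀ A' : ℝ,
    {a ∈ g j | ∃ y : Fin d → ℝ, (∀ i, ε ≤ y i ∧ y i ≤ A') ∧ 0 ≤ a.val y}.Finite
  sgn : ∀ j ≤ m, ∀ x : Fin d → ℝ, (∀ i, 0 < x i) → (∀ j' < j, ∀ a ∈ g j', a.val x ≤ 0) →
    ∀ a ∈ g j, 0 ≤ a.val x → (∀ a' ∈ g j, a'.val x ≤ a.val x) → Sgn B Q a.L x
  inner : ∀ j ≤ m, ∀ a ∈ g j, ∀ z ∈ C₀, a.val z < 0
  upper : ∀ x : Fin d → ℝ, (∀ j ≤ m, ∀ a ∈ g j, a.val x ≤ 0) → ∀ l, x l ≤ A
  low : ∃ ε > 0, ∀ x : Fin d → ℝ, (∀ j ≤ m, ∀ a ∈ g j, a.val x ≤ 0) →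
    ∀ e : Fin (n + 1) ↪ Fin d, ε ≤ ∑ i, x (e i)
  lb : ∀ x : Fin d → ℝ, (∀ i, 0 < x i) → (∀ j ≤ m, ∀ a ∈ g j, a.val x ≤ 0) →
    ∀ e : Fin n ↪ Fin d, ∑ i, x (e i) ≤ ηb → ∀ l, l ∉ Set.range e → |Real.log (x l)| ≤ T₀

/-- Positive lower and upper bounds on the coordinates of a finite set of positive points. -/
lemma exists_bounds {d' : ℕ} {C₀ : Set (Fin (d' + 1) → ℝ)} (hfin : C₀.Finite)
    (hpos : ∀ z ∈ C₀, ∀ i, 0 < z i) :
    ∃ δ₀ A₀ : ℝ, 0 < δ₀ ∧ 0 < A₀ ∧ ∀ z ∈ C₀, ∀ i, δ₀ ≤ z i ∧ z i ≤ A₀ := by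
  induction C₀, hfin using Set.Finite.induction_on with
  | empty => exact ⟨1, 1, one_pos, one_pos, by simp⟩
  | @insert z C _ _ ih =>
    obtain ⟨δ, A, hδ, hA, h⟩ := ih fun w hw => hpos w (Set.mem_insert_of_mem _ hw)
    obtain ⟨i₁, hi₁⟩ := Finite.exists_min z
    obtain ⟨i₂, hi₂⟩ := Finite.exists_max z
    have hz := hpos z (Set.mem_insert _ _)
    refine ⟨min δ (z i₁), max A (z i₂), lt_min hδ (hz i₁), lt_max_of_lt_left hA, ?_⟩
    rintro w (rfl | hw) i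
    · exact ⟨(min_le_right _ _).trans (hi₁ i), (hi₂ i).trans (le_max_right _ _)⟩
    · exact ⟨(min_le_left _ _).trans (h w hw i).1, (h w hw i).2.trans (le_max_left _ _)⟩

/-- The base of the induction: the top group. -/
lemma partial_base {d' : ℕ} (B : ℕ) (Q : ℝ) (hcore : CoreClaim (d' + 1) B Q)
    (C₀ : Set (Fin (d' + 1) → ℝ)) {A₀ : ℝ} (hA₀ : 0 < A₀) (hpos : ∀ z ∈ C₀, ∀ i, 0 < z i)
    (hbd : ∀ z ∈ C₀, ∀ i, z i ≤ A₀) :
    ∃ (A : ℝ) (g : ℕ → Set (Cstr (d' + 1))) (T₀ ηb : ℝ), Partial B Q C₀ A 0 (d' + 1) g T₀ ηb := by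
  classical
  obtain ⟨D⟩ := CD.nonempty_of_claim hcore
  set m : ℝ := ((d' + 1 : ℕ) : ℝ) * (A₀ ^ 2 / (2 * D.w₀)) + 1 with hm
  let τ₁ : Fin (d' + 1) → ℤ := fun i => if i = 0 then 1 else 0
  have hτ₁ : Antitone τ₁ := by
    intro a b hab
    by_cases hb : b = 0
    · subst hb
      have : a = 0 := Fin.le_zero_iff.mp hab
      simp [this]
    · simp only [τ₁, if_neg hb]
      split_ifs <;> norm_num
  set τ₂ : Fin (d' + 1) → ℝ := fun i => (τ₁ i : ℝ) with hτ₂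
  have hτ₂T : τ₂ ∈ D.T := D.hint τ₁ hτ₁
  set A : ℝ := m + D.w₁ * ∑ i, Real.exp (τ₂ i) with hA
  refine ⟨A, fun _ => grp D (fun _ => True) (-m), 0, 1, le_rfl, one_pos, ?_, ?_, ?_, ?_, ?_, ?_⟩
  · intro j _ ε hε A'
    exact grp_lf D _ _ ε hε A'
  · intro j hj x hx _ a ha hval hmaxa
    obtain ⟨e, τ, hτ, -, rfl⟩ := ha
    refine sgn_of_core D x hx e τ hτ ?_ le_rfl ?_ (by simp) _ _
    · intro π' τ' hτ'
      have h := hmaxa (mkC (π'.toEmbedding.trans e) τ' (D.W τ') (-m))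
        ⟨_, τ', hτ', trivial, rfl⟩
      rw [mkC_val, mkC_val] at h
      simp only [Function.Embedding.trans_apply, Equiv.coe_toEmbedding] at h
      linarith
    · intro l hl
      exact absurd ((Finite.injective_iff_surjective.mp e.injective) l) (by simpa using hl)
  · intro j _ a ha z hz
    obtain ⟨e, τ, hτ, -, rfl⟩ := ha
    rw [mkC_val]
    have h1 := D.sum_ge_of_W τ (fun i => z (e i))
    have h2 : ∑ i, (τ i * z (e i) - D.w₀ * Real.exp (τ i)) ≤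
        ((d' + 1 : ℕ) : ℝ) * (A₀ ^ 2 / (2 * D.w₀)) := by
      calc _ ≤ ∑ i : Fin (d' + 1), (A₀ ^ 2 / (2 * D.w₀)) :=
            Finset.sum_le_sum fun i _ => E1 D.hw₀ (hpos z hz _) (hbd z hz _)
        _ = _ := by simp
    linarith
  · intro x hx l
    have h := hx 0 le_rfl (mkC (Equiv.swap 0 l).toEmbedding τ₂ (D.W τ₂) (-m))
      ⟨_, τ₂, hτ₂T, trivial, rfl⟩
    rw [mkC_val] at h
    have h1 : ∑ i, τ₂ i * x ((Equiv.swap 0 l).toEmbedding i) = x l := by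
      rw [Finset.sum_eq_single 0]
      · simp [τ₂, τ₁]
      · intro b _ hb
        simp [τ₂, τ₁, hb]
      · simp
    rw [h1] at h
    have h2 := (D.hW τ₂).2
    simp only [hA]
    linarith
  · refine ⟨1, one_pos, fun x _ e => ?_⟩
    have := Fintype.card_le_of_embedding e
    simp at this
  · intro x _ _ e _ l hl
    exact absurd ((Finite.injective_iff_surjective.mp e.injective) l) (by simpa using hl)

/-- The step of the induction: add the caps of dimension `n + 1`. -/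
lemma partial_step {Q A δ₀ T₀ ηb : ℝ} {C₀ : Set (Fin d → ℝ)} {m n : ℕ} {g : ℕ → Set (Cstr d)}
    (hcore : CoreClaim (n + 1) B (Q + d * B * T₀)) (hδ₀ : 0 < δ₀)
    (hA : ∀ z ∈ C₀, ∀ i, δ₀ ≤ z i)
    (hP : Partial B Q C₀ A m (n + 1) g T₀ ηb) :
    ∃ (g' : ℕ → Set (Cstr d)) (T' ηb' : ℝ), Partial B Q C₀ A (m + 1) n g' T' ηb' := by
  classical
  obtain ⟨D⟩ := CD.nonempty_of_claim hcore
  set η : ℝ := min (δ₀ / 2) (min (Real.exp (-1 - D.S)) ηb) with hη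
  have hηpos : 0 < η := lt_min (by linarith) (lt_min (Real.exp_pos _) hP.hη)
  have hη1 : η ≤ δ₀ / 2 := min_le_left _ _
  have hη2 : η ≤ Real.exp (-1 - D.S) := (min_le_right _ _).trans (min_le_left _ _)
  have hη3 : η ≤ ηb := (min_le_right _ _).trans (min_le_right _ _)
  let P : (Fin (n + 1) → ℝ) → Prop := fun τ => τ 0 ≤ -1
  let G : Set (Cstr d) := grp D P η
  let g' : ℕ → Set (Cstr d) := fun j => if j ≤ m then g j else G
  have hg'1 : ∀ j ≤ m, g' j = g j := fun j hj => if_pos hj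
  have hg'2 : g' (m + 1) = G := if_neg (by omega)
  have hprior : ∀ x : Fin d → ℝ, (∀ j ≤ m + 1, ∀ a ∈ g' j, a.val x ≤ 0) →
      ∀ j ≤ m, ∀ a ∈ g j, a.val x ≤ 0 := by
    intro x hx j hj a ha
    exact hx j (by omega) a (by rw [hg'1 j hj]; exact ha)
  have hτneg : ∀ τ ∈ D.T, P τ → ∀ i, τ i ≤ -1 := fun τ hτ hPτ i =>
    ((D.hT τ hτ).1 (Fin.zero_le i)).trans hPτ
  have hWpos : ∀ τ, 0 < D.W τ := by
    intro τ
    have h1 := (D.hW τ).1
    have h2 : 0 < ∑ i, Real.exp (τ i) := Finset.sum_pos (fun i _ => Real.exp_pos _) ⟨0, Finset.mem_univ _⟩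
    have h3 := mul_pos D.hw₀ h2
    linarith
  -- the lower bound from the cap
  obtain ⟨K, hK⟩ := exists_nat_gt (max 1 (2 * D.w₁ * ((n + 1 : ℕ) : ℝ) / η))
  have hK1 : (1 : ℝ) < K := lt_of_le_of_lt (le_max_left _ _) hK
  have hK2 : 2 * D.w₁ * ((n + 1 : ℕ) : ℝ) / η < K := lt_of_le_of_lt (le_max_right _ _) hK
  have hK0 : (0 : ℝ) < K := by linarith
  let τK : Fin (n + 1) → ℤ := fun _ => -(K : ℤ)
  have hτK : Antitone τK := fun _ _ _ => le_rfl
  set τK' : Fin (n + 1) → ℝ := fun i => (τK i : ℝ) with hτK'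
  have hτK'T : τK' ∈ D.T := D.hint τK hτK
  have hτK'P : P τK' := by
    simp only [P, τK', τK]
    push_cast
    linarith
  have hWK : D.W τK' ≤ η / 2 := by
    have h1 := (D.hW τK').2
    have h2 : ∑ i, Real.exp (τK' i) = ((n + 1 : ℕ) : ℝ) * Real.exp (-(K : ℝ)) := by
      simp [τK', τK]
    have h3 : Real.exp (-(K : ℝ)) ≤ 1 / K := by
      rw [Real.exp_neg, inv_eq_one_div]
      refine one_div_le_one_div_of_le hK0 ?_
      linarith [Real.add_one_le_exp (K : ℝ)]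
    have h4 : 2 * D.w₁ * ((n + 1 : ℕ) : ℝ) < K * η := by
      rw [div_lt_iff₀ hηpos] at hK2
      linarith
    have hn0 : (0 : ℝ) ≤ ((n + 1 : ℕ) : ℝ) := Nat.cast_nonneg _
    have h5 : D.w₁ * (((n + 1 : ℕ) : ℝ) * Real.exp (-(K : ℝ))) ≤
        D.w₁ * (((n + 1 : ℕ) : ℝ) * (1 / K)) :=
      mul_le_mul_of_nonneg_left (mul_le_mul_of_nonneg_left h3 hn0) D.hw₁.le
    have h6 : D.w₁ * (((n + 1 : ℕ) : ℝ) * (1 / K)) ≤ η / 2 := by
      have : D.w₁ * (((n + 1 : ℕ) : ℝ) * (1 / K)) = (D.w₁ * ((n + 1 : ℕ) : ℝ)) / K := by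
        field_simp
      rw [this, div_le_iff₀ hK0]
      linarith
    rw [h2] at h1
    linarith
  set ε : ℝ := η / (2 * K) with hε
  have hεpos : 0 < ε := by positivity
  have hlow : ∀ x : Fin d → ℝ, (∀ j ≤ m + 1, ∀ a ∈ g' j, a.val x ≤ 0) →
      ∀ e : Fin (n + 1) ↪ Fin d, ε ≤ ∑ i, x (e i) := by
    intro x hx e
    have h := hx (m + 1) le_rfl (mkC e τK' (D.W τK') η)
      (by rw [hg'2]; exact ⟨e, τK', hτK'T, hτK'P, rfl⟩)
    rw [mkC_val] at h
    have h1 : ∑ i, τK' i * x (e i) = -(K : ℝ) * ∑ i, x (e i) := by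
      rw [Finset.mul_sum]
      refine Finset.sum_congr rfl fun i _ => ?_
      simp [τK', τK]
    rw [h1] at h
    rw [hε, div_le_iff₀ (by positivity)]
    linarith
  -- the new constants
  refine ⟨g', max |Real.log A| |Real.log (ε / 2)|, ε / 2, ⟨le_max_of_le_left (abs_nonneg _),
    by positivity, ?_, ?_, ?_, ?_, ⟨ε, hεpos, hlow⟩, ?_⟩⟩
  · intro j hj ε' hε' A'
    by_cases hjm : j ≤ m
    · rw [hg'1 j hjm]
      exact hP.lf j hjm ε' hε' A'
    · have : j = m + 1 := by omega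
      subst this
      rw [hg'2]
      exact grp_lf D _ _ ε' hε' A'
  · intro j hj x hx hprev a ha hval hmaxa
    by_cases hjm : j ≤ m
    · rw [hg'1 j hjm] at ha hmaxa
      refine hP.sgn j hjm x hx (fun j' hj' a' ha' => ?_) a ha hval hmaxa
      exact hprev j' hj' a' (by rw [hg'1 j' (by omega)]; exact ha')
    · have hjeq : j = m + 1 := by omega
      subst hjeq
      rw [hg'2] at ha hmaxa
      have hprior' : ∀ j ≤ m, ∀ a ∈ g j, a.val x ≤ 0 := by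
        intro j' hj' a' ha'
        exact hprev j' (by omega) a' (by rw [hg'1 j' hj']; exact ha')
      obtain ⟨e, τ, hτ, hPτ, rfl⟩ := ha
      rw [mkC_val] at hval
      have hneg := hτneg τ hτ hPτ
      have hsum : ∑ i, x (e i) ≤ η := by
        have h1 : ∑ i, τ i * x (e i) ≤ ∑ i, -x (e i) := by
          refine Finset.sum_le_sum fun i _ => ?_
          have := hx (e i)
          nlinarith [hneg i]
        rw [Finset.sum_neg_distrib] at h1
        linarith [hWpos τ]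
      have hLB := hP.lb x hx hprior' e (hsum.trans hη3)
      obtain ⟨πs, τs, hτs, hglobal⟩ := D.exists_maximiser (fun i => x (e i)) (fun i => hx _)
      have hswing := (D.hmax (fun i => x (e i)) (fun i => hx _) πs τs hτs hglobal).2 0
      have hPs : P τs := by
        have h1 : x (e (πs 0)) ≤ η := by
          refine le_trans ?_ hsum
          exact Finset.single_le_sum (f := fun i => x (e i)) (fun i _ => (hx _).le) (Finset.mem_univ _)
        have h2 : Real.log (x (e (πs 0))) ≤ -1 - D.S := by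
          have h3 : x (e (πs 0)) ≤ Real.exp (-1 - D.S) := h1.trans hη2
          have := Real.log_le_log (hx _) h3
          rwa [Real.log_exp] at this
        have h3 := (abs_le.mp hswing).2
        simp only [P]
        linarith
      have hcomp := hmaxa (mkC (πs.toEmbedding.trans e) τs (D.W τs) η)
        ⟨_, τs, hτs, hPs, rfl⟩
      rw [mkC_val, mkC_val] at hcomp
      simp only [Function.Embedding.trans_apply, Equiv.coe_toEmbedding] at hcomp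
      refine sgn_of_core D x hx e τ hτ ?_ hP.hT hLB rfl _ _
      intro π' τ' hτ'
      have h1 := hglobal π' τ' hτ'
      linarith
  · intro j hj a ha z hz
    by_cases hjm : j ≤ m
    · rw [hg'1 j hjm] at ha
      exact hP.inner j hjm a ha z hz
    · have hjeq : j = m + 1 := by omega
      subst hjeq
      rw [hg'2] at ha
      obtain ⟨e, τ, hτ, hPτ, rfl⟩ := ha
      rw [mkC_val]
      have hneg := hτneg τ hτ hPτ
      have hzpos : ∀ l, δ₀ ≤ z l := hA z hz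
      have h1 : ∑ i, τ i * z (e i) ≤ τ 0 * z (e 0) := by
        rw [← Finset.add_sum_erase _ _ (Finset.mem_univ (0 : Fin (n + 1)))]
        have : ∑ i ∈ univ.erase 0, τ i * z (e i) ≤ 0 := by
          refine Finset.sum_nonpos fun i _ => ?_
          have := hzpos (e i)
          nlinarith [hneg i]
        linarith
      have h2 : τ 0 * z (e 0) ≤ -δ₀ := by
        have := hzpos (e 0)
        nlinarith [hneg 0]
      linarith [hWpos τ]
  · intro x hx l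
    exact hP.upper x (hprior x hx) l
  · intro x hx hcons e hsum l hl
    have hinj : Function.Injective (Fin.cons l e : Fin (n + 1) → Fin d) :=
      (Fin.cons_injective_iff).mpr ⟨hl, e.injective⟩
    have h1 := hlow x hcons ⟨Fin.cons l e, hinj⟩
    simp only [Function.Embedding.coeFn_mk] at h1
    rw [Fin.sum_univ_succ] at h1
    simp only [Fin.cons_zero, Fin.cons_succ] at h1
    have h2 : ε / 2 ≤ x l := by linarith
    have h3 := hP.upper x (hprior x hcons) l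
    have h4 := hx l
    have h5 : Real.log (x l) ≤ Real.log A := Real.log_le_log h4 h3
    have h6 : Real.log (ε / 2) ≤ Real.log (x l) := Real.log_le_log (by positivity) h2
    rw [abs_le]
    constructor
    · have : -|Real.log (ε / 2)| ≤ Real.log (ε / 2) := neg_abs_le _
      have h7 := le_max_right |Real.log A| |Real.log (ε / 2)|
      linarith
    · have : Real.log A ≤ |Real.log A| := le_abs_self _
      have h7 := le_max_left |Real.log A| |Real.log (ε / 2)|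
      linarith

theorem exists_chain_of_core (d B : ℕ) (hd : 1 ≤ d) (hB : 1 ≤ B) (Q : ℝ)
    (hcore : ∀ n, 1 ≤ n → ∀ Q', CoreClaim n B Q')
    (C₀ : Set (Fin d → ℝ)) (hfin : C₀.Finite) (hpos : ∀ z ∈ C₀, ∀ i, 0 < z i) :
    Nonempty (Chain d B Q C₀) := by
  classical
  obtain ⟨d', rfl⟩ : ∃ d', d = d' + 1 := ⟨d - 1, by omega⟩
  obtain ⟨δ₀, A₀, hδ₀, hA₀, hbd⟩ := exists_bounds hfin hpos
  obtain ⟨A, g₀, T₀, ηb₀, hbase⟩ := partial_base (d' := d') B Q (hcore _ (by omega) Q) C₀ hA₀ hpos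
    (fun z hz i => (hbd z hz i).2)
  have hind : ∀ k n, n + k = d' + 1 → ∃ (g : ℕ → Set (Cstr (d' + 1))) (T' ηb' : ℝ),
      Partial B Q C₀ A k n g T' ηb' := by
    intro k
    induction k with
    | zero =>
      intro n hn
      have : n = d' + 1 := by omega
      subst this
      exact ⟨g₀, T₀, ηb₀, hbase⟩
    | succ k ih =>
      intro n hn
      obtain ⟨g, T', ηb', hP⟩ := ih (n + 1) (by omega)
      exact partial_step (hcore _ (by omega) _) hδ₀ (fun z hz i => (hbd z hz i).1) hP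
  obtain ⟨g, T', ηb', hP⟩ := hind (d' + 1) 0 (by omega)
  obtain ⟨ε, hε, hlow⟩ := hP.low
  refine ⟨⟨d' + 2, g, ?_, ?_, ?_, ε, hε, A, ?_⟩⟩
  · intro j hj ε' hε' A'
    exact hP.lf j (by omega) ε' hε' A'
  · intro j hj
    exact hP.sgn j (by omega)
  · intro j hj
    exact hP.inner j (by omega)
  · intro x hx i
    have hx' : ∀ j ≤ d' + 1, ∀ a ∈ g j, a.val x ≤ 0 := fun j hj => hx j (by omega)
    refine ⟨?_, hP.upper x hx' i⟩
    have h := hlow x hx' ⟨fun _ => i, fun a b _ => Fin.ext (by omega)⟩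
    rw [Fin.sum_univ_succ] at h
    simp only [Finset.univ_eq_empty, Finset.sum_empty, add_zero] at h
    exact h

end Crest.Agent.S0122Lib
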