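import Crest.Prelude.Def_MassAction
import Crest.Agent.S0122.CoreClaim

/-! The interface between Part B (constructing constraints) and Part C (dynamics). -/

set_option autoImplicit false

namespace Crest.Agent.S0122Lib

variable {d : ℕ}

/-- A constraint `⟨L, x⟩ - r ≤ 0`. -/
structure Cstr (d : ℕ) where
  L : Fin d → ℝ
  r : ℝ

/-- Value of a constraint. -/
noncomputable def Cstr.val (a : Cstr d) (x : Fin d → ℝ) : ℝ := ∑ i, a.L i * x i - a.r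

/-- Sign compatibility of a normal `L` and a point `x`. -/
def Sgn (B : ℕ) (Q : ℝ) (L x : Fin d → ℝ) : Prop :=
  ∀ s : Fin d → ℤ, (∀ i, |s i| ≤ (B : ℤ)) → 0 < ∑ i, (s i : ℝ) * L i →
    Q ≤ ∑ i, (s i : ℝ) * Real.log (x i)

/-- An ordered family of groups of constraints around a given set `C₀` of positive points. -/
structure Chain (d B : ℕ) (Q : ℝ) (C₀ : Set (Fin d → ℝ)) where
  r : ℕ
  g : ℕ → Set (Cstr d)
  lf : ∀ j < r, ∀ ε > 0, ∀ A : ℝ, {a ∈ g j | ∃ y : Fin d → ℝ, (∀ i, ε ≤ y i ∧ y i ≤ A) ∧ 0 ≤ a.val y}.Finite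
  sgn : ∀ j < r, ∀ x : Fin d → ℝ, (∀ i, 0 < x i) → (∀ j' < j, ∀ a ∈ g j', a.val x ≤ 0) →
    ∀ a ∈ g j, 0 ≤ a.val x → (∀ a' ∈ g j, a'.val x ≤ a.val x) → Sgn B Q a.L x
  inner : ∀ j < r, ∀ a ∈ g j, ∀ z ∈ C₀, a.val z < 0
  box : ∃ ε > 0, ∃ A : ℝ, ∀ x : Fin d → ℝ, (∀ j < r, ∀ a ∈ g j, a.val x ≤ 0) → ∀ i, ε ≤ x i ∧ x i ≤ A

/-- The set cut out by a chain. -/
def Chain.K {B : ℕ} {Q : ℝ} {C₀ : Set (Fin d → ℝ)} (ch : Chain d B Q C₀) : Set (Fin d → ℝ) :=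
  {x | ∀ j < ch.r, ∀ a ∈ ch.g j, a.val x ≤ 0}

open Crest.AnalysisR.MassAction in
/-- The property delivered by `field_inner` (Field.lean), used by the dynamics. -/
def FieldNeg (R : Network d) (k : (Fin d → ℕ) × (Fin d → ℕ) → ℝ) (B : ℕ) (Q : ℝ) : Prop :=
  ∀ x : Fin d → ℝ, (∀ i, 0 < x i) → ∀ L : Fin d → ℝ, Sgn B Q L x →
      ∑ i, field R k x i * L i ≤ 0 ∧
      (∑ i, field R k x i * L i = 0 → ∀ r ∈ R, ∑ i, reactionVector r i * L i = 0)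

end Crest.Agent.S0122Lib
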