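import Crest.Agent.S0122.Hier

/-! A3: the completion lemma. -/

set_option autoImplicit false

namespace Crest.Agent.S0122Lib

open Finset

variable {n : ℕ} {B : ℕ}

/-- `z e^{-z}` is decreasing on `z ≥ 1`. -/
private lemma mul_exp_neg_le {a z : ℝ} (ha : 1 ≤ a) (hz : a ≤ z) :
    z * Real.exp (-z) ≤ a * Real.exp (-a) := by
  have h1 : z - a + 1 ≤ Real.exp (z - a) := Real.add_one_le_exp _
  have h2 : z ≤ a * Real.exp (z - a) := by
    have h3 : z ≤ a * (z - a + 1) := by nlinarith
    exact h3.trans (mul_le_mul_of_nonneg_left h1 (by linarith))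
  have h4 : Real.exp (-z) > 0 := Real.exp_pos _
  calc z * Real.exp (-z) ≤ (a * Real.exp (z - a)) * Real.exp (-z) :=
        mul_le_mul_of_nonneg_right h2 h4.le
    _ = a * (Real.exp (z - a) * Real.exp (-z)) := by ring
    _ = a * Real.exp (-a) := by rw [← Real.exp_add]; congr 2; ring

/-- `e^X (t₀ - X) ≤ Mstar e^{t₀ - Mstar}`. -/
private lemma exp_mul_sub_le {X t₀ Mstar : ℝ} (hM1 : 1 ≤ Mstar) (hz : X ≤ t₀ - Mstar) :
    Real.exp X * (t₀ - X) ≤ Mstar * Real.exp (t₀ - Mstar) := by
  have h := mul_exp_neg_le hM1 (show Mstar ≤ t₀ - X by linarith)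
  have e1 : Real.exp X = Real.exp t₀ * Real.exp (-(t₀ - X)) := by
    rw [← Real.exp_add]; congr 1; ring
  have e2 : Real.exp (t₀ - Mstar) = Real.exp t₀ * Real.exp (-Mstar) := by
    rw [← Real.exp_add]; congr 1
  rw [e1, e2]
  have hp := Real.exp_pos t₀
  calc Real.exp t₀ * Real.exp (-(t₀ - X)) * (t₀ - X)
      = Real.exp t₀ * ((t₀ - X) * Real.exp (-(t₀ - X))) := by ring
    _ ≤ Real.exp t₀ * (Mstar * Real.exp (-Mstar)) := mul_le_mul_of_nonneg_left h hp.le
    _ = _ := by ring

/-- Cost of a pinned stage. -/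
private lemma stage_cost_pin {M Mstar Mb t t₀ X : ℝ} (hM0 : 0 ≤ M) (hM1 : 1 ≤ Mstar) (hM2 : Mstar ≤ Mb)
    (hMb : M ≤ Mb) (hz : X ≤ t₀ - Mstar) (h1 : t - M ≤ X) (h2 : X ≤ t + 2 * M + 1) :
    Real.exp (-M) * Real.exp t + Real.exp X * (t₀ - t) ≤ (3 * Mb + 3) * Real.exp (t₀ - Mstar) := by
  set E := Real.exp (t₀ - Mstar) with hE
  have hEpos : 0 < E := Real.exp_pos _
  have hX : Real.exp X ≤ E := Real.exp_le_exp.2 hz
  have hXpos : 0 < Real.exp X := Real.exp_pos _
  have e1 : Real.exp (-M) * Real.exp t = Real.exp (t - M) := by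
    rw [← Real.exp_add]; congr 1; ring
  have h3 : Real.exp (t - M) ≤ E := (Real.exp_le_exp.2 h1).trans hX
  have h4 := exp_mul_sub_le hM1 hz
  have h5 : Real.exp X * (X - t) ≤ E * (2 * M + 1) := by
    calc Real.exp X * (X - t) ≤ Real.exp X * (2 * M + 1) :=
          mul_le_mul_of_nonneg_left (by linarith) hXpos.le
      _ ≤ E * (2 * M + 1) := mul_le_mul_of_nonneg_right hX (by linarith)
  have h6 : Real.exp X * (t₀ - t) = Real.exp X * (t₀ - X) + Real.exp X * (X - t) := by ring
  rw [e1, h6]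
  nlinarith

/-- Cost of a free stage. -/
private lemma stage_cost_free {Mstar Mb t t₀ X : ℝ} (hM1 : 1 ≤ Mstar) (hM2 : Mstar ≤ Mb)
    (hz : X ≤ t₀ - Mstar) (h1 : X ≤ t) (h2 : t ≤ X + 1 / 4) :
    1 * Real.exp t + Real.exp X * (t₀ - t) ≤ (3 * Mb + 3) * Real.exp (t₀ - Mstar) := by
  set E := Real.exp (t₀ - Mstar) with hE
  have hEpos : 0 < E := Real.exp_pos _
  have hX : Real.exp X ≤ E := Real.exp_le_exp.2 hz
  have hXpos : 0 < Real.exp X := Real.exp_pos _
  have h3 : Real.exp t ≤ 2 * Real.exp X := by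
    have h4 : Real.exp t ≤ Real.exp (X + 1 / 4) := Real.exp_le_exp.2 h2
    rw [Real.exp_add] at h4
    have h5 : Real.exp (1 / 4) ≤ 2 := by
      have h6 := Real.add_one_le_exp (-(1 / 4) : ℝ)
      have h7 : Real.exp (1 / 4) * Real.exp (-(1 / 4)) = 1 := by
        rw [← Real.exp_add]; simp
      have h8 := Real.exp_pos (1 / 4 : ℝ)
      nlinarith
    nlinarith
  have h4 := exp_mul_sub_le hM1 hz
  have h5 : Real.exp X * (t₀ - t) ≤ Real.exp X * (t₀ - X) :=
    mul_le_mul_of_nonneg_left (by linarith) hXpos.le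
  nlinarith

/-- Choice of the next value. -/
private lemma choose_t {M T X : ℝ} {P : Set ℝ} {d : ℕ} (hM : 16 ≤ M) (hT : T ∈ P)
    (hXT : X ≤ T + 2 * M) (hd : 4 ≤ d) (hlat : ∀ p ∈ P, ∃ z : ℤ, p = (z : ℝ) / (d : ℝ)) :
    ∃ t : ℝ, t ≤ T ∧ (∃ z : ℤ, t = (z : ℝ) / (d : ℝ)) ∧
      ((t ∈ P ∧ t - M ≤ X ∧ X ≤ t + 2 * M + 1 ∧ (T - M ≤ X → t = T)) ∨
        (IsFree M P t ∧ X ≤ t ∧ t ≤ X + 1 / 4 ∧ X < T - M)) := by
  classical
  by_cases h1 : T - M ≤ X
  · exact ⟨T, le_refl _, hlat T hT, Or.inl ⟨hT, h1, by linarith, fun _ => rfl⟩⟩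
  · push Not at h1
    by_cases h2 : ∃ p ∈ P, p ≤ T ∧ p - M ≤ X ∧ X ≤ p + 2 * M + 1
    · obtain ⟨p, hp, hpT, hp1, hp2⟩ := h2
      exact ⟨p, hpT, hlat p hp, Or.inl ⟨hp, hp1, hp2, fun h => absurd h (by linarith)⟩⟩
    · push Not at h2
      have hdpos : (0 : ℝ) < d := by
        have : 0 < d := by omega
        exact_mod_cast this
      have hd4 : (4 : ℝ) ≤ d := by exact_mod_cast hd
      set z : ℤ := ⌈X * d⌉ with hz
      set t : ℝ := (z : ℝ) / (d : ℝ) with ht
      have ht1 : X ≤ t := by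
        rw [ht, le_div_iff₀ hdpos]
        exact Int.le_ceil _
      have ht2 : t ≤ X + 1 / 4 := by
        rw [ht, div_le_iff₀ hdpos]
        have h3 : (z : ℝ) < X * d + 1 := Int.ceil_lt_add_one _
        have h4 : (1 : ℝ) ≤ 1 / 4 * d := by linarith
        nlinarith
      have hfree : ∀ p ∈ P, t ≤ p - 1 ∨ p + 2 * M ≤ t := by
        intro p hp
        by_cases hpT : p ≤ T
        · by_cases hX : p - M ≤ X
          · have := h2 p hp hpT hX
            right
            linarith
          · push Not at hX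
            left
            linarith
        · push Not at hpT
          left
          linarith
      refine ⟨t, by linarith, ⟨z, rfl⟩, Or.inr ⟨⟨?_, ?_⟩, ht1, ht2, h1⟩⟩
      · intro htP
        rcases hfree t htP with h | h <;> linarith
      · rintro ⟨p, hp, hp1, hp2⟩
        rcases hfree p hp with h | h <;> linarith

/-- Completion: a prefix up to stage `i` can be completed so that the extra cost
`∑_{j>i} (ω_j e^{τ_j} + x_{π j} (t₀ - τ_j))` is tiny relative to `e^{t₀}`. -/
theorem completion {Λ Q : ℝ} (hB : 1 ≤ B) (hΛ : Good Λ B n Q) {x : Fin n → ℝ} (hx : ∀ i, 0 < x i)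
    (i : Fin n) (π : Equiv.Perm (Fin n)) (τ : Fin n → ℝ)
    (hanti : ∀ a b : Fin n, a ≤ b → b ≤ i → τ b ≤ τ a)
    (hlat : ∀ a : Fin n, a ≤ i → ∃ z : ℤ, τ a = (z : ℝ) / (den B n a.val : ℝ))
    (t₀ Mstar : ℝ) (hM1 : 1 ≤ Mstar) (hM2 : Mstar ≤ Mbar Λ n)
    (hinv : ∀ j : Fin n, i < j → x (π j) ≤ Real.exp (τ i + 2 * MM Λ B τ (i.val + 1)))
    (hcase : (τ i = t₀ ∧ Mstar ≤ MM Λ B τ (i.val + 1)) ∨
      (τ i ≤ t₀ ∧ ∀ j : Fin n, i < j → x (π j) ≤ Real.exp (t₀ - Mstar))) :
    ∃ (π' : Equiv.Perm (Fin n)) (τ' : Fin n → ℝ),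
      (∀ a : Fin n, a ≤ i → π' a = π a ∧ τ' a = τ a) ∧ Lat B τ' ∧
      ∑ j ∈ univ.filter (fun j : Fin n => i < j),
          (om Λ B τ' j * Real.exp (τ' j) + x (π' j) * (t₀ - τ' j)) ≤
        ((n - 1 - i.val : ℕ) : ℝ) * (3 * Mbar Λ n + 3) * Real.exp (t₀ - Mstar) := by
  classical
  obtain ⟨k, hk⟩ : ∃ k, n - 1 - i.val = k := ⟨_, rfl⟩
  rw [hk]
  induction k generalizing i π τ with
  | zero =>
    have hi : ∀ j : Fin n, ¬ i < j := by
      intro j hj
      have := j.2
      rw [Fin.lt_def] at hj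
      omega
    refine ⟨π, τ, fun a _ => ⟨rfl, rfl⟩, ⟨?_, ?_⟩, ?_⟩
    · intro a b hab
      exact hanti a b hab (not_lt.1 (hi b))
    · intro a
      exact hlat a (not_lt.1 (hi a))
    · rw [Finset.filter_false_of_mem (fun j _ => hi j)]
      simp
  | succ k ih =>
    have hm : i.val + 1 < n := by omega
    set m : Fin n := ⟨i.val + 1, hm⟩ with hmdef
    have him : i < m := by
      rw [Fin.lt_def]; simp [hmdef]
    have hmval : m.val = i.val + 1 := rfl
    set M := MM Λ B τ (i.val + 1) with hM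
    set P := Pos B τ (i.val + 1) with hP
    have h16 : 16 ≤ M := hΛ.sq_ge.trans (MM_ge hΛ.two_le τ hm)
    have hMb : M ≤ Mbar Λ n := MM_le hΛ.two_le τ hm.le
    obtain ⟨js, hjs, hjsmax⟩ := Finset.exists_max_image (univ.filter (fun j : Fin n => i < j))
      (fun j => x (π j)) ⟨m, by simp [him]⟩
    have hjsi : i < js := (Finset.mem_filter.1 hjs).2
    set y := x (π js) with hy
    have hypos : 0 < y := hx _
    set X := Real.log y with hX
    have hexpX : Real.exp X = y := Real.exp_log hypos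
    have hXT : X ≤ τ i + 2 * M := by
      rw [hX, Real.log_le_iff_le_exp hypos]
      exact hinv js hjsi
    have hTP : τ i ∈ P := prev_mem_Pos hB τ (j := i) (by omega)
    have hlatP : ∀ p ∈ P, ∃ z : ℤ, p = (z : ℝ) / (den B n (i.val + 1) : ℝ) := by
      intro p hp
      exact Pos_lattice hB (τ := τ) (m := m) (fun a ha => hlat a (by
        rw [Fin.le_def]; simp only [hmdef] at ha; omega)) hp
    obtain ⟨t, htT, htlat, hcases⟩ := choose_t h16 hTP hXT (four_le_den hB (i.val + 1)) hlatP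
    set π₁ : Equiv.Perm (Fin n) := π * Equiv.swap m js with hπ₁
    set τ₁ : Fin n → ℝ := Function.update τ m t with hτ₁
    have hτ₁m : τ₁ m = t := by simp [hτ₁]
    have hτ₁ne : ∀ a, a ≠ m → τ₁ a = τ a := fun a ha => by simp [hτ₁, Function.update_of_ne ha]
    have hπ₁m : π₁ m = π js := by simp [hπ₁]
    have hπ₁le : ∀ a : Fin n, a ≤ i → π₁ a = π a := by
      intro a ha
      have h1 : a ≠ m := by
        intro h; rw [h] at ha; exact absurd him (not_lt.2 ha)
      have h2 : a ≠ js := by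
        intro h; rw [h] at ha; exact absurd hjsi (not_lt.2 ha)
      simp [hπ₁, Equiv.swap_apply_of_ne_of_ne h1 h2]
    have hπ₁later : ∀ j : Fin n, m < j → x (π₁ j) ≤ y := by
      intro j hj
      have hj' : i < Equiv.swap m js j := by
        by_cases h1 : j = js
        · rw [h1, Equiv.swap_apply_right]; exact him
        · have h2 : j ≠ m := ne_of_gt hj
          rw [Equiv.swap_apply_of_ne_of_ne h2 h1]
          exact him.trans hj
      exact hjsmax _ (by simp [hj'])
    have hpre : ∀ j : Fin n, j.val < i.val + 1 → τ₁ j = τ j := by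
      intro j hj
      apply hτ₁ne
      intro h
      rw [h] at hj
      simp [hmdef] at hj
    have hP₁ : Pos B τ₁ (i.val + 1) = P := Pos_congr hpre
    have hM₁ : MM Λ B τ₁ (i.val + 1) = M := MM_congr hpre
    -- the pinned or free alternative in terms of `τ₁`
    have hlate : ∀ j : Fin n, m < j → m.val + 1 < n := by
      intro j hj
      have := j.2
      rw [Fin.lt_def] at hj
      omega
    have hexactcase : (τ i = t₀ ∧ Mstar ≤ M ∧ τ i - M ≤ X) ∨ (t ≤ t₀ ∧ X ≤ t₀ - Mstar) := by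
      rcases hcase with ⟨h1, h2⟩ | ⟨h1, h2⟩
      · by_cases h3 : τ i - M ≤ X
        · exact Or.inl ⟨h1, h2, h3⟩
        · push Not at h3
          refine Or.inr ⟨by linarith, by linarith⟩
      · right
        refine ⟨by linarith, ?_⟩
        rw [hX, Real.log_le_iff_le_exp hypos]
        exact h2 js hjsi
    -- invariants for the recursive call
    have hanti₁ : ∀ a b : Fin n, a ≤ b → b ≤ m → τ₁ b ≤ τ₁ a := by
      intro a b hab hbm
      by_cases hb : b = m
      · subst hb
        rw [hτ₁m]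
        by_cases ha : a = m
        · rw [ha, hτ₁m]
        · rw [hτ₁ne a ha]
          have hai : a ≤ i := by
            rw [Fin.le_def] at hab ⊢
            have : a.val ≠ m.val := fun h => ha (Fin.ext h)
            omega
          exact htT.trans (hanti a i hai (le_refl _))
      · have hbi : b ≤ i := by
          rw [Fin.le_def] at hbm ⊢
          have : b.val ≠ m.val := fun h => hb (Fin.ext h)
          omega
        have ha : a ≠ m := by
          intro h; rw [h] at hab; exact absurd (le_antisymm hab hbm) (Ne.symm hb)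
        rw [hτ₁ne a ha, hτ₁ne b hb]
        exact hanti a b hab hbi
    have hlat₁ : ∀ a : Fin n, a ≤ m → ∃ z : ℤ, τ₁ a = (z : ℝ) / (den B n a.val : ℝ) := by
      intro a ha
      by_cases h : a = m
      · rw [h, hτ₁m]
        exact htlat
      · rw [hτ₁ne a h]
        apply hlat
        rw [Fin.le_def] at ha ⊢
        have : a.val ≠ m.val := fun h' => h (Fin.ext h')
        omega
    have hinv₁ : ∀ j : Fin n, m < j → x (π₁ j) ≤ Real.exp (τ₁ m + 2 * MM Λ B τ₁ (m.val + 1)) := by
      intro j hj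
      refine (hπ₁later j hj).trans ?_
      rw [← hexpX, hτ₁m]
      apply Real.exp_le_exp.2
      have hq := hlate j hj
      rcases hcases with ⟨hp, _, h2, _⟩ | ⟨_, h2, _, _⟩
      · have hpin : τ₁ m ∈ Pos B τ₁ m.val := by
          rw [hτ₁m, hmval, hP₁]; exact hp
        have h3 := MM_lex_up hΛ.two_le τ₁ m (q := m.val + 1) (by omega) hq hpin
        rw [hmval, hM₁] at h3
        have h4 : 16 * M ≤ Λ ^ 2 * M := mul_le_mul_of_nonneg_right hΛ.sq_ge (by linarith)
        rw [hmval]
        linarith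
      · have h3 := MM_pos (B := B) hΛ.two_le τ₁ (m.val + 1)
        linarith
    have hcase₁ : (τ₁ m = t₀ ∧ Mstar ≤ MM Λ B τ₁ (m.val + 1)) ∨
        (τ₁ m ≤ t₀ ∧ ∀ j : Fin n, m < j → x (π₁ j) ≤ Real.exp (t₀ - Mstar)) := by
      rcases hexactcase with ⟨h1, h2, h3⟩ | ⟨h1, h2⟩
      · -- exact case
        have ht : t = τ i := by
          rcases hcases with ⟨_, _, _, h4⟩ | ⟨_, _, _, h4⟩
          · exact h4 h3
          · exact absurd h3 (not_le.2 h4)
        by_cases hq : m.val + 1 < n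
        · left
          refine ⟨by rw [hτ₁m, ht, h1], ?_⟩
          have hpin : τ₁ m ∈ Pos B τ₁ m.val := by
            rw [hτ₁m, hmval, hP₁, ht]; exact hTP
          have h5 := MM_lex_up hΛ.two_le τ₁ m (q := m.val + 1) (by omega) hq hpin
          rw [hmval, hM₁] at h5
          have h6 : 1 * M ≤ Λ ^ 2 * M :=
            mul_le_mul_of_nonneg_right (by linarith [hΛ.sq_ge]) (by linarith)
          rw [hmval]
          linarith
        · right
          refine ⟨by rw [hτ₁m, ht, h1], ?_⟩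
          intro j hj
          exact absurd (hlate j hj) hq
      · right
        refine ⟨by rw [hτ₁m]; exact h1, ?_⟩
        intro j hj
        refine (hπ₁later j hj).trans ?_
        rw [← hexpX]
        exact Real.exp_le_exp.2 h2
    have hk₁ : n - 1 - m.val = k := by rw [hmval]; omega
    obtain ⟨π', τ', hagree, hLat, hsum⟩ := ih m π₁ τ₁ hanti₁ hlat₁ hinv₁ hcase₁ hk₁
    refine ⟨π', τ', ?_, hLat, ?_⟩
    · intro a ha
      have ham : a ≤ m := ha.trans him.le
      obtain ⟨h1, h2⟩ := hagree a ham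
      refine ⟨h1.trans (hπ₁le a ha), h2.trans (hτ₁ne a ?_)⟩
      intro h
      rw [h] at ha
      exact absurd him (not_lt.2 ha)
    · have hsplit : univ.filter (fun j : Fin n => i < j) =
          insert m (univ.filter (fun j : Fin n => m < j)) := by
        ext j
        simp only [Finset.mem_filter, Finset.mem_univ, true_and, Finset.mem_insert]
        constructor
        · intro h
          by_cases hj : j = m
          · exact Or.inl hj
          · right
            rw [Fin.lt_def] at h ⊢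
            have : j.val ≠ m.val := fun h' => hj (Fin.ext h')
            omega
        · rintro (h | h)
          · rw [h]; exact him
          · exact him.trans h
      rw [hsplit, Finset.sum_insert (by simp)]
      obtain ⟨hπ'm, hτ'm⟩ := hagree m (le_refl _)
      have hτ't : τ' m = t := hτ'm.trans hτ₁m
      have hπ'x : x (π' m) = y := by rw [hπ'm, hπ₁m]
      have hom : om Λ B τ' m = omOf M P t := by
        have h1 : om Λ B τ' m = om Λ B τ₁ m := om_congr (fun j hj => (hagree j hj).2)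
        rw [h1]
        unfold om
        rw [hτ₁m, hmval, hM₁, hP₁]
      have hcost : om Λ B τ' m * Real.exp (τ' m) + x (π' m) * (t₀ - τ' m) ≤
          (3 * Mbar Λ n + 3) * Real.exp (t₀ - Mstar) := by
        rw [hom, hτ't, hπ'x, ← hexpX]
        have hMbpos : 0 ≤ Mbar Λ n := by linarith
        rcases hcases with ⟨hp, h1, h2, h3⟩ | ⟨hf, h1, h2, h3⟩
        · rw [omOf_pos_mem hp]
          rcases hexactcase with ⟨h4, h5, h6⟩ | ⟨h4, h5⟩
          · have ht : t = t₀ := by rw [h3 h6, h4]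
            rw [ht, sub_self, mul_zero, add_zero, ← Real.exp_add]
            have h7 : Real.exp (-M + t₀) ≤ Real.exp (t₀ - Mstar) := Real.exp_le_exp.2 (by linarith)
            have h8 : (1 : ℝ) ≤ 3 * Mbar Λ n + 3 := by linarith
            have h9 := Real.exp_pos (t₀ - Mstar)
            nlinarith
          · exact stage_cost_pin (by linarith) hM1 hM2 hMb h5 h1 h2
        · rw [omOf_free hf]
          rcases hexactcase with ⟨h4, h5, h6⟩ | ⟨h4, h5⟩
          · exact absurd h6 (not_le.2 h3)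
          · exact stage_cost_free hM1 hM2 h5 h1 h2
      have hk' : ((k + 1 : ℕ) : ℝ) * (3 * Mbar Λ n + 3) * Real.exp (t₀ - Mstar)
          = (3 * Mbar Λ n + 3) * Real.exp (t₀ - Mstar) + (k : ℝ) * (3 * Mbar Λ n + 3) * Real.exp (t₀ - Mstar) := by
        push_cast
        ring
      rw [hk']
      exact add_le_add hcost hsum

end Crest.Agent.S0122Lib
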