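import Crest.Agent.S0122.Swing

/-! A7: final sign, existence of `Λ`. -/

set_option autoImplicit false

namespace Crest.Agent.S0122Lib

open Finset Filter

variable {n : ℕ} {B : ℕ}

/-- Final sign for a maximiser. -/
theorem final_sign {Λ Q : ℝ} (hB : 1 ≤ B) (hΛ : Good Λ B n Q) {x : Fin n → ℝ} (hx : ∀ i, 0 < x i)
    {π : Equiv.Perm (Fin n)} {τ : Fin n → ℝ} (hmax : IsMaxi Λ B x π τ)
    (s : Fin n → ℤ) (hs : ∀ i, |s i| ≤ (B : ℤ)) (hpos : 0 < ∑ i, (s (π i) : ℝ) * τ i) :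
    Q ≤ ∑ i, (s i : ℝ) * Real.log (x i) := by
  have h2 : (2:ℝ) ≤ Λ := hΛ.two_le
  have hy16 : (16:ℝ) ≤ Λ ^ 2 := hΛ.sq_ge
  have hGh : 1 ≤ Bhat B n := one_le_Bhat hB
  set σ : Fin n → ℤ := fun j => s (π j) with hσ
  -- the last nonzero index
  have hne : (univ.filter (fun j : Fin n => σ j ≠ 0)).Nonempty := by
    by_contra hcon
    rw [Finset.not_nonempty_iff_eq_empty] at hcon
    have : ∑ i, (s (π i) : ℝ) * τ i = 0 := by
      apply Finset.sum_eq_zero
      intro j _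
      have : σ j = 0 := by
        by_contra h0
        have hm : j ∈ univ.filter (fun j : Fin n => σ j ≠ 0) := by simp [h0]
        rw [hcon] at hm
        simp at hm
      have h' : s (π j) = 0 := this
      simp [h']
    linarith
  set i := (univ.filter (fun j : Fin n => σ j ≠ 0)).max' hne with hi
  have hiσ : σ i ≠ 0 := by
    have := Finset.max'_mem _ hne
    simpa using this
  have hlast : ∀ j : Fin n, i < j → σ j = 0 := by
    intro j hj
    by_contra h0
    have hm : j ∈ univ.filter (fun j : Fin n => σ j ≠ 0) := by simp [h0]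
    have := Finset.le_max' _ _ hm
    exact absurd hj (not_lt.2 this)
  have hσB : ∀ j, |σ j| ≤ (B : ℤ) := fun j => hs (π j)
  have hσbd : ∀ j, |σ j| ≤ (bd B n i.val : ℤ) := by
    intro j
    have h1 : (B : ℤ) ≤ (bd B n i.val : ℤ) := by exact_mod_cast le_bd hB i.val
    exact le_trans (hσB j) h1
  have hσi' : (σ i : ℝ) ≠ 0 := by exact_mod_cast hiσ
  -- the position `p`
  set p : ℝ := (∑ j ∈ univ.filter (fun j : Fin n => j.val < i.val), (-(σ j) : ℝ) * τ j) / (σ i : ℝ)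
    with hp
  have hpmem : p ∈ Pos B τ i.val := root_mem_Pos τ i σ (fun j _ => hσbd j) hiσ
  -- the value of the form
  have hform : ∑ j, (σ j : ℝ) * τ j = (σ i : ℝ) * (τ i - p) := by
    rw [mul_sub, hp, mul_div_cancel₀ _ hσi']
    have h1 : ∑ j, (σ j : ℝ) * τ j = ∑ j ∈ insert i (univ.filter (fun j : Fin n => j.val < i.val)),
        (σ j : ℝ) * τ j := by
      symm
      apply Finset.sum_subset (Finset.subset_univ _)
      intro j _ hj
      simp only [mem_insert, mem_filter, mem_univ, true_and, not_or] at hj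
      have hij : i < j := by
        rcases lt_trichotomy i j with h | h | h
        · exact h
        · exact absurd h.symm hj.1
        · exact absurd h hj.2
      simp [hlast j hij]
    rw [h1, Finset.sum_insert (by simp)]
    have h3 : ∀ j ∈ univ.filter (fun j : Fin n => j.val < i.val),
        (-(σ j) : ℝ) * τ j = -((σ j : ℝ) * τ j) := fun j _ => by ring
    rw [Finset.sum_congr rfl h3, Finset.sum_neg_distrib]
    ring
  have hsum : 0 < (σ i : ℝ) * (τ i - p) := by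
    rw [← hform]; exact hpos
  have hν : τ i - p ≠ 0 := by
    intro h0; rw [h0, mul_zero] at hsum; exact lt_irrefl _ hsum
  have hσ1 : (1:ℝ) ≤ |(σ i : ℝ)| := by
    have : (1:ℤ) ≤ |σ i| := Int.one_le_abs hiσ
    exact_mod_cast this
  have hsumabs : |τ i - p| ≤ (σ i : ℝ) * (τ i - p) := by
    have h3 : (σ i : ℝ) * (τ i - p) = |(σ i : ℝ)| * |τ i - p| := by
      rw [← abs_mul, abs_of_pos hsum]
    rw [h3]
    nlinarith [abs_nonneg (τ i - p)]
  have hMposAll : ∀ k : Fin n, 0 < MM Λ B τ k.val := fun k => MM_pos h2 τ k.val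
  have hst : ∀ k : Fin n, τ k ∈ Pos B τ k.val ∨
      ∀ q ∈ Pos B τ k.val, MM Λ B τ k.val / 2 ≤ |τ k - q| := by
    intro k
    have hS := stage_structure hB hΛ hx hmax k
    rcases hS.cases with h | h
    · exact Or.inl h
    · exact Or.inr (hS.free_far h)
  -- the free stage
  obtain ⟨k, hkfree, hkν⟩ : ∃ k : Fin n, τ k ∉ Pos B τ k.val ∧
      MM Λ B τ k.val / (2 * Bhat B n) ≤ |τ i - p| := by
    by_cases hpin : τ i ∈ Pos B τ i.val
    · have hne' : τ i ≠ p := sub_ne_zero.1 hν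
      obtain ⟨k, _, h2', h3⟩ := sep_pos hB τ i (fun k _ => hst k) hMposAll hpin hpmem hne'
      exact ⟨k, h2', h3⟩
    · refine ⟨i, hpin, ?_⟩
      have hfar := (hst i).resolve_left hpin p hpmem
      refine le_trans ?_ hfar
      apply div_le_div_of_nonneg_left (hMposAll i).le (by norm_num)
      linarith
  set M := MM Λ B τ k.val with hM
  have hMge : Λ ^ 2 ≤ M := MM_ge h2 τ k.isLt
  have hy0 : 0 < Λ ^ 2 := by linarith
  have hlbar0 : 0 ≤ lbar Λ n := by
    unfold lbar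
    have hMb : 0 ≤ Mbar Λ n := by unfold Mbar; positivity
    have : 0 ≤ Real.log (2 * Mbar Λ n + 3) := Real.log_nonneg (by linarith)
    linarith
  set E : ℝ := 2 * (M / Λ ^ 2) + 1 + lbar Λ n with hE
  have hMy0 : 0 ≤ M / Λ ^ 2 := by
    apply div_nonneg (le_trans hy0.le hMge) hy0.le
  have hD : ∀ j : Fin n, |Real.log (x (π j)) - τ j| ≤ E := by
    intro j
    rcases swing hB hΛ hx hmax j with ⟨e, he, hb⟩ | hb
    · have h3 := MM_pinned_le_free h2 τ k e hkfree he
      have h4 : MM Λ B τ e.val ≤ M / Λ ^ 2 := by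
        rw [le_div_iff₀ hy0]; linarith
      rw [hE]; linarith
    · rw [hE]; linarith
  -- reindex
  have hreindex : ∑ l, (s l : ℝ) * Real.log (x l) = ∑ j, (σ j : ℝ) * Real.log (x (π j)) :=
    (Equiv.sum_comp π (fun l => (s l : ℝ) * Real.log (x l))).symm
  rw [hreindex]
  have hsplit : ∑ j, (σ j : ℝ) * Real.log (x (π j)) =
      ∑ j, (σ j : ℝ) * τ j + ∑ j, (σ j : ℝ) * (Real.log (x (π j)) - τ j) := by
    rw [← Finset.sum_add_distrib]
    apply Finset.sum_congr rfl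
    intro j _; ring
  have herr : -((n : ℝ) * (B : ℝ) * E) ≤ ∑ j, (σ j : ℝ) * (Real.log (x (π j)) - τ j) := by
    have hbd : ∀ j ∈ (univ : Finset (Fin n)), -((B : ℝ) * E) ≤ (σ j : ℝ) * (Real.log (x (π j)) - τ j) := by
      intro j _
      have h3 : |(σ j : ℝ)| ≤ (B : ℝ) := by
        have := hσB j
        exact_mod_cast this
      have h4 := hD j
      have h5 : |(σ j : ℝ) * (Real.log (x (π j)) - τ j)| ≤ (B : ℝ) * E := by
        rw [abs_mul]
        exact mul_le_mul h3 h4 (abs_nonneg _) (by positivity)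
      exact (abs_le.1 h5).1
    have := Finset.card_nsmul_le_sum (univ : Finset (Fin n)) _ _ hbd
    simp only [Finset.card_univ, Fintype.card_fin, nsmul_eq_mul] at this
    linarith
  rw [hsplit, hform]
  -- numerics
  have hG0 : 0 < Bhat B n := by linarith
  have hmain : M / (4 * Bhat B n) - (n : ℝ) * (B : ℝ) * (1 + lbar Λ n) ≤
      M / (2 * Bhat B n) - (n : ℝ) * (B : ℝ) * E := by
    have h5 : (n : ℝ) * (B : ℝ) * (2 * (M / Λ ^ 2)) ≤ M / (4 * Bhat B n) := by
      rw [le_div_iff₀ (by positivity)]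
      have h6 : (n : ℝ) * (B : ℝ) * (2 * (M / Λ ^ 2)) * (4 * Bhat B n) =
          (8 * (n : ℝ) * (B : ℝ) * Bhat B n) * (M / Λ ^ 2) := by ring
      rw [h6]
      have h7 : (8 * (n : ℝ) * (B : ℝ) * Bhat B n) * (M / Λ ^ 2) ≤ Λ ^ 2 * (M / Λ ^ 2) :=
        mul_le_mul_of_nonneg_right hΛ.hat2 hMy0
      have h8 : Λ ^ 2 * (M / Λ ^ 2) = M := by field_simp
      linarith
    have h9 : M / (2 * Bhat B n) = 2 * (M / (4 * Bhat B n)) := by
      field_simp; ring
    rw [h9, hE]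
    nlinarith
  have hlast2 : Λ ^ 2 / (4 * Bhat B n) ≤ M / (4 * Bhat B n) := by
    apply div_le_div_of_nonneg_right hMge (by positivity)
  have hfin := hΛ.fin
  linarith

theorem eventually_mul_log_add_le (a b : ℝ) : ∀ᶠ y : ℝ in atTop, a * Real.log y + b ≤ y := by
  have h := Real.isLittleO_log_id_atTop
  have hc : (0:ℝ) < 1 / (2 * (|a| + 1)) := by positivity
  have h1 := h.def hc
  filter_upwards [h1, eventually_ge_atTop (2 * b), eventually_ge_atTop (0:ℝ)] with y hy hb h0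
  simp only [id, Real.norm_eq_abs, abs_of_nonneg h0] at hy
  have h2 : a * Real.log y ≤ |a| * |Real.log y| := by
    rw [← abs_mul]; exact le_abs_self _
  have h3 : |a| * |Real.log y| ≤ |a| * (1 / (2 * (|a| + 1)) * y) := by
    gcongr
  have h4 : |a| * (1 / (2 * (|a| + 1)) * y) ≤ y / 2 := by
    have : |a| * (1 / (2 * (|a| + 1))) ≤ 1 / 2 := by
      rw [mul_one_div, div_le_iff₀ (by positivity)]
      linarith [abs_nonneg a]
    calc |a| * (1 / (2 * (|a| + 1)) * y) = (|a| * (1 / (2 * (|a| + 1)))) * y := by ring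
      _ ≤ 1 / 2 * y := by gcongr
      _ = y / 2 := by ring
  linarith

/-- Existence of `Λ`. -/
theorem exists_good (hn : 1 ≤ n) (hB : 1 ≤ B) (Q : ℝ) : ∃ Λ, Good Λ B n Q := by
  have hBh : 1 ≤ Bhat B n := one_le_Bhat hB
  set K' : ℕ := 2 ^ n with hK'
  have hM : ∀ Λ : ℝ, Mbar Λ n = (Λ ^ 2) ^ K' := by
    intro Λ
    unfold Mbar
    rw [← pow_mul, hK']
    congr 1
    rw [pow_succ]; ring
  have hsq : Tendsto (fun Λ : ℝ => Λ ^ 2) atTop atTop := tendsto_pow_atTop (by norm_num)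
  -- `err`
  have herr : ∀ᶠ Λ : ℝ in atTop,
      (n : ℝ) * (3 * Mbar Λ n + 3) * Real.exp (1 / 4 - Λ ^ 2) ≤ 1 / 8 := by
    have h1 := Real.tendsto_pow_mul_exp_neg_atTop_nhds_zero K'
    have h2 := Real.tendsto_pow_mul_exp_neg_atTop_nhds_zero 0
    have h3 : Tendsto (fun y : ℝ => (n : ℝ) * Real.exp (1 / 4) *
        (3 * (y ^ K' * Real.exp (-y)) + 3 * (y ^ 0 * Real.exp (-y)))) atTop
        (nhds ((n : ℝ) * Real.exp (1 / 4) * (3 * 0 + 3 * 0))) :=
      ((h1.const_mul 3).add (h2.const_mul 3)).const_mul _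
    simp only [mul_zero, add_zero] at h3
    have h4 : ∀ᶠ y : ℝ in atTop, (n : ℝ) * Real.exp (1 / 4) *
        (3 * (y ^ K' * Real.exp (-y)) + 3 * (y ^ 0 * Real.exp (-y))) < 1 / 8 :=
      h3.eventually_lt_const (by norm_num)
    filter_upwards [hsq.eventually h4] with Λ hΛ
    rw [hM]
    have : (n : ℝ) * (3 * (Λ ^ 2) ^ K' + 3) * Real.exp (1 / 4 - Λ ^ 2) =
        (n : ℝ) * Real.exp (1 / 4) *
        (3 * ((Λ ^ 2) ^ K' * Real.exp (-(Λ ^ 2))) + 3 * ((Λ ^ 2) ^ 0 * Real.exp (-(Λ ^ 2)))) := by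
      rw [sub_eq_add_neg, Real.exp_add]; ring
    rw [this]; exact hΛ.le
  -- `log` bound: for `y ≥ 1`, `log(2 y^K' + 3) ≤ log 5 + K' log y`
  have hlog : ∀ y : ℝ, 1 ≤ y → Real.log (2 * y ^ K' + 3) ≤ Real.log 5 + K' * Real.log y := by
    intro y hy
    have hy0 : 0 < y := by linarith
    have h1 : (1:ℝ) ≤ y ^ K' := one_le_pow₀ hy
    have h2 : 2 * y ^ K' + 3 ≤ 5 * y ^ K' := by linarith
    calc Real.log (2 * y ^ K' + 3) ≤ Real.log (5 * y ^ K') :=
          Real.log_le_log (by positivity) h2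
      _ = Real.log 5 + K' * Real.log y := by
          rw [Real.log_mul (by norm_num) (by positivity), Real.log_pow]
  -- `fin`
  have hfin : ∀ᶠ Λ : ℝ in atTop,
      Q + (n : ℝ) * (B : ℝ) * (1 + lbar Λ n) ≤ Λ ^ 2 / (4 * Bhat B n) := by
    set C : ℝ := 4 * Bhat B n * ((n : ℝ) * (B : ℝ)) with hC
    have hC0 : 0 ≤ C := by positivity
    have h := eventually_mul_log_add_le (C * K') (C * (3 + Real.log 5) + 4 * Bhat B n * Q)
    filter_upwards [hsq.eventually h, hsq.eventually_ge_atTop 1] with Λ hΛ hy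
    unfold lbar
    rw [hM, le_div_iff₀ (by linarith)]
    have hl := hlog (Λ ^ 2) hy
    have : (Q + (n : ℝ) * (B : ℝ) * (1 + (Real.log (2 * (Λ ^ 2) ^ K' + 3) + 2))) * (4 * Bhat B n)
        = C * (3 + Real.log (2 * (Λ ^ 2) ^ K' + 3)) + 4 * Bhat B n * Q := by
      rw [hC]; ring
    rw [this]
    have h5 : C * Real.log (2 * (Λ ^ 2) ^ K' + 3) ≤ C * (Real.log 5 + K' * Real.log (Λ ^ 2)) :=
      mul_le_mul_of_nonneg_left hl hC0
    nlinarith
  -- `swing`
  have hswing : ∀ᶠ Λ : ℝ in atTop, lbar Λ n + 1 ≤ Λ ^ 2 := by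
    have h := eventually_mul_log_add_le (K' : ℝ) (3 + Real.log 5)
    filter_upwards [hsq.eventually h, hsq.eventually_ge_atTop 1] with Λ hΛ hy
    unfold lbar
    rw [hM]
    have hl := hlog (Λ ^ 2) hy
    linarith
  have hfinal := ((eventually_ge_atTop (2:ℝ)).and ((hsq.eventually_ge_atTop 16).and (herr.and
    ((hsq.eventually_ge_atTop (16 * Bhat B n)).and
    ((hsq.eventually_ge_atTop (8 * (n : ℝ) * (B : ℝ) * Bhat B n)).and (hfin.and hswing))))))
  obtain ⟨Λ, h1, h2, h3, h4, h5, h6, h7⟩ := hfinal.exists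
  exact ⟨Λ, h1, h2, h3, h4, h5, h6, h7⟩

end Crest.Agent.S0122Lib
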