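import Mathlib

/-!
# S0122: definitions for the multi-scale discrete Legendre construction (Part A).

Stages are indexed `0,…,n-1`; `Pos τ m`, `expo τ m`, `MM τ m` depend only on `τ j`, `j < m`.
See `blueprints/S0122_plan.md`.
-/

set_option autoImplicit false

namespace Crest.Agent.S0122Lib

open Finset

/-- Stage coefficient bound: `B_{n-1} = B`, `B_{i-1} = 2 B_i²`. -/
def bd (B n i : ℕ) : ℕ := (fun b : ℕ => 2 * b ^ 2)^[n - 1 - i] B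

/-- Stage lattice denominator: `den i = 4 ∏_{j ≤ i} (B_j)!`. -/
def den (B n i : ℕ) : ℕ := 4 * ∏ j ∈ Finset.range (i + 1), (bd B n j).factorial

variable {n : ℕ}

/-- The positions at stage `m`: `(∑_{j<m} a_j τ_j)/b`, `|a_j|, |b| ≤ B_m`, `b ≠ 0`. -/
def Pos (B : ℕ) (τ : Fin n → ℝ) (m : ℕ) : Set ℝ :=
  {p | ∃ (a : Fin n → ℤ) (b : ℤ), (∀ j, |a j| ≤ (bd B n m : ℤ)) ∧ b ≠ 0 ∧ |b| ≤ (bd B n m : ℤ) ∧
      p = (∑ j ∈ univ.filter (fun j : Fin n => j.val < m), (a j : ℝ) * τ j) / (b : ℝ)}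

/-- `t` lies in the (open) band of some position, but is not a position. -/
def IsBand (M : ℝ) (P : Set ℝ) (t : ℝ) : Prop := t ∉ P ∧ ∃ p ∈ P, p - 1 < t ∧ t < p + 2 * M

/-- `t` is neither a position nor in a band. -/
def IsFree (M : ℝ) (P : Set ℝ) (t : ℝ) : Prop := t ∉ P ∧ ¬ ∃ p ∈ P, p - 1 < t ∧ t < p + 2 * M

open Classical in
/-- The weight of a value `t` at a stage with window `M` and positions `P`. -/
noncomputable def omOf (M : ℝ) (P : Set ℝ) (t : ℝ) : ℝ :=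
  if t ∈ P then Real.exp (-M) else if ∃ p ∈ P, p - 1 < t ∧ t < p + 2 * M then Real.exp (2 * M) else 1

open Classical in
/-- `+1` if stage `j` is pinned (`τ j` is a position of its stage), else `-1`. -/
noncomputable def sg (B : ℕ) (τ : Fin n → ℝ) (j : Fin n) : ℤ :=
  if τ j ∈ Pos B τ j.val then 1 else -1

/-- The exponent `E_m = 2^n + ∑_{j<m} σ_j 2^{n-1-j}`. -/
noncomputable def expo (B : ℕ) (τ : Fin n → ℝ) (m : ℕ) : ℤ :=
  2 ^ n + ∑ j ∈ univ.filter (fun j : Fin n => j.val < m), sg B τ j * 2 ^ (n - 1 - j.val)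

/-- The window `M_m = Λ^{E_m}`. -/
noncomputable def MM (Λ : ℝ) (B : ℕ) (τ : Fin n → ℝ) (m : ℕ) : ℝ := Λ ^ (expo B τ m)

/-- The weight of stage `i`. -/
noncomputable def om (Λ : ℝ) (B : ℕ) (τ : Fin n → ℝ) (i : Fin n) : ℝ :=
  omOf (MM Λ B τ i.val) (Pos B τ i.val) (τ i)

/-- The offset `W(τ) = ∑_i ω_i e^{τ_i}`. -/
noncomputable def WW (Λ : ℝ) (B : ℕ) (τ : Fin n → ℝ) : ℝ := ∑ i, om Λ B τ i * Real.exp (τ i)

/-- Admissible `τ`: antitone, stage `i` in `(1/den i)ℤ`. -/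
def Lat (B : ℕ) (τ : Fin n → ℝ) : Prop :=
  Antitone τ ∧ ∀ i : Fin n, ∃ z : ℤ, τ i = (z : ℝ) / (den B n i.val : ℝ)

/-- The value of the constraint `(π, τ)` at `x`. -/
noncomputable def vv (Λ : ℝ) (B : ℕ) (x : Fin n → ℝ) (π : Equiv.Perm (Fin n)) (τ : Fin n → ℝ) : ℝ :=
  ∑ i, τ i * x (π i) - WW Λ B τ

/-- `(π, τ)` is a global maximiser at `x`. -/
def IsMaxi (Λ : ℝ) (B : ℕ) (x : Fin n → ℝ) (π : Equiv.Perm (Fin n)) (τ : Fin n → ℝ) : Prop :=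
  Lat B τ ∧ ∀ (π' : Equiv.Perm (Fin n)) (τ' : Fin n → ℝ), Lat B τ' →
    vv Λ B x π' τ' ≤ vv Λ B x π τ

/-- `log` of the remaining mass from stage `i` on. -/
noncomputable def ww (x : Fin n → ℝ) (π : Equiv.Perm (Fin n)) (i : Fin n) : ℝ :=
  Real.log (∑ j ∈ univ.filter (fun j : Fin n => i ≤ j), x (π j))

/-- `G_ω(u) = ω e^u - u - 1`. -/
noncomputable def GG (ω u : ℝ) : ℝ := ω * Real.exp u - u - 1

/-- Largest possible window. -/
noncomputable def Mbar (Λ : ℝ) (n : ℕ) : ℝ := Λ ^ (2 ^ (n + 1))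

/-- Swing of a free stage. -/
noncomputable def lbar (Λ : ℝ) (n : ℕ) : ℝ := Real.log (2 * Mbar Λ n + 3) + 2

/-- The constant `B̂ = (∏_{j<n} B_j) · B_0²` of the separation lemma. -/
noncomputable def Bhat (B n : ℕ) : ℝ := ((∏ j ∈ Finset.range n, bd B n j : ℕ) : ℝ) * (bd B n 0 : ℝ) ^ 2

/-- All the numerical requirements on `Λ`. -/
structure Good (Λ : ℝ) (B n : ℕ) (Q : ℝ) : Prop where
  two_le : 2 ≤ Λ
  sq_ge : 16 ≤ Λ ^ 2
  err : (n : ℝ) * (3 * Mbar Λ n + 3) * Real.exp (1 / 4 - Λ ^ 2) ≤ 1 / 8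
  hat : 16 * Bhat B n ≤ Λ ^ 2
  hat2 : 8 * (n : ℝ) * (B : ℝ) * Bhat B n ≤ Λ ^ 2
  fin : Q + (n : ℝ) * (B : ℝ) * (1 + lbar Λ n) ≤ Λ ^ 2 / (4 * Bhat B n)
  swing : lbar Λ n + 1 ≤ Λ ^ 2

end Crest.Agent.S0122Lib
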