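import Crest.Agent.S0122.Chain
import Crest.Agent.Lib.MassAction.Cut

/-! C1: sign compatibility implies that the normal component of the field is negative. -/

set_option autoImplicit false

namespace Crest.Agent.S0122Lib

open Crest.AnalysisR.MassAction Crest.Agent.MassActionODE

variable {d : ℕ}

theorem field_inner {R : Network d} (hR : IsWeaklyReversible R)
    {k : (Fin d → ℕ) × (Fin d → ℕ) → ℝ} (hk : ∀ r ∈ R, 0 < k r) :
    ∃ (B : ℕ) (Q : ℝ), 1 ≤ B ∧ FieldNeg R k B Q := by
  obtain ⟨Q, hQ⟩ := exists_rate_threshold R k hk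
  obtain ⟨B₀, hB₀⟩ := exists_coeff_bound R
  refine ⟨B₀ + 1, Q, by omega, fun x hx L hS => ?_⟩
  have hcomm : ∑ i, field R k x i * L i = ∑ i, L i * field R k x i :=
    Finset.sum_congr rfl fun i _ => mul_comm _ _
  have hcut := cut_lemma_int R hR k hk L x hx Q (hQ Q le_rfl) (B₀ + 1)
    (fun r hr i => ⟨(hB₀ r hr i).1.trans (Nat.le_succ _), (hB₀ r hr i).2.trans (Nat.le_succ _)⟩)
    (fun s hs hpos => by
      have h1 : 0 < ∑ i, (s i : ℝ) * L i := by
        have : ∑ i, (s i : ℝ) * L i = ∑ i, L i * (s i : ℝ) :=
          Finset.sum_congr rfl fun i _ => mul_comm _ _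
        rw [this]; exact hpos
      have h2 := hS s hs h1
      have : ∑ i, Real.log (x i) * (s i : ℝ) = ∑ i, (s i : ℝ) * Real.log (x i) :=
        Finset.sum_congr rfl fun i _ => mul_comm _ _
      rw [this]; exact h2)
  rcases hcut with h | h
  · -- all reaction vectors orthogonal
    have hperp : ∀ r ∈ R, ∑ i, reactionVector r i * L i = 0 := by
      intro r hr
      have := h r hr
      rw [← this]
      exact Finset.sum_congr rfl fun i _ => mul_comm _ _
    have hz : ∑ i, field R k x i * L i = 0 := by
      rw [hcomm, dot_field]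
      refine Finset.sum_eq_zero fun r hr => ?_
      have h3 : lev L r.2 - lev L r.1 = ∑ i, L i * reactionVector r i := by
        unfold lev reactionVector
        rw [← Finset.sum_sub_distrib]
        exact Finset.sum_congr rfl fun i _ => by ring
      rw [h3, h r hr, mul_zero]
    exact ⟨hz.le, fun _ => hperp⟩
  · rw [← hcomm] at h
    exact ⟨h.le, fun h0 => absurd h0 h.ne⟩

end Crest.Agent.S0122Lib
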