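import Crest.Agent.S0122.Defs

/-! A1: bookkeeping lemmas for `bd`, `den`, `Pos`, `expo`, `MM`. -/

set_option autoImplicit false

namespace Crest.Agent.S0122Lib

open Finset

variable {n : ℕ} {B : ℕ}

theorem bd_iter_mono_arg {a b : ℕ} (hab : a ≤ b) (k : ℕ) :
    (fun b : ℕ => 2 * b ^ 2)^[k] a ≤ (fun b : ℕ => 2 * b ^ 2)^[k] b := by
  induction k generalizing a b with
  | zero => simpa using hab
  | succ k ih =>
    simp only [Function.iterate_succ_apply]
    apply ih
    have : a ^ 2 ≤ b ^ 2 := Nat.pow_le_pow_left hab 2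
    omega

theorem bd_iter_ge {a : ℕ} (ha : 1 ≤ a) (k : ℕ) : a ≤ (fun b : ℕ => 2 * b ^ 2)^[k] a := by
  induction k generalizing a with
  | zero => simp
  | succ k ih =>
    simp only [Function.iterate_succ_apply]
    have h1 : a ≤ 2 * a ^ 2 := by nlinarith
    exact le_trans h1 (ih (by omega))

theorem bd_pos (hB : 1 ≤ B) (i : ℕ) : 1 ≤ bd B n i := le_trans hB (bd_iter_ge hB _)

theorem bd_succ {i : ℕ} (hi : i + 1 < n) : bd B n i = 2 * (bd B n (i + 1)) ^ 2 := by
  unfold bd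
  have : n - 1 - i = (n - 1 - (i + 1)) + 1 := by omega
  rw [this, Function.iterate_succ_apply']

theorem bd_anti (hB : 1 ≤ B) {i j : ℕ} (hij : i ≤ j) : bd B n j ≤ bd B n i := by
  unfold bd
  have : n - 1 - i = (n - 1 - i - (n - 1 - j)) + (n - 1 - j) := by omega
  rw [this, Function.iterate_add_apply]
  exact bd_iter_ge (le_trans hB (bd_iter_ge hB _)) _

theorem le_bd (hB : 1 ≤ B) (i : ℕ) : B ≤ bd B n i := bd_iter_ge hB _

theorem den_pos (hB : 1 ≤ B) (i : ℕ) : 0 < den B n i := by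
  unfold den
  have : 0 < ∏ j ∈ Finset.range (i + 1), (bd B n j).factorial :=
    Finset.prod_pos fun j _ => Nat.factorial_pos _
  omega

theorem four_le_den (hB : 1 ≤ B) (i : ℕ) : 4 ≤ den B n i := by
  unfold den
  have : 0 < ∏ j ∈ Finset.range (i + 1), (bd B n j).factorial :=
    Finset.prod_pos fun j _ => Nat.factorial_pos _
  omega

theorem den_dvd {i j : ℕ} (hij : i ≤ j) : den B n i ∣ den B n j := by
  unfold den
  apply mul_dvd_mul_left
  exact Finset.prod_dvd_prod_of_subset _ _ _ (Finset.range_subset_range.2 (by omega))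

theorem den_succ (i : ℕ) : den B n (i + 1) = den B n i * (bd B n (i + 1)).factorial := by
  unfold den
  rw [Finset.prod_range_succ _ (i + 1), mul_assoc]

theorem one_le_prod_bd (hB : 1 ≤ B) (m : ℕ) : 1 ≤ ∏ j ∈ Finset.range m, bd B n j :=
  Nat.one_le_iff_ne_zero.2 (Finset.prod_ne_zero_iff.2 fun j _ => by
    have := bd_pos (n := n) hB j; omega)

theorem one_le_Bhat (hB : 1 ≤ B) : 1 ≤ Bhat B n := by
  unfold Bhat
  have h1 : (1 : ℝ) ≤ ((∏ j ∈ Finset.range n, bd B n j : ℕ) : ℝ) := by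
    exact_mod_cast one_le_prod_bd hB n
  have h2 : (1 : ℝ) ≤ (bd B n 0 : ℝ) := by exact_mod_cast bd_pos hB 0
  have h3 : (1 : ℝ) ≤ (bd B n 0 : ℝ) ^ 2 := by nlinarith
  nlinarith

/-- Product bound used at the end of `sep_pos`. -/
theorem prod_mul_sq_le_Bhat (hB : 1 ≤ B) {m : ℕ} (hm : m < n) :
    ((∏ j ∈ Finset.range m, bd B n j : ℕ) : ℝ) * (bd B n m : ℝ) ^ 2 ≤ Bhat B n := by
  unfold Bhat
  have h1 : ∏ j ∈ Finset.range m, bd B n j ≤ ∏ j ∈ Finset.range n, bd B n j := by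
    apply Nat.le_of_dvd (Nat.lt_of_lt_of_le Nat.zero_lt_one (one_le_prod_bd hB n))
    exact Finset.prod_dvd_prod_of_subset _ _ _ (Finset.range_subset_range.2 (by omega))
  have h2 : bd B n m ≤ bd B n 0 := bd_anti hB (by omega)
  have h1' : ((∏ j ∈ Finset.range m, bd B n j : ℕ) : ℝ) ≤ ((∏ j ∈ Finset.range n, bd B n j : ℕ) : ℝ) := by
    exact_mod_cast h1
  have h2' : (bd B n m : ℝ) ≤ (bd B n 0 : ℝ) := by exact_mod_cast h2
  have h3 : (0:ℝ) ≤ (bd B n m : ℝ) := by positivity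
  have h4 : (bd B n m : ℝ) ^ 2 ≤ (bd B n 0 : ℝ) ^ 2 := by nlinarith
  have h5 : (0:ℝ) ≤ ((∏ j ∈ Finset.range n, bd B n j : ℕ) : ℝ) := by positivity
  calc ((∏ j ∈ Finset.range m, bd B n j : ℕ) : ℝ) * (bd B n m : ℝ) ^ 2
      ≤ ((∏ j ∈ Finset.range n, bd B n j : ℕ) : ℝ) * (bd B n m : ℝ) ^ 2 := by
        apply mul_le_mul_of_nonneg_right h1' (by positivity)
    _ ≤ _ := mul_le_mul_of_nonneg_left h4 h5

/-! ### Congruence: everything at stage `m` depends only on the prefix `τ j`, `j < m`. -/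

theorem Pos_congr {τ τ' : Fin n → ℝ} {m : ℕ} (h : ∀ j : Fin n, j.val < m → τ j = τ' j) :
    Pos B τ m = Pos B τ' m := by
  ext p
  unfold Pos
  simp only [Set.mem_setOf_eq]
  have key : ∀ a : Fin n → ℤ, (∑ j ∈ univ.filter (fun j : Fin n => j.val < m), (a j : ℝ) * τ j)
      = ∑ j ∈ univ.filter (fun j : Fin n => j.val < m), (a j : ℝ) * τ' j := by
    intro a
    apply Finset.sum_congr rfl
    intro j hj
    rw [h j (by simpa using hj)]
  simp only [key]

theorem sg_congr {τ τ' : Fin n → ℝ} {i : Fin n} (h : ∀ j : Fin n, j ≤ i → τ j = τ' j) :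
    sg B τ i = sg B τ' i := by
  unfold sg
  have h1 : Pos B τ i.val = Pos B τ' i.val := Pos_congr fun j hj => h j (Fin.le_of_lt hj)
  rw [h1, h i le_rfl]

theorem expo_congr {τ τ' : Fin n → ℝ} {m : ℕ} (h : ∀ j : Fin n, j.val < m → τ j = τ' j) :
    expo B τ m = expo B τ' m := by
  unfold expo
  congr 1
  apply Finset.sum_congr rfl
  intro j hj
  have hj' : j.val < m := by simpa using hj
  rw [sg_congr (fun a ha => h a (by have : a.val ≤ j.val := ha; omega))]

theorem MM_congr {Λ : ℝ} {τ τ' : Fin n → ℝ} {m : ℕ} (h : ∀ j : Fin n, j.val < m → τ j = τ' j) :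
    MM Λ B τ m = MM Λ B τ' m := by
  unfold MM
  rw [expo_congr h]

theorem om_congr {Λ : ℝ} {τ τ' : Fin n → ℝ} {i : Fin n} (h : ∀ j : Fin n, j ≤ i → τ j = τ' j) :
    om Λ B τ i = om Λ B τ' i := by
  unfold om
  rw [MM_congr (fun j hj => h j (Fin.le_of_lt hj)), Pos_congr (fun j hj => h j (Fin.le_of_lt hj)),
    h i le_rfl]

/-! ### The weight function -/

theorem omOf_pos_mem {M : ℝ} {P : Set ℝ} {t : ℝ} (h : t ∈ P) : omOf M P t = Real.exp (-M) := by
  unfold omOf; simp [h]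

theorem omOf_free {M : ℝ} {P : Set ℝ} {t : ℝ} (h : IsFree M P t) : omOf M P t = 1 := by
  unfold omOf; rw [if_neg h.1, if_neg h.2]

theorem omOf_band {M : ℝ} {P : Set ℝ} {t : ℝ} (h : IsBand M P t) : omOf M P t = Real.exp (2 * M) := by
  unfold omOf; rw [if_neg h.1, if_pos h.2]

theorem omOf_pos (M : ℝ) (P : Set ℝ) (t : ℝ) : 0 < omOf M P t := by
  unfold omOf
  split_ifs <;> first | exact Real.exp_pos _ | exact one_pos

/-- pinned, band or free -/
theorem status_cases (M : ℝ) (P : Set ℝ) (t : ℝ) : t ∈ P ∨ IsBand M P t ∨ IsFree M P t := by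
  by_cases h : t ∈ P
  · exact Or.inl h
  · by_cases h' : ∃ p ∈ P, p - 1 < t ∧ t < p + 2 * M
    · exact Or.inr (Or.inl ⟨h, h'⟩)
    · exact Or.inr (Or.inr ⟨h, h'⟩)


/-! ### Positions -/

theorem zero_mem_Pos (τ : Fin n → ℝ) (hB : 1 ≤ B) (m : ℕ) : (0 : ℝ) ∈ Pos B τ m := by
  refine ⟨fun _ => 0, 1, ?_, one_ne_zero, ?_, ?_⟩
  · intro j; simp
  · have := bd_pos (n := n) hB m
    simp only [abs_one]; exact_mod_cast this
  · simp

/-- Pos at stage 0 is `{0}`. -/
theorem Pos_zero (τ : Fin n → ℝ) {p : ℝ} (h : p ∈ Pos B τ 0) : p = 0 := by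
  obtain ⟨a, b, _, _, _, rfl⟩ := h
  simp

/-- A previous value is a position. -/
theorem prev_mem_Pos (hB : 1 ≤ B) (τ : Fin n → ℝ) {j : Fin n} {m : ℕ} (hj : j.val < m) :
    τ j ∈ Pos B τ m := by
  have h1 : (1 : ℤ) ≤ (bd B n m : ℤ) := by exact_mod_cast bd_pos hB m
  refine ⟨fun k => if k = j then 1 else 0, 1, ?_, one_ne_zero, by simpa using h1, ?_⟩
  · intro k
    by_cases hk : k = j
    · simpa [hk] using h1
    · simp only [hk, if_false, abs_zero]; omega
  · simp only [Int.cast_one, div_one]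
    rw [Finset.sum_eq_single j]
    · simp
    · intro k _ hk; simp [hk]
    · intro h; exfalso; apply h; simpa using hj

/-- Linear forms: if `s` has small integer coefficients and `s m ≠ 0`, the root is a position. -/
theorem root_mem_Pos (τ : Fin n → ℝ) (m : Fin n) (s : Fin n → ℤ)
    (hs : ∀ j, j ≤ m → |s j| ≤ (bd B n m.val : ℤ)) (hsm : s m ≠ 0) :
    (∑ j ∈ univ.filter (fun j : Fin n => j.val < m.val), (-(s j) : ℝ) * τ j) / (s m : ℝ) ∈
      Pos B τ m.val := by
  refine ⟨fun j => if j.val < m.val then -s j else 0, s m, ?_, hsm, hs m le_rfl, ?_⟩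
  · intro j
    by_cases hj : j.val < m.val
    · simp only [hj, if_true, abs_neg]
      exact hs j (Fin.le_of_lt hj)
    · simp only [hj, if_false, abs_zero]; omega
  · congr 1
    apply Finset.sum_congr rfl
    intro j hj
    have hj' : j.val < m.val := by simpa using hj
    simp [hj']

/-- Positions of a lattice prefix lie in the stage lattice. -/
theorem Pos_lattice (hB : 1 ≤ B) {τ : Fin n → ℝ} {m : Fin n}
    (hlat : ∀ a : Fin n, a.val < m.val → ∃ z : ℤ, τ a = (z : ℝ) / (den B n a.val : ℝ))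
    {p : ℝ} (hp : p ∈ Pos B τ m.val) : ∃ z : ℤ, p = (z : ℝ) / (den B n m.val : ℝ) := by
  obtain ⟨a, b, ha, hb0, hb, rfl⟩ := hp
  rcases Nat.eq_zero_or_pos m.val with hm | hm
  · rw [hm]
    refine ⟨0, ?_⟩
    have : (univ.filter (fun j : Fin n => j.val < 0)) = ∅ := by simp
    simp [this]
  · obtain ⟨k, hk⟩ : ∃ k, m.val = k + 1 := ⟨m.val - 1, by omega⟩
    -- common denominator `den k`
    have hD : 0 < den B n k := den_pos hB k
    have hz : ∀ j : Fin n, j.val < m.val → ∃ z : ℤ, τ j = (z : ℝ) / (den B n k : ℝ) := by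
      intro j hj
      obtain ⟨z, hz⟩ := hlat j hj
      obtain ⟨c, hc⟩ : den B n j.val ∣ den B n k := den_dvd (by omega)
      refine ⟨z * c, ?_⟩
      have h1 : (den B n j.val : ℝ) ≠ 0 := by
        have := den_pos (n := n) hB j.val; positivity
      have h2 : (c : ℝ) ≠ 0 := by
        intro h0
        have : c = 0 := by exact_mod_cast h0
        rw [this] at hc; omega
      rw [hz, hc]
      push_cast
      field_simp
    choose! z hz' using hz
    set S : ℤ := ∑ j ∈ univ.filter (fun j : Fin n => j.val < m.val), a j * z j with hS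
    have hsum : (∑ j ∈ univ.filter (fun j : Fin n => j.val < m.val), (a j : ℝ) * τ j)
        = (S : ℝ) / (den B n k : ℝ) := by
      rw [hS]; push_cast; rw [Finset.sum_div]
      apply Finset.sum_congr rfl
      intro j hj
      have hj' : j.val < m.val := by simpa using hj
      rw [hz' j hj']; ring
    -- b divides the factorial
    have hbnat : b.natAbs ∣ (bd B n (k + 1)).factorial := by
      apply Nat.dvd_factorial (Int.natAbs_pos.2 hb0)
      rw [hk] at hb
      have : (b.natAbs : ℤ) ≤ (bd B n (k + 1) : ℤ) := by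
        rwa [← Int.abs_eq_natAbs]
      exact_mod_cast this
    obtain ⟨f, hf⟩ : b ∣ ((bd B n (k + 1)).factorial : ℤ) := by
      rw [← Int.natAbs_dvd]
      exact_mod_cast hbnat
    refine ⟨S * f, ?_⟩
    rw [hsum, hk, den_succ]
    have hb' : (b : ℝ) ≠ 0 := by exact_mod_cast hb0
    have hD' : (den B n k : ℝ) ≠ 0 := by positivity
    have hfact : (((bd B n (k + 1)).factorial : ℕ) : ℝ) = (b : ℝ) * (f : ℝ) := by
      have : (((bd B n (k + 1)).factorial : ℕ) : ℤ) = b * f := hf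
      exact_mod_cast this
    have hf0 : (f : ℝ) ≠ 0 := by
      intro h0
      rw [h0, mul_zero] at hfact
      have := Nat.factorial_pos (bd B n (k + 1))
      have h' : (((bd B n (k + 1)).factorial : ℕ) : ℝ) > 0 := by exact_mod_cast this
      linarith
    push_cast
    rw [hfact]
    field_simp

/-! ### Exponent hierarchy -/

theorem expo_succ (τ : Fin n → ℝ) (i : Fin n) :
    expo B τ (i.val + 1) = expo B τ i.val + sg B τ i * 2 ^ (n - 1 - i.val) := by
  unfold expo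
  have : univ.filter (fun j : Fin n => j.val < i.val + 1) =
      insert i (univ.filter (fun j : Fin n => j.val < i.val)) := by
    ext j
    simp only [mem_filter, mem_univ, true_and, mem_insert, Fin.ext_iff]
    omega
  rw [this, Finset.sum_insert (by simp)]
  ring

theorem sg_abs (τ : Fin n → ℝ) (i : Fin n) : sg B τ i = 1 ∨ sg B τ i = -1 := by
  unfold sg; split_ifs <;> simp

theorem expo_bounds_aux (τ : Fin n → ℝ) {m : ℕ} (hm : m ≤ n) :
    (2 : ℤ) ^ (n - m) ≤ expo B τ m ∧ expo B τ m ≤ 2 ^ (n + 1) - 2 ^ (n - m) := by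
  induction m with
  | zero =>
    have : expo B τ 0 = 2 ^ n := by
      unfold expo; simp
    rw [this, pow_succ]
    simp only [Nat.sub_zero, le_refl, true_and]
    linarith
  | succ m ih =>
    obtain ⟨h1, h2⟩ := ih (by omega)
    have hi : m < n := by omega
    have := expo_succ (B := B) τ ⟨m, hi⟩
    simp only at this
    rw [this]
    have hp : (2:ℤ) ^ (n - m) = 2 * 2 ^ (n - (m + 1)) := by
      have : n - m = (n - (m + 1)) + 1 := by omega
      rw [this, pow_succ, mul_comm]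
    have hp2 : (2:ℤ) ^ (n - 1 - m) = 2 ^ (n - (m + 1)) := by
      congr 1; omega
    rw [hp2]
    rw [hp] at h1 h2
    have hsg := sg_abs (B := B) τ ⟨m, hi⟩
    constructor
    · rcases hsg with h | h <;> rw [h] <;> linarith [show (0:ℤ) < 2 ^ (n - (m + 1)) by positivity]
    · rcases hsg with h | h <;> rw [h] <;> linarith [show (0:ℤ) < 2 ^ (n - (m + 1)) by positivity]

theorem expo_bounds (τ : Fin n → ℝ) {m : ℕ} (hm : m ≤ n) :
    (2 : ℤ) ^ (n - m) ≤ expo B τ m ∧ expo B τ m ≤ 2 ^ (n + 1) := by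
  obtain ⟨h1, h2⟩ := expo_bounds_aux (B := B) τ hm
  exact ⟨h1, by linarith [show (0:ℤ) < 2 ^ (n - m) by positivity]⟩

theorem expo_lex_up (τ : Fin n → ℝ) (k : Fin n) {q : ℕ} (hkq : k.val < q) (hq : q ≤ n)
    (h : τ k ∈ Pos B τ k.val) : expo B τ k.val + 2 ^ (n - q) ≤ expo B τ q := by
  obtain ⟨d, rfl⟩ : ∃ d, q = k.val + 1 + d := ⟨q - (k.val + 1), by omega⟩
  induction d with
  | zero =>
    have := expo_succ (B := B) τ k
    simp only [Nat.add_zero]
    rw [this]
    have hsg : sg B τ k = 1 := by unfold sg; simp [h]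
    rw [hsg, one_mul]
    have : n - (k.val + 1) = n - 1 - k.val := by omega
    rw [this]
  | succ d ih =>
    have hlt : k.val + 1 + d < n := by omega
    have ih' := ih (by omega) (by omega)
    have hsucc := expo_succ (B := B) τ ⟨k.val + 1 + d, hlt⟩
    simp only at hsucc
    have e1 : k.val + 1 + (d + 1) = k.val + 1 + d + 1 := by omega
    rw [e1, hsucc]
    have hp : (2:ℤ) ^ (n - (k.val + 1 + d)) = 2 * 2 ^ (n - (k.val + 1 + d + 1)) := by
      have : n - (k.val + 1 + d) = (n - (k.val + 1 + d + 1)) + 1 := by omega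
      rw [this, pow_succ, mul_comm]
    have hp2 : (2:ℤ) ^ (n - 1 - (k.val + 1 + d)) = 2 ^ (n - (k.val + 1 + d + 1)) := by
      congr 1; omega
    rw [hp2]
    rw [hp] at ih'
    have hsg := sg_abs (B := B) τ ⟨k.val + 1 + d, hlt⟩
    rcases hsg with h' | h' <;> rw [h'] <;> linarith [show (0:ℤ) < 2 ^ (n - (k.val + 1 + d + 1)) by positivity]

theorem expo_lex_dn (τ : Fin n → ℝ) (k : Fin n) {q : ℕ} (hkq : k.val < q) (hq : q ≤ n)
    (h : τ k ∉ Pos B τ k.val) : expo B τ q ≤ expo B τ k.val - 2 ^ (n - q) := by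
  obtain ⟨d, rfl⟩ : ∃ d, q = k.val + 1 + d := ⟨q - (k.val + 1), by omega⟩
  induction d with
  | zero =>
    have := expo_succ (B := B) τ k
    simp only [Nat.add_zero]
    rw [this]
    have hsg : sg B τ k = -1 := by unfold sg; simp [h]
    rw [hsg]
    have : n - (k.val + 1) = n - 1 - k.val := by omega
    rw [this]
    linarith
  | succ d ih =>
    have hlt : k.val + 1 + d < n := by omega
    have ih' := ih (by omega) (by omega)
    have hsucc := expo_succ (B := B) τ ⟨k.val + 1 + d, hlt⟩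
    simp only at hsucc
    have e1 : k.val + 1 + (d + 1) = k.val + 1 + d + 1 := by omega
    rw [e1, hsucc]
    have hp : (2:ℤ) ^ (n - (k.val + 1 + d)) = 2 * 2 ^ (n - (k.val + 1 + d + 1)) := by
      have : n - (k.val + 1 + d) = (n - (k.val + 1 + d + 1)) + 1 := by omega
      rw [this, pow_succ, mul_comm]
    have hp2 : (2:ℤ) ^ (n - 1 - (k.val + 1 + d)) = 2 ^ (n - (k.val + 1 + d + 1)) := by
      congr 1; omega
    rw [hp2]
    rw [hp] at ih'
    have hsg := sg_abs (B := B) τ ⟨k.val + 1 + d, hlt⟩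
    rcases hsg with h' | h' <;> rw [h'] <;> linarith [show (0:ℤ) < 2 ^ (n - (k.val + 1 + d + 1)) by positivity]

/-! ### Windows -/

theorem MM_pos {Λ : ℝ} (hΛ : 2 ≤ Λ) (τ : Fin n → ℝ) (m : ℕ) : 0 < MM Λ B τ m := by
  unfold MM; exact zpow_pos (by linarith) _

theorem two_le_pow_sub {m : ℕ} (hm : m < n) : (2 : ℤ) ≤ 2 ^ (n - m) := by
  have : n - m = (n - m - 1) + 1 := by omega
  rw [this, pow_succ]
  have : (1:ℤ) ≤ 2 ^ (n - m - 1) := one_le_pow₀ (by norm_num)
  linarith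

/-- `Λ² ≤ M_m` for a genuine stage. -/
theorem MM_ge {Λ : ℝ} (hΛ : 2 ≤ Λ) (τ : Fin n → ℝ) {m : ℕ} (hm : m < n) :
    Λ ^ 2 ≤ MM Λ B τ m := by
  unfold MM
  have h1 := (expo_bounds (B := B) τ hm.le).1
  have h2 := two_le_pow_sub hm
  have : (2 : ℤ) ≤ expo B τ m := le_trans h2 h1
  calc Λ ^ 2 = Λ ^ (2 : ℤ) := by norm_cast
    _ ≤ _ := zpow_le_zpow_right₀ (by linarith) this

/-- `1 ≤ M_m` including `m = n`. -/
theorem one_le_MM {Λ : ℝ} (hΛ : 2 ≤ Λ) (τ : Fin n → ℝ) {m : ℕ} (hm : m ≤ n) :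
    1 ≤ MM Λ B τ m := by
  unfold MM
  have h1 := (expo_bounds (B := B) τ hm).1
  have h2 : (1 : ℤ) ≤ 2 ^ (n - m) := one_le_pow₀ (by norm_num)
  have : (0 : ℤ) ≤ expo B τ m := by linarith
  exact one_le_zpow₀ (by linarith) this

theorem MM_le {Λ : ℝ} (hΛ : 2 ≤ Λ) (τ : Fin n → ℝ) {m : ℕ} (hm : m ≤ n) :
    MM Λ B τ m ≤ Mbar Λ n := by
  unfold MM Mbar
  have h1 := (expo_bounds (B := B) τ hm).2
  calc Λ ^ (expo B τ m) ≤ Λ ^ ((2:ℤ) ^ (n + 1)) := zpow_le_zpow_right₀ (by linarith) h1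
    _ = Λ ^ (2 ^ (n + 1)) := by
      rw [show ((2:ℤ) ^ (n + 1)) = ((2 ^ (n + 1) : ℕ) : ℤ) by push_cast; ring, zpow_natCast]

/-- After a pinned stage `k`, all later genuine stages have a much larger window. -/
theorem MM_lex_up {Λ : ℝ} (hΛ : 2 ≤ Λ) (τ : Fin n → ℝ) (k : Fin n) {q : ℕ} (hkq : k.val < q)
    (hq : q < n) (h : τ k ∈ Pos B τ k.val) : Λ ^ 2 * MM Λ B τ k.val ≤ MM Λ B τ q := by
  unfold MM
  have h1 := expo_lex_up (B := B) τ k hkq hq.le h
  have h2 := two_le_pow_sub hq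
  have h3 : (2 : ℤ) + expo B τ k.val ≤ expo B τ q := by linarith
  have h0 : Λ ≠ 0 := by linarith
  calc Λ ^ 2 * Λ ^ (expo B τ k.val) = Λ ^ ((2:ℤ) + expo B τ k.val) := by
        rw [zpow_add₀ h0]; norm_cast
    _ ≤ _ := zpow_le_zpow_right₀ (by linarith) h3

/-- After a free stage `k`, all later genuine stages have a much smaller window. -/
theorem MM_lex_dn {Λ : ℝ} (hΛ : 2 ≤ Λ) (τ : Fin n → ℝ) (k : Fin n) {q : ℕ} (hkq : k.val < q)
    (hq : q < n) (h : τ k ∉ Pos B τ k.val) : Λ ^ 2 * MM Λ B τ q ≤ MM Λ B τ k.val := by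
  unfold MM
  have h1 := expo_lex_dn (B := B) τ k hkq hq.le h
  have h2 := two_le_pow_sub hq
  have h3 : (2 : ℤ) + expo B τ q ≤ expo B τ k.val := by linarith
  have h0 : Λ ≠ 0 := by linarith
  calc Λ ^ 2 * Λ ^ (expo B τ q) = Λ ^ ((2:ℤ) + expo B τ q) := by
        rw [zpow_add₀ h0]; norm_cast
    _ ≤ _ := zpow_le_zpow_right₀ (by linarith) h3

/-- Pinned stage `e` versus non-pinned stage `k`: in both orders, the pinned window is much smaller. -/
theorem MM_pinned_le_free {Λ : ℝ} (hΛ : 2 ≤ Λ) (τ : Fin n → ℝ) (k e : Fin n)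
    (hk : τ k ∉ Pos B τ k.val) (he : τ e ∈ Pos B τ e.val) :
    Λ ^ 2 * MM Λ B τ e.val ≤ MM Λ B τ k.val := by
  rcases lt_trichotomy k.val e.val with h | h | h
  · exact MM_lex_dn hΛ τ k h e.isLt hk
  · exfalso
    have : k = e := Fin.ext h
    rw [this] at hk
    exact hk he
  · exact MM_lex_up hΛ τ e h k.isLt he

theorem om_bounds {Λ : ℝ} (hΛ : 2 ≤ Λ) (τ : Fin n → ℝ) (i : Fin n) :
    Real.exp (-Mbar Λ n) ≤ om Λ B τ i ∧ om Λ B τ i ≤ Real.exp (2 * Mbar Λ n) := by
  unfold om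
  have hM := MM_le (B := B) hΛ τ i.isLt.le
  have hM0 := MM_pos (B := B) hΛ τ i.val
  have hbar : 0 < Mbar Λ n := lt_of_lt_of_le hM0 hM
  rcases status_cases (MM Λ B τ i.val) (Pos B τ i.val) (τ i) with h | h | h
  · rw [omOf_pos_mem h]
    constructor
    · exact Real.exp_le_exp.2 (by linarith)
    · exact Real.exp_le_exp.2 (by linarith)
  · rw [omOf_band h]
    constructor
    · exact Real.exp_le_exp.2 (by linarith)
    · exact Real.exp_le_exp.2 (by linarith)
  · rw [omOf_free h]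
    constructor
    · have := Real.exp_le_exp.2 (show -Mbar Λ n ≤ 0 by linarith)
      simpa using this
    · have := Real.exp_le_exp.2 (show (0:ℝ) ≤ 2 * Mbar Λ n by linarith)
      simpa using this

end Crest.Agent.S0122Lib
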