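import Crest.Agent.S0122.Chain
import Crest.Agent.Lib.MassAction.Basic

/-! C2, C3: class invariance and forward invariance of chain sets. -/

set_option autoImplicit false

namespace Crest.Agent.S0122Lib

open Crest.AnalysisR.MassAction Set Filter Topology

variable {d : ℕ}

/-- The field lies in the stoichiometric subspace. -/
theorem field_mem (R : Network d) (k : (Fin d → ℕ) × (Fin d → ℕ) → ℝ) (x : Fin d → ℝ) :
    field R k x ∈ stoichSubspace R :=
  Crest.Agent.MassActionODE.field_mem R k x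

/-- Solutions of a field with values in `S` stay in their class. -/
theorem sol_mem_class {S : Submodule ℝ (Fin d → ℝ)} {v : (Fin d → ℝ) → Fin d → ℝ}
    (hv : ∀ y, v y ∈ S) {x : ℝ → Fin d → ℝ} (hx : IsForwardSolution v x) {t : ℝ} (ht : 0 ≤ t) :
    x t - x 0 ∈ S :=
  Crest.Agent.MassActionODE.forward_sub_mem S hv hx (by simp) ht

/-- The normal of a constraint orthogonal to all reaction vectors gives a constant value on a class. -/
theorem val_eq_of_perp {R : Network d} (a : Cstr d)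
    (ha : ∀ r ∈ R, ∑ i, reactionVector r i * a.L i = 0) {y c : Fin d → ℝ}
    (hy : y - c ∈ stoichSubspace R) : a.val y = a.val c := by
  have key : ∀ z ∈ stoichSubspace R, ∑ i, z i * a.L i = 0 := by
    intro z hz
    induction hz using Submodule.span_induction with
    | mem z hz =>
      obtain ⟨r, hr, rfl⟩ := hz
      exact ha r hr
    | zero => simp
    | add u w _ _ hu hw =>
      simp only [Pi.add_apply, add_mul, Finset.sum_add_distrib, hu, hw, add_zero]
    | smul t u _ hu =>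
      simp only [Pi.smul_apply, smul_eq_mul, mul_assoc]
      rw [← Finset.mul_sum, hu, mul_zero]
  have h := key _ hy
  unfold Cstr.val
  have h2 : ∑ i, a.L i * y i - ∑ i, a.L i * c i = ∑ i, (y - c) i * a.L i := by
    rw [← Finset.sum_sub_distrib]
    exact Finset.sum_congr rfl fun i _ => by simp only [Pi.sub_apply]; ring
  rw [h] at h2
  linarith

/-- Key local fact: at a point of the class where all previous groups hold and `a` is an active
maximal constraint, the normal derivative is strictly negative. -/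
theorem inner_neg {R : Network d} {k : (Fin d → ℕ) × (Fin d → ℕ) → ℝ} {B : ℕ} {Q : ℝ}
    (hF : FieldNeg R k B Q) {C₀ : Set (Fin d → ℝ)} (ch : Chain d B Q C₀) {c : Fin d → ℝ}
    (hc : c ∈ C₀) {j : ℕ} (hj : j < ch.r) {z : Fin d → ℝ} (hz : ∀ i, 0 < z i)
    (hprior : ∀ j' < j, ∀ a ∈ ch.g j', a.val z ≤ 0) (hzc : z - c ∈ stoichSubspace R)
    {a : Cstr d} (ha : a ∈ ch.g j) (h0 : 0 ≤ a.val z) (hmaxl : ∀ a' ∈ ch.g j, a'.val z ≤ a.val z) :
    ∑ i, field R k z i * a.L i < 0 := by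
  have hS := ch.sgn j hj z hz hprior a ha h0 hmaxl
  obtain ⟨h1, h2⟩ := hF z hz a.L hS
  refine lt_of_le_of_ne h1 fun h3 => ?_
  have h4 := val_eq_of_perp a (h2 h3) hzc
  have h5 := ch.inner j hj a ha c hc
  linarith

/-- The derivative of a constraint value along a curve. -/
theorem val_hasDerivWithinAt (a : Cstr d) {x : ℝ → Fin d → ℝ} {x' : Fin d → ℝ} {s : Set ℝ} {t : ℝ}
    (h : HasDerivWithinAt x x' s t) :
    HasDerivWithinAt (fun u => a.val (x u)) (∑ i, x' i * a.L i) s t := by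
  unfold Cstr.val
  have h1 : ∀ i, HasDerivWithinAt (fun u => a.L i * x u i) (a.L i * x' i) s t := fun i =>
    (((hasDerivWithinAt_pi.mp h) i)).const_mul (a.L i)
  have h2 := (HasDerivWithinAt.fun_sum (u := Finset.univ) (fun i _ => h1 i)).sub_const a.r
  have h3 : ∑ i, x' i * a.L i = ∑ i, a.L i * x' i := Finset.sum_congr rfl fun i _ => mul_comm _ _
  rw [h3]
  exact h2

theorem Cstr.continuous_val (a : Cstr d) : Continuous a.val := by
  unfold Cstr.val
  fun_prop

theorem isClosed_chainK {B : ℕ} {Q : ℝ} {C₀ : Set (Fin d → ℝ)} (ch : Chain d B Q C₀) :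
    IsClosed ch.K := by
  have : ch.K = ⋂ j ∈ {j | j < ch.r}, ⋂ a ∈ ch.g j, {x | a.val x ≤ 0} := by
    ext x
    simp [Chain.K]
  rw [this]
  exact isClosed_biInter fun j _ => isClosed_biInter fun a _ =>
    isClosed_le a.continuous_val continuous_const

/-- Forward invariance of a chain set, for any vector field with values in `S` agreeing with
`field` on it. -/
theorem chain_invariant {R : Network d} {k : (Fin d → ℕ) × (Fin d → ℕ) → ℝ} {B : ℕ} {Q : ℝ}
    (hF : FieldNeg R k B Q) {C₀ : Set (Fin d → ℝ)} (ch : Chain d B Q C₀) {c : Fin d → ℝ}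
    (hc : c ∈ C₀) {v : (Fin d → ℝ) → Fin d → ℝ} (hv : ∀ y, v y ∈ stoichSubspace R)
    (hvK : ∀ y ∈ ch.K, v y = field R k y) {x : ℝ → Fin d → ℝ} (hx : IsForwardSolution v x)
    (hx0 : x 0 ∈ ch.K) (hxc : x 0 - c ∈ stoichSubspace R) {t : ℝ} (ht : 0 ≤ t) : x t ∈ ch.K := by
  obtain ⟨ε, hε, A, hbox⟩ := ch.box
  have hcont : ContinuousOn x (Ici 0) := fun u hu => (hx u hu).continuousWithinAt
  have hcl : IsClosed ({u | x u ∈ ch.K} ∩ Icc 0 t) := by
    have := (hcont.mono (fun u (hu : u ∈ Icc 0 t) => hu.1)).preimage_isClosed_of_isClosed isClosed_Icc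
      (isClosed_chainK ch)
    rwa [inter_comm] at this
  have hsub := hcl.Icc_subset_of_forall_exists_gt (a := 0) (b := t) hx0 ?_
  · exact hsub ⟨ht, le_rfl⟩
  rintro t₀ ⟨ht₀K, ht₀0, ht₀t⟩ b hb
  have ht₀K' : x t₀ ∈ ch.K := ht₀K
  set z := x t₀ with hzdef
  have hzbox := hbox z ht₀K'
  have hzpos : ∀ i, 0 < z i := fun i => lt_of_lt_of_le hε (hzbox i).1
  have hzc : z - c ∈ stoichSubspace R := by
    have h1 := sol_mem_class hv hx ht₀0
    have := Submodule.add_mem _ h1 hxc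
    simpa using this
  -- right-neighbourhood facts
  have hIci : Ici 0 ∈ 𝓝[>] t₀ :=
    mem_of_superset self_mem_nhdsWithin (fun u hu => le_trans ht₀0 (mem_Ioi.mp hu).le)
  have hxr : Tendsto x (𝓝[>] t₀) (𝓝 z) :=
    ((hx t₀ ht₀0).continuousWithinAt.tendsto).mono_left (nhdsWithin_le_iff.mpr hIci)
  -- the enlarged box
  set ε₂ := ε / 2 with hε₂
  set A₂ := A + 1 with hA₂
  have hboxev : ∀ᶠ u in 𝓝[>] t₀, ∀ i, ε₂ ≤ x u i ∧ x u i ≤ A₂ := by
    have hi : ∀ i, ∀ᶠ u in 𝓝[>] t₀, ε₂ ≤ x u i ∧ x u i ≤ A₂ := by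
      intro i
      have h1 : Tendsto (fun u => x u i) (𝓝[>] t₀) (𝓝 (z i)) :=
        (continuous_apply i).continuousAt.tendsto.comp hxr
      have h2 : ε₂ < z i := by
        have := (hzbox i).1
        simp only [hε₂]
        linarith
      have h3 : z i < A₂ := by
        have := (hzbox i).2
        simp only [hA₂]
        linarith
      filter_upwards [h1.eventually (lt_mem_nhds h2), h1.eventually (gt_mem_nhds h3)] with u h4 h5
      exact ⟨h4.le, h5.le⟩
    exact eventually_all.mpr hi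
  -- finiteness
  have hFin : ∀ j ∈ {j | j < ch.r}, ({a ∈ ch.g j | ∃ y : Fin d → ℝ,
      (∀ i, ε₂ ≤ y i ∧ y i ≤ A₂) ∧ 0 ≤ a.val y}).Finite := fun j hj =>
    ch.lf j hj ε₂ (by simp only [hε₂]; linarith) A₂
  have hjfin : ({j | j < ch.r} : Set ℕ).Finite := Set.finite_lt_nat _
  -- each group: finite bad set
  have hevgroup : ∀ j ∈ {j | j < ch.r}, ∀ᶠ u in 𝓝[>] t₀,
      ∀ a ∈ {a ∈ ch.g j | ∃ y : Fin d → ℝ,
        (∀ i, ε₂ ≤ y i ∧ y i ≤ A₂) ∧ 0 ≤ a.val y}, a.val (x u) ≤ 0 := by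
    intro j hj
    refine (eventually_all_finite (hFin j hj)).2 ?_
    rintro a ⟨ha, -⟩
    have hvalz : a.val z ≤ 0 := ht₀K' j hj a ha
    rcases hvalz.lt_or_eq with hlt | heq
    · have h1 : Tendsto (fun u => a.val (x u)) (𝓝[>] t₀) (𝓝 (a.val z)) :=
        a.continuous_val.continuousAt.tendsto.comp hxr
      exact (h1.eventually (gt_mem_nhds hlt)).mono fun u hu => hu.le
    · -- active constraint: strictly decreasing
      have hmaxl : ∀ a' ∈ ch.g j, a'.val z ≤ a.val z := by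
        intro a' ha'
        rw [heq]
        exact ht₀K' j hj a' ha'
      have hprior : ∀ j' < j, ∀ a ∈ ch.g j', a.val z ≤ 0 := fun j' hj' a' ha' =>
        ht₀K' j' (lt_trans hj' hj) a' ha'
      have hneg := inner_neg hF ch hc hj hzpos hprior hzc ha heq.ge hmaxl
      have hd0 : HasDerivWithinAt x (field R k z) (Ici 0) t₀ := by
        have := hx t₀ ht₀0
        rwa [hvK z ht₀K'] at this
      have hd1 := val_hasDerivWithinAt a hd0
      have hd2 : HasDerivWithinAt (fun u => a.val (x u)) (∑ i, field R k z i * a.L i) (Ioi t₀) t₀ :=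
        hd1.mono_of_mem_nhdsWithin hIci
      have hslope := (hasDerivWithinAt_iff_tendsto_slope' (by simp)).mp hd2
      have hev := hslope.eventually (gt_mem_nhds hneg)
      filter_upwards [hev, self_mem_nhdsWithin] with u hu hut
      have hut' : 0 < u - t₀ := sub_pos.mpr hut
      rw [slope_def_field, div_lt_iff₀ hut', zero_mul] at hu
      show a.val (x u) ≤ 0
      have : a.val (x t₀) = 0 := heq
      linarith
  have hall : ∀ᶠ u in 𝓝[>] t₀, ∀ j ∈ {j | j < ch.r}, ∀ a ∈ {a ∈ ch.g j | ∃ y : Fin d → ℝ,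
        (∀ i, ε₂ ≤ y i ∧ y i ≤ A₂) ∧ 0 ≤ a.val y}, a.val (x u) ≤ 0 :=
    (eventually_all_finite hjfin).2 hevgroup
  have hev3 : ∀ᶠ u in 𝓝[>] t₀, u ∈ Ioc t₀ b := Ioc_mem_nhdsGT hb
  have hev4 : ∀ᶠ u in 𝓝[>] t₀, u ∈ Icc 0 t := by
    exact mem_of_superset (Ioo_mem_nhdsGT ht₀t)
      (fun u hu => ⟨le_trans ht₀0 hu.1.le, hu.2.le⟩)
  obtain ⟨u, hu1, hu2, hu3, hu4⟩ := (hboxev.and (hall.and (hev3.and hev4))).exists
  refine ⟨u, ?_, hu3⟩
  intro j hj a ha
  by_contra hpos
  have hpos' : 0 ≤ a.val (x u) := (not_le.mp hpos).le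
  exact hpos (hu2 j hj a ⟨ha, x u, hu1, hpos'⟩)

end Crest.Agent.S0122Lib
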