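import Crest.Agent.S0122.Defs

/-! A2: the one-stage real-analysis lemma. Self-contained. -/

set_option autoImplicit false

namespace Crest.Agent.S0122Lib

/-- Conclusions about a stage value `τ` given the remaining log-mass `w`. -/
structure SclOut (M w τ : ℝ) (P : Set ℝ) : Prop where
  cases : τ ∈ P ∨ IsFree M P τ
  pin : τ ∈ P → |τ - w| ≤ 2 * M
  free_lo : IsFree M P τ → -(7 / 10) ≤ τ - w
  free_hi : IsFree M P τ → τ - w ≤ Real.log (2 * M + 3) + 1
  free_up : IsFree M P τ → ∀ p ∈ P, p < τ → p + 2 * M ≤ τ ∧ p + M < w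
  free_dn : IsFree M P τ → ∀ p ∈ P, τ < p → τ ≤ p - 1 ∧ w < p - M
  free_far : IsFree M P τ → ∀ p ∈ P, M / 2 ≤ |τ - p|

namespace SclAux

theorem gg_one_eq (u : ℝ) : GG 1 u = Real.exp u - u - 1 := by simp [GG]

theorem gg_pin_eq (M u : ℝ) : GG (Real.exp (-M)) u = Real.exp (u - M) - u - 1 := by
  unfold GG
  rw [← Real.exp_add]
  ring_nf

theorem gg_one_nonneg (u : ℝ) : 0 ≤ GG 1 u := by
  rw [gg_one_eq]; linarith [Real.add_one_le_exp u]

theorem gg_one_ge_sq {u : ℝ} (hu : 0 ≤ u) : u ^ 2 / 2 ≤ GG 1 u := by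
  rw [gg_one_eq]; linarith [Real.quadratic_le_exp_of_nonneg hu]

theorem gg_one_gt_neg (u : ℝ) : -u - 1 < GG 1 u := by
  rw [gg_one_eq]; linarith [Real.exp_pos u]

theorem gg_pin_gt_neg (M u : ℝ) : -u - 1 < GG (Real.exp (-M)) u := by
  rw [gg_pin_eq]; linarith [Real.exp_pos (u - M)]

theorem gg_pin_ge_sq {M u : ℝ} (h : M ≤ u) : (u - M) ^ 2 / 2 - M ≤ GG (Real.exp (-M)) u := by
  rw [gg_pin_eq]
  have := Real.quadratic_le_exp_of_nonneg (sub_nonneg.2 h)
  linarith

theorem exp_neg_one_lt : Real.exp (-1) < 37 / 100 := by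
  rw [Real.exp_neg]
  have h := Real.exp_one_gt_d9
  have hpos := Real.exp_pos 1
  rw [inv_lt_comm₀ hpos (by norm_num)]
  norm_num at *
  linarith

theorem exp_neg_le {M : ℝ} (hM : 16 ≤ M) : Real.exp (-M) ≤ 1 / 17 := by
  rw [Real.exp_neg, inv_eq_one_div]
  have h := Real.add_one_le_exp M
  apply one_div_le_one_div_of_le (by norm_num)
  linarith

theorem gg_pin_le_nonneg {M u : ℝ} (hM : 16 ≤ M) (h0 : 0 ≤ u) (h1 : u ≤ M) :
    GG (Real.exp (-M)) u ≤ -(63 / 100) := by
  rw [gg_pin_eq]
  by_cases h : u ≤ M - 1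
  · have : Real.exp (u - M) ≤ Real.exp (-1) := Real.exp_le_exp.2 (by linarith)
    linarith [exp_neg_one_lt]
  · have : Real.exp (u - M) ≤ 1 := Real.exp_le_one_iff.2 (by linarith)
    push Not at h
    linarith

theorem gg_pin_le_neg {M u : ℝ} (h : u ≤ 0) : GG (Real.exp (-M)) u ≤ Real.exp (-M) - u - 1 := by
  rw [gg_pin_eq]
  have : Real.exp (u - M) ≤ Real.exp (-M) := Real.exp_le_exp.2 (by linarith)
  linarith

/-- `g1(v) ≤ 1/16` on `[0,1/4]`. -/
theorem gg_one_small {v : ℝ} (h0 : 0 ≤ v) (h1 : v ≤ 1 / 4) : GG 1 v ≤ 1 / 16 := by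
  rw [gg_one_eq]
  have h := Real.abs_exp_sub_one_sub_id_le (x := v) (by rw [abs_le]; constructor <;> linarith)
  have h' := (abs_le.1 h).2
  nlinarith

theorem exp_neg_seven_tenths : 49 / 100 ≤ Real.exp (-(7 / 10)) := by
  have h1 : Real.exp (-(7 / 10)) = Real.exp (-1) * Real.exp (3 / 10) := by
    rw [← Real.exp_add]; norm_num
  have h2 : (269 / 200 : ℝ) ≤ Real.exp (3 / 10) := by
    have := Real.quadratic_le_exp_of_nonneg (x := 3 / 10) (by norm_num)
    norm_num at this ⊢
    linarith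
  have h3 : (3678 / 10000 : ℝ) ≤ Real.exp (-1) := by
    rw [Real.exp_neg]
    have h := Real.exp_one_lt_d9
    have hpos := Real.exp_pos 1
    rw [le_inv_comm₀ (by norm_num) hpos]
    norm_num at *
    linarith
  rw [h1]
  have := mul_le_mul h3 h2 (by norm_num) (Real.exp_pos _).le
  norm_num at this ⊢
  linarith

/-- `g1(u) ≤ 3/16` forces `u ≥ -7/10`. -/
theorem lo_of_small {u : ℝ} (h : GG 1 u ≤ 3 / 16) : -(7 / 10) ≤ u := by
  by_contra hu
  push Not at hu
  rw [gg_one_eq] at h
  -- tangent line at `-7/10`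
  have h1 : Real.exp (-(7 / 10)) * (u + 7 / 10 + 1) ≤ Real.exp u := by
    have := Real.add_one_le_exp (u + 7 / 10)
    have h2 : Real.exp u = Real.exp (-(7 / 10)) * Real.exp (u + 7 / 10) := by
      rw [← Real.exp_add]; ring_nf
    rw [h2]
    exact mul_le_mul_of_nonneg_left this (Real.exp_pos _).le
  have h3 := exp_neg_seven_tenths
  have h4 : Real.exp (-(7 / 10)) ≤ 1 := Real.exp_le_one_iff.2 (by norm_num)
  have h5 := mul_nonneg (sub_nonneg.2 h4) (show (0:ℝ) ≤ -(7 / 10) - u by linarith)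
  nlinarith

theorem hi_of_le {M u : ℝ} (hM : 16 ≤ M) (h : GG 1 u ≤ 2 * M) :
    u ≤ Real.log (2 * M + 3) + 1 := by
  by_contra hu
  push Not at hu
  rw [gg_one_eq] at h
  have hy : 2 * M + 3 < Real.exp (u - 1) := by
    have : Real.log (2 * M + 3) < u - 1 := by linarith
    have h2 := Real.exp_lt_exp.2 this
    rwa [Real.exp_log (by linarith)] at h2
  have h3 : Real.exp u = Real.exp 1 * Real.exp (u - 1) := by
    rw [← Real.exp_add]; ring_nf
  have h4 : u ≤ Real.exp (u - 1) := by linarith [Real.add_one_le_exp (u - 1)]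
  have h5 := Real.exp_one_gt_d9
  rw [h3] at h
  nlinarith

/-- `log (2M+3) + 1 ≤ M/2`. -/
theorem log_le {M : ℝ} (hM : 16 ≤ M) : Real.log (2 * M + 3) + 1 ≤ M / 2 := by
  have h1 : Real.log ((2 * M + 3) / 8) ≤ (2 * M + 3) / 8 - 1 :=
    Real.log_le_sub_one_of_pos (by linarith)
  rw [Real.log_div (by linarith) (by norm_num)] at h1
  have h2 : Real.log 8 = 3 * Real.log 2 := by
    rw [show (8:ℝ) = 2 ^ 3 by norm_num, Real.log_pow]; norm_num
  have h3 := Real.log_two_lt_d9
  linarith

theorem omOf_mem {M : ℝ} {P : Set ℝ} {t : ℝ} (h : t ∈ P) : omOf M P t = Real.exp (-M) := by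
  simp [omOf, h]

theorem omOf_free' {M : ℝ} {P : Set ℝ} {t : ℝ} (h : IsFree M P t) : omOf M P t = 1 := by
  obtain ⟨h1, h2⟩ := h
  simp only [omOf, h1, if_false]
  rw [if_neg h2]

theorem omOf_band' {M : ℝ} {P : Set ℝ} {t : ℝ} (h : IsBand M P t) :
    omOf M P t = Real.exp (2 * M) := by
  obtain ⟨h1, h2⟩ := h
  simp only [omOf, h1, if_false]
  rw [if_pos h2]

end SclAux

open SclAux in
theorem scl {M T w τ t₀ : ℝ} {P : Set ℝ} (hM : 16 ≤ M)
    (hsep : ∀ p ∈ P, ∀ p' ∈ P, p ≠ p' → 8 * M ≤ |p - p'|)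
    (hT : (T ∈ P ∧ w ≤ T + M / 2) ∨ ((∀ p ∈ P, p ≤ T) ∧ w + 1 ≤ T))
    (hτ : τ ≤ T)
    (H1 : ∀ p ∈ P, p ≤ T → -(2 * M) ≤ p - w → p - w ≤ M →
      GG (omOf M P τ) (τ - w) ≤ GG (Real.exp (-M)) (p - w) + 1 / 8)
    (ht₀ : 0 ≤ t₀ - w) (ht₀' : t₀ - w ≤ 1 / 4)
    (H2 : IsFree M P t₀ → t₀ ≤ T → GG (omOf M P τ) (τ - w) ≤ GG 1 (t₀ - w) + 1 / 8) :
    SclOut M w τ P := by
  have hexp := exp_neg_le hM
  have hexp0 := Real.exp_pos (-M)
  -- F1: window positions are below `T`
  have F1 : ∀ p ∈ P, p - M ≤ w → p ≤ T := by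
    intro p hp hw
    rcases hT with ⟨hT, hwT⟩ | ⟨hT, -⟩
    · by_contra hlt
      push Not at hlt
      have := hsep p hp T hT (ne_of_gt hlt)
      rw [abs_of_pos (sub_pos.2 hlt)] at this
      linarith
    · exact hT p hp
  -- positions above `T` are far above `w`
  have F2 : ∀ p ∈ P, T < p → w < p - M := by
    intro p hp hlt
    by_contra hw
    push Not at hw
    exact absurd (F1 p hp hw) (not_le.2 hlt)
  -- Case A
  have hA : ∀ p ∈ P, p - M ≤ w → w ≤ p + 2 * M →
      GG (omOf M P τ) (τ - w) ≤ GG (Real.exp (-M)) (p - w) + 1 / 8 := by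
    intro p hp h1 h2
    exact H1 p hp (F1 p hp h1) (by linarith) (by linarith)
  -- Case B
  have hB : (∀ p ∈ P, ¬ (p - M ≤ w ∧ w ≤ p + 2 * M)) → GG (omOf M P τ) (τ - w) ≤ 3 / 16 := by
    intro hno
    have hfree : IsFree M P t₀ := by
      constructor
      · intro hmem
        apply hno t₀ hmem
        constructor <;> linarith
      · rintro ⟨p, hp, h1, h2⟩
        apply hno p hp
        constructor <;> linarith
    have ht₀T : t₀ ≤ T := by
      rcases hT with ⟨hT, hwT⟩ | ⟨-, hwT⟩
      · have := hno T hT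
        by_contra hlt
        push Not at hlt
        apply this
        constructor <;> linarith
      · linarith
    have := H2 hfree ht₀T
    have h3 := gg_one_small ht₀ ht₀'
    linarith
  -- the universal bound
  have hV : GG (omOf M P τ) (τ - w) ≤ 2 * M - 1 / 2 := by
    by_cases hc : ∀ p ∈ P, ¬ (p - M ≤ w ∧ w ≤ p + 2 * M)
    · have := hB hc
      linarith
    · push Not at hc
      obtain ⟨p, hp, h1, h2⟩ := hc
      have h3 := hA p hp h1 h2
      by_cases hu : 0 ≤ p - w
      · have := gg_pin_le_nonneg hM hu (by linarith)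
        linarith
      · push Not at hu
        have := gg_pin_le_neg (M := M) hu.le
        linarith
  -- band is impossible
  have hnb : ¬ IsBand M P τ := by
    intro hb
    rw [omOf_band' hb] at hV
    unfold GG at hV
    rw [← Real.exp_add] at hV
    have := Real.add_one_le_exp (2 * M + (τ - w))
    linarith
  have hcases : τ ∈ P ∨ IsFree M P τ := by
    by_cases h1 : τ ∈ P
    · exact Or.inl h1
    · right
      refine ⟨h1, fun h2 => hnb ⟨h1, h2⟩⟩
  -- statements for free stages
  have hfreeG : IsFree M P τ → GG 1 (τ - w) ≤ 2 * M - 1 / 2 := by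
    intro hf
    rw [omOf_free' hf] at hV
    exact hV
  -- subclaim
  have hsub : IsFree M P τ → ∀ p ∈ P, ¬ (p - M ≤ w ∧ w ≤ p + M) := by
    rintro hf p hp ⟨h1, h2⟩
    have hG := hA p hp h1 (by linarith)
    rw [omOf_free' hf] at hG
    have hnp : τ ≠ p := fun h => hf.1 (h ▸ hp)
    by_cases hu : 0 ≤ p - w
    · have := gg_pin_le_nonneg hM hu (by linarith)
      have := gg_one_nonneg (τ - w)
      linarith
    · push Not at hu
      have h3 := gg_pin_le_neg (M := M) hu.le
      rcases lt_or_gt_of_ne hnp with hlt | hgt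
      · -- τ < p
        have h4 : τ ≤ p - 1 := by
          by_contra hc
          push Not at hc
          exact hf.2 ⟨p, hp, hc, by linarith⟩
        have h5 := gg_one_gt_neg (τ - w)
        linarith
      · -- p < τ
        have h4 : p + 2 * M ≤ τ := by
          by_contra hc
          push Not at hc
          exact hf.2 ⟨p, hp, by linarith, hc⟩
        have h5 : M ≤ τ - w := by linarith
        have h6 := gg_one_ge_sq (u := τ - w) (by linarith)
        have h7 : M ^ 2 ≤ (τ - w) ^ 2 := by nlinarith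
        nlinarith
  -- free_lo
  have hlo : IsFree M P τ → -(7 / 10) ≤ τ - w := by
    intro hf
    by_cases hc : ∀ p ∈ P, ¬ (p - M ≤ w ∧ w ≤ p + 2 * M)
    · have := hB hc
      rw [omOf_free' hf] at this
      exact lo_of_small this
    · push Not at hc
      obtain ⟨p, hp, h1, h2⟩ := hc
      have hw : p + M < w := by
        have := hsub hf p hp
        by_contra hcc
        push Not at hcc
        exact this ⟨h1, hcc⟩
      have hG := hA p hp h1 h2
      rw [omOf_free' hf] at hG
      have hnp : τ ≠ p := fun h => hf.1 (h ▸ hp)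
      rcases lt_or_gt_of_ne hnp with hlt | hgt
      · exfalso
        have h4 : τ ≤ p - 1 := by
          by_contra hc
          push Not at hc
          exact hf.2 ⟨p, hp, hc, by linarith⟩
        have h3 := gg_pin_le_neg (M := M) (u := p - w) (by linarith)
        have h5 := gg_one_gt_neg (τ - w)
        linarith
      · have h4 : p + 2 * M ≤ τ := by
          by_contra hc
          push Not at hc
          exact hf.2 ⟨p, hp, by linarith, hc⟩
        linarith
  have hhi : IsFree M P τ → τ - w ≤ Real.log (2 * M + 3) + 1 := fun hf =>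
    hi_of_le hM (by linarith [hfreeG hf])
  have hup : IsFree M P τ → ∀ p ∈ P, p < τ → p + 2 * M ≤ τ ∧ p + M < w := by
    intro hf p hp hlt
    have h4 : p + 2 * M ≤ τ := by
      by_contra hc
      push Not at hc
      exact hf.2 ⟨p, hp, by linarith, hc⟩
    refine ⟨h4, ?_⟩
    by_contra hcc
    push Not at hcc
    have hw : w < p - M := by
      by_contra hc2
      push Not at hc2
      exact hsub hf p hp ⟨hc2, hcc⟩
    have h5 : 3 * M ≤ τ - w := by linarith
    have h6 := gg_one_ge_sq (u := τ - w) (by linarith)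
    have h7 : (3 * M) ^ 2 ≤ (τ - w) ^ 2 := by nlinarith
    have := hfreeG hf
    nlinarith
  have hdn : IsFree M P τ → ∀ p ∈ P, τ < p → τ ≤ p - 1 ∧ w < p - M := by
    intro hf p hp hlt
    have h4 : τ ≤ p - 1 := by
      by_contra hc
      push Not at hc
      exact hf.2 ⟨p, hp, hc, by linarith⟩
    refine ⟨h4, ?_⟩
    by_contra hcc
    push Not at hcc
    have hw : p + M < w := by
      by_contra hc2
      push Not at hc2
      exact hsub hf p hp ⟨hcc, hc2⟩
    have h5 := gg_one_gt_neg (τ - w)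
    by_cases ha : w ≤ p + 2 * M
    · have hG := hA p hp hcc ha
      rw [omOf_free' hf] at hG
      have h3 := gg_pin_le_neg (M := M) (u := p - w) (by linarith)
      linarith
    · push Not at ha
      have := hfreeG hf
      linarith
  have hfar : IsFree M P τ → ∀ p ∈ P, M / 2 ≤ |τ - p| := by
    intro hf p hp
    have hnp : τ ≠ p := fun h => hf.1 (h ▸ hp)
    rcases lt_or_gt_of_ne hnp with hlt | hgt
    · rw [abs_sub_comm, abs_of_pos (sub_pos.2 hlt)]
      have h1 := (hdn hf p hp hlt).2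
      have h2 := hhi hf
      have h3 := log_le hM
      linarith
    · rw [abs_of_pos (sub_pos.2 hgt)]
      have h1 := (hup hf p hp hgt).1
      linarith
  -- pinned
  have hpin : τ ∈ P → |τ - w| ≤ 2 * M := by
    intro hτP
    have hV' := hV
    rw [omOf_mem hτP] at hV'
    rw [abs_le]
    by_cases hc : ∀ p ∈ P, ¬ (p - M ≤ w ∧ w ≤ p + 2 * M)
    · have hB' := hB hc
      rw [omOf_mem hτP] at hB'
      have h1 := gg_pin_gt_neg M (τ - w)
      constructor
      · linarith
      · by_contra hu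
        push Not at hu
        have h2 := gg_pin_ge_sq (M := M) (u := τ - w) (by linarith)
        have h3 : M ^ 2 ≤ (τ - w - M) ^ 2 := by nlinarith
        nlinarith
    · push Not at hc
      obtain ⟨p, hp, h1, h2⟩ := hc
      by_cases hpe : τ = p
      · subst hpe
        constructor <;> linarith
      · exfalso
        have hs := hsep τ hτP p hp hpe
        rcases lt_or_gt_of_ne hpe with hlt | hgt
        · rw [abs_sub_comm, abs_of_pos (sub_pos.2 hlt)] at hs
          have h3 := gg_pin_gt_neg M (τ - w)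
          linarith
        · rw [abs_of_pos (sub_pos.2 hgt)] at hs
          have h2' := gg_pin_ge_sq (M := M) (u := τ - w) (by linarith)
          have h3 : (5 * M) ^ 2 ≤ (τ - w - M) ^ 2 := by nlinarith
          nlinarith
  exact ⟨hcases, hpin, hlo, hhi, hup, hdn, hfar⟩

end Crest.Agent.S0122Lib
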