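import Crest.Agent.S0122.Hier

/-! A5: separation of positions. -/

set_option autoImplicit false

namespace Crest.Agent.S0122Lib

open Finset

variable {n : ℕ} {B : ℕ}

private lemma sum_lt_succ' (f : Fin n → ℝ) (t : Fin n) :
    ∑ j ∈ univ.filter (fun j : Fin n => j.val < t.val + 1), f j =
      ∑ j ∈ univ.filter (fun j : Fin n => j.val < t.val), f j + f t := by
  have : univ.filter (fun j : Fin n => j.val < t.val + 1) =
      insert t (univ.filter (fun j : Fin n => j.val < t.val)) := by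
    ext j
    simp only [mem_filter, mem_univ, true_and, mem_insert, Fin.ext_iff]
    omega
  rw [this, sum_insert (by simp), add_comm]

private lemma prodBd_pos (hB : 1 ≤ B) (m : ℕ) :
    (1 : ℝ) ≤ ((∏ j ∈ Finset.range m, bd B n j : ℕ) : ℝ) := by
  have : 1 ≤ ∏ j ∈ Finset.range m, bd B n j :=
    Nat.one_le_iff_ne_zero.mpr (Finset.prod_ne_zero_iff.mpr fun j _ => by
      have := bd_pos (n := n) hB j
      omega)
  exact_mod_cast this

private lemma bd_real_ge (hB : 1 ≤ B) (m : ℕ) : (1 : ℝ) ≤ (bd B n m : ℝ) := by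
  exact_mod_cast bd_pos (n := n) hB m

/-- Small-coefficient linear forms in `τ_j`, `j < m`, are zero or large, where "large" is measured by
the window of a non-pinned stage. Hypothesis `hst`: every stage before `m` is pinned or far from all
its positions. -/
theorem sep_form {Λ : ℝ} (hB : 1 ≤ B) (τ : Fin n → ℝ) (m : ℕ) (hm : m ≤ n)
    (hst : ∀ k : Fin n, k.val < m → τ k ∈ Pos B τ k.val ∨
      ∀ q ∈ Pos B τ k.val, MM Λ B τ k.val / 2 ≤ |τ k - q|)
    (hMpos : ∀ k : Fin n, 0 < MM Λ B τ k.val)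
    (c : Fin n → ℤ) (hc : ∀ j : Fin n, j.val < m → |c j| ≤ (bd B n (m - 1) : ℤ))
    (hne : (∑ j ∈ univ.filter (fun j : Fin n => j.val < m), (c j : ℝ) * τ j) ≠ 0) :
    ∃ k : Fin n, k.val < m ∧ τ k ∉ Pos B τ k.val ∧
      MM Λ B τ k.val / (2 * ((∏ j ∈ Finset.range m, bd B n j : ℕ) : ℝ)) ≤
        |∑ j ∈ univ.filter (fun j : Fin n => j.val < m), (c j : ℝ) * τ j| := by
  induction m generalizing c with
  | zero =>
    exfalso
    apply hne
    apply Finset.sum_eq_zero
    intro j hj
    simp at hj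
  | succ m ih =>
    have hmn : m < n := hm
    set t : Fin n := ⟨m, hmn⟩ with ht
    have htv : t.val = m := rfl
    have hsum : ∑ j ∈ univ.filter (fun j : Fin n => j.val < m + 1), (c j : ℝ) * τ j =
        ∑ j ∈ univ.filter (fun j : Fin n => j.val < m), (c j : ℝ) * τ j + (c t : ℝ) * τ t :=
      sum_lt_succ' (fun j => (c j : ℝ) * τ j) t
    have hP1 : (1 : ℝ) ≤ ((∏ j ∈ Finset.range m, bd B n j : ℕ) : ℝ) := prodBd_pos hB m
    have hbm : (1 : ℝ) ≤ (bd B n m : ℝ) := bd_real_ge hB m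
    have hPs : ((∏ j ∈ Finset.range (m + 1), bd B n j : ℕ) : ℝ) =
        ((∏ j ∈ Finset.range m, bd B n j : ℕ) : ℝ) * (bd B n m : ℝ) := by
      rw [Finset.prod_range_succ]; push_cast; ring
    have hst' : ∀ k : Fin n, k.val < m → τ k ∈ Pos B τ k.val ∨
        ∀ q ∈ Pos B τ k.val, MM Λ B τ k.val / 2 ≤ |τ k - q| :=
      fun k hk => hst k (by omega)
    have hcm : ∀ j : Fin n, j.val < m + 1 → |c j| ≤ (bd B n m : ℤ) := by
      intro j hj
      simpa using hc j hj
    by_cases hct : c t = 0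
    · -- the last coefficient vanishes
      have hS : ∑ j ∈ univ.filter (fun j : Fin n => j.val < m + 1), (c j : ℝ) * τ j =
          ∑ j ∈ univ.filter (fun j : Fin n => j.val < m), (c j : ℝ) * τ j := by
        rw [hsum, hct]; simp
      rw [hS] at hne ⊢
      have hc' : ∀ j : Fin n, j.val < m → |c j| ≤ (bd B n (m - 1) : ℤ) := by
        intro j hj
        refine le_trans (hcm j (by omega)) ?_
        exact_mod_cast bd_anti hB (Nat.sub_le m 1)
      obtain ⟨k, hk, hkp, hkb⟩ := ih (by omega) hst' c hc' hne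
      refine ⟨k, by omega, hkp, le_trans ?_ hkb⟩
      apply div_le_div_of_nonneg_left (hMpos k).le (by positivity)
      rw [hPs]
      nlinarith
    by_cases hpin : τ t ∈ Pos B τ m
    · -- stage `t` is pinned
      rcases Nat.eq_zero_or_pos m with hm0 | hmpos
      · exfalso
        subst hm0
        have h0 : τ t = 0 := Pos_zero τ hpin
        apply hne
        rw [hsum, h0]
        simp
      obtain ⟨a, b, ha, hb0, hb, hpeq⟩ := hpin
      have hbR : (b : ℝ) ≠ 0 := by exact_mod_cast hb0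
      have hbτ : (b : ℝ) * τ t =
          ∑ j ∈ univ.filter (fun j : Fin n => j.val < m), (a j : ℝ) * τ j := by
        rw [hpeq]; field_simp
      set c' : Fin n → ℤ := fun j => b * c j + c t * a j with hc'def
      have hform : ∑ j ∈ univ.filter (fun j : Fin n => j.val < m), (c' j : ℝ) * τ j =
          (b : ℝ) * ∑ j ∈ univ.filter (fun j : Fin n => j.val < m + 1), (c j : ℝ) * τ j := by
        rw [hsum, mul_add, Finset.mul_sum]
        have : (b : ℝ) * ((c t : ℝ) * τ t) = (c t : ℝ) * ∑ j ∈ univ.filter (fun j : Fin n => j.val < m), (a j : ℝ) * τ j := by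
          rw [← hbτ]; ring
        rw [this, Finset.mul_sum, ← Finset.sum_add_distrib]
        apply Finset.sum_congr rfl
        intro j _
        simp only [hc'def]
        push_cast
        ring
      have hne' : ∑ j ∈ univ.filter (fun j : Fin n => j.val < m), (c' j : ℝ) * τ j ≠ 0 := by
        rw [hform]
        exact mul_ne_zero hbR hne
      have hc't : |c t| ≤ (bd B n m : ℤ) := hcm t (by omega)
      have hbsq : (bd B n (m - 1) : ℤ) = 2 * (bd B n m : ℤ) ^ 2 := by
        have h1 : bd B n (m - 1) = 2 * (bd B n (m - 1 + 1)) ^ 2 :=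
          bd_succ (by omega)
        have h2 : m - 1 + 1 = m := by omega
        rw [h2] at h1
        rw [h1]
        push_cast
        ring
      have hc'b : ∀ j : Fin n, j.val < m → |c' j| ≤ (bd B n (m - 1) : ℤ) := by
        intro j hj
        rw [hbsq]
        have h1 := hcm j (by omega)
        have h2 := ha j
        have hbd0 : (0 : ℤ) ≤ (bd B n m : ℤ) := by positivity
        calc |c' j| ≤ |b * c j| + |c t * a j| := abs_add_le _ _
          _ = |b| * |c j| + |c t| * |a j| := by rw [abs_mul, abs_mul]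
          _ ≤ (bd B n m : ℤ) * (bd B n m : ℤ) + (bd B n m : ℤ) * (bd B n m : ℤ) := by
              apply add_le_add
              · exact mul_le_mul hb h1 (abs_nonneg _) hbd0
              · exact mul_le_mul hc't h2 (abs_nonneg _) hbd0
          _ = 2 * (bd B n m : ℤ) ^ 2 := by ring
      obtain ⟨k, hk, hkp, hkb⟩ := ih (by omega) hst' c' hc'b hne'
      refine ⟨k, by omega, hkp, ?_⟩
      rw [hform, abs_mul] at hkb
      have hbabs : |(b : ℝ)| ≤ (bd B n m : ℝ) := by
        have : ((|b| : ℤ) : ℝ) ≤ ((bd B n m : ℤ) : ℝ) := by exact_mod_cast hb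
        simpa using this
      have hMk := hMpos k
      rw [hPs]
      rw [div_le_iff₀ (by positivity)] at hkb ⊢
      have hV := abs_nonneg (∑ j ∈ univ.filter (fun j : Fin n => j.val < m + 1), (c j : ℝ) * τ j)
      calc MM Λ B τ k.val
          ≤ |(b : ℝ)| * |∑ j ∈ univ.filter (fun j : Fin n => j.val < m + 1), (c j : ℝ) * τ j| *
              (2 * ((∏ j ∈ Finset.range m, bd B n j : ℕ) : ℝ)) := hkb
        _ ≤ (bd B n m : ℝ) * |∑ j ∈ univ.filter (fun j : Fin n => j.val < m + 1), (c j : ℝ) * τ j| *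
              (2 * ((∏ j ∈ Finset.range m, bd B n j : ℕ) : ℝ)) := by
            apply mul_le_mul_of_nonneg_right _ (by positivity)
            exact mul_le_mul_of_nonneg_right hbabs hV
        _ = _ := by ring
    · -- stage `t` is not pinned
      have hroot := root_mem_Pos (B := B) τ t c
        (fun j hj => hcm j (by have : j.val ≤ t.val := hj; omega)) hct
      have hfar : MM Λ B τ m / 2 ≤ |τ t - (∑ j ∈ univ.filter (fun j : Fin n => j.val < t.val),
          (-(c j) : ℝ) * τ j) / (c t : ℝ)| := by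
        rcases hst t (by omega) with h | h
        · exact absurd h hpin
        · exact h _ hroot
      have hctR : (c t : ℝ) ≠ 0 := by exact_mod_cast hct
      have hct1 : (1 : ℝ) ≤ |(c t : ℝ)| := by
        have : (1 : ℤ) ≤ |c t| := Int.one_le_abs hct
        have h2 : ((1 : ℤ) : ℝ) ≤ ((|c t| : ℤ) : ℝ) := by exact_mod_cast this
        simpa using h2
      have hVeq : ∑ j ∈ univ.filter (fun j : Fin n => j.val < m + 1), (c j : ℝ) * τ j =
          (c t : ℝ) * (τ t - (∑ j ∈ univ.filter (fun j : Fin n => j.val < t.val),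
            (-(c j) : ℝ) * τ j) / (c t : ℝ)) := by
        rw [hsum, htv]
        have : ∑ j ∈ univ.filter (fun j : Fin n => j.val < m), (-(c j) : ℝ) * τ j =
            -∑ j ∈ univ.filter (fun j : Fin n => j.val < m), (c j : ℝ) * τ j := by
          rw [← Finset.sum_neg_distrib]
          apply Finset.sum_congr rfl
          intro j _
          ring
        rw [this]
        field_simp
        ring
      refine ⟨t, by omega, hpin, ?_⟩
      rw [hVeq, abs_mul]
      have hMt := hMpos t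
      rw [htv] at hMt
      have hPge : (1 : ℝ) ≤ ((∏ j ∈ Finset.range (m + 1), bd B n j : ℕ) : ℝ) := prodBd_pos hB (m + 1)
      have h1 : MM Λ B τ m / (2 * ((∏ j ∈ Finset.range (m + 1), bd B n j : ℕ) : ℝ)) ≤
          MM Λ B τ m / 2 := by
        apply div_le_div_of_nonneg_left hMt.le (by norm_num)
        linarith
      have h2 : |τ t - (∑ j ∈ univ.filter (fun j : Fin n => j.val < t.val),
            (-(c j) : ℝ) * τ j) / (c t : ℝ)| ≤ |(c t : ℝ)| * |τ t - (∑ j ∈ univ.filter (fun j : Fin n => j.val < t.val),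
            (-(c j) : ℝ) * τ j) / (c t : ℝ)| := by
        have := abs_nonneg (τ t - (∑ j ∈ univ.filter (fun j : Fin n => j.val < t.val),
            (-(c j) : ℝ) * τ j) / (c t : ℝ))
        nlinarith
      exact le_trans h1 (le_trans hfar h2)

/-- Distinct positions at stage `m` are far apart. -/
theorem sep_pos {Λ : ℝ} (hB : 1 ≤ B) (τ : Fin n → ℝ) (m : Fin n)
    (hst : ∀ k : Fin n, k < m → τ k ∈ Pos B τ k.val ∨
      ∀ q ∈ Pos B τ k.val, MM Λ B τ k.val / 2 ≤ |τ k - q|)
    (hMpos : ∀ k : Fin n, 0 < MM Λ B τ k.val)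
    {p p' : ℝ} (hp : p ∈ Pos B τ m.val) (hp' : p' ∈ Pos B τ m.val) (hne : p ≠ p') :
    ∃ k : Fin n, k < m ∧ τ k ∉ Pos B τ k.val ∧ MM Λ B τ k.val / (2 * Bhat B n) ≤ |p - p'| := by
  rcases Nat.eq_zero_or_pos m.val with hm0 | hmpos
  · exfalso
    rw [hm0] at hp hp'
    exact hne ((Pos_zero τ hp).trans (Pos_zero τ hp').symm)
  obtain ⟨a, b, ha, hb0, hb, hpeq⟩ := hp
  obtain ⟨a', b', ha', hb0', hb', hpeq'⟩ := hp'
  have hbR : (b : ℝ) ≠ 0 := by exact_mod_cast hb0
  have hbR' : (b' : ℝ) ≠ 0 := by exact_mod_cast hb0'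
  set c : Fin n → ℤ := fun j => b' * a j - b * a' j with hcdef
  have hform : ∑ j ∈ univ.filter (fun j : Fin n => j.val < m.val), (c j : ℝ) * τ j =
      (b : ℝ) * (b' : ℝ) * (p - p') := by
    have h1 : (b : ℝ) * p = ∑ j ∈ univ.filter (fun j : Fin n => j.val < m.val), (a j : ℝ) * τ j := by
      rw [hpeq]; field_simp
    have h2 : (b' : ℝ) * p' = ∑ j ∈ univ.filter (fun j : Fin n => j.val < m.val), (a' j : ℝ) * τ j := by
      rw [hpeq']; field_simp
    have h3 : (b : ℝ) * (b' : ℝ) * (p - p') = (b' : ℝ) * ((b : ℝ) * p) - (b : ℝ) * ((b' : ℝ) * p') := by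
      ring
    rw [h3, h1, h2, Finset.mul_sum, Finset.mul_sum, ← Finset.sum_sub_distrib]
    apply Finset.sum_congr rfl
    intro j _
    simp only [hcdef]
    push_cast
    ring
  have hsub : p - p' ≠ 0 := sub_ne_zero.mpr hne
  have hne' : ∑ j ∈ univ.filter (fun j : Fin n => j.val < m.val), (c j : ℝ) * τ j ≠ 0 := by
    rw [hform]
    exact mul_ne_zero (mul_ne_zero hbR hbR') hsub
  have hbsq : (bd B n (m.val - 1) : ℤ) = 2 * (bd B n m.val : ℤ) ^ 2 := by
    have h1 : bd B n (m.val - 1) = 2 * (bd B n (m.val - 1 + 1)) ^ 2 :=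
      bd_succ (by omega)
    have h2 : m.val - 1 + 1 = m.val := by omega
    rw [h2] at h1
    rw [h1]
    push_cast
    ring
  have hcb : ∀ j : Fin n, j.val < m.val → |c j| ≤ (bd B n (m.val - 1) : ℤ) := by
    intro j _
    rw [hbsq]
    have hbd0 : (0 : ℤ) ≤ (bd B n m.val : ℤ) := by positivity
    calc |c j| ≤ |b' * a j| + |b * a' j| := abs_sub _ _
      _ = |b'| * |a j| + |b| * |a' j| := by rw [abs_mul, abs_mul]
      _ ≤ (bd B n m.val : ℤ) * (bd B n m.val : ℤ) + (bd B n m.val : ℤ) * (bd B n m.val : ℤ) := by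
          apply add_le_add
          · exact mul_le_mul hb' (ha j) (abs_nonneg _) hbd0
          · exact mul_le_mul hb (ha' j) (abs_nonneg _) hbd0
      _ = 2 * (bd B n m.val : ℤ) ^ 2 := by ring
  obtain ⟨k, hk, hkp, hkb⟩ := sep_form (Λ := Λ) hB τ m.val m.isLt.le
    (fun k hk => hst k (by exact hk)) hMpos c hcb hne'
  refine ⟨k, hk, hkp, ?_⟩
  rw [hform, abs_mul, abs_mul] at hkb
  have hbabs : |(b : ℝ)| ≤ (bd B n m.val : ℝ) := by
    have : ((|b| : ℤ) : ℝ) ≤ ((bd B n m.val : ℤ) : ℝ) := by exact_mod_cast hb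
    simpa using this
  have hbabs' : |(b' : ℝ)| ≤ (bd B n m.val : ℝ) := by
    have : ((|b'| : ℤ) : ℝ) ≤ ((bd B n m.val : ℤ) : ℝ) := by exact_mod_cast hb'
    simpa using this
  have hMk := hMpos k
  have hP1 : (1 : ℝ) ≤ ((∏ j ∈ Finset.range m.val, bd B n j : ℕ) : ℝ) := prodBd_pos hB m.val
  have hbm : (1 : ℝ) ≤ (bd B n m.val : ℝ) := bd_real_ge hB m.val
  have hhat : ((∏ j ∈ Finset.range m.val, bd B n j : ℕ) : ℝ) * (bd B n m.val : ℝ) ^ 2 ≤ Bhat B n :=
    prod_mul_sq_le_Bhat hB m.isLt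
  have hhat1 : (1 : ℝ) ≤ Bhat B n := one_le_Bhat hB
  rw [div_le_iff₀ (by positivity)] at hkb ⊢
  have hd := abs_nonneg (p - p')
  have hbb : |(b : ℝ)| * |(b' : ℝ)| ≤ (bd B n m.val : ℝ) ^ 2 := by
    rw [sq]
    exact mul_le_mul hbabs hbabs' (abs_nonneg _) (by linarith)
  calc MM Λ B τ k.val
      ≤ |(b : ℝ)| * |(b' : ℝ)| * |p - p'| * (2 * ((∏ j ∈ Finset.range m.val, bd B n j : ℕ) : ℝ)) := hkb
    _ ≤ (bd B n m.val : ℝ) ^ 2 * |p - p'| * (2 * ((∏ j ∈ Finset.range m.val, bd B n j : ℕ) : ℝ)) := by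
        apply mul_le_mul_of_nonneg_right _ (by positivity)
        exact mul_le_mul_of_nonneg_right hbb hd
    _ = |p - p'| * (2 * (((∏ j ∈ Finset.range m.val, bd B n j : ℕ) : ℝ) * (bd B n m.val : ℝ) ^ 2)) := by ring
    _ ≤ |p - p'| * (2 * Bhat B n) := by
        apply mul_le_mul_of_nonneg_left _ hd
        linarith

end Crest.Agent.S0122Lib
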