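import Crest.Agent.S0122.Completion
import Crest.Agent.S0122.Scl
import Crest.Agent.S0122.Sep

/-! A4: stage inequality and structure of maximisers. -/

set_option autoImplicit false

namespace Crest.Agent.S0122Lib

open Finset

variable {n : ℕ} {B : ℕ}

private lemma stage_sum_tail_eq (x : Fin n → ℝ) (π π' : Equiv.Perm (Fin n)) (i : Fin n)
    (h : ∀ a : Fin n, a ≤ i → π' a = π a) :
    ∑ j ∈ univ.filter (fun j : Fin n => i ≤ j), x (π' j) =
      ∑ j ∈ univ.filter (fun j : Fin n => i ≤ j), x (π j) := by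
  have h1 : ∑ j, x (π' j) = ∑ j, x (π j) := by
    rw [Equiv.sum_comp π' x, Equiv.sum_comp π x]
  have h2 := Finset.sum_filter_add_sum_filter_not univ (fun j : Fin n => i ≤ j) (fun j => x (π' j))
  have h3 := Finset.sum_filter_add_sum_filter_not univ (fun j : Fin n => i ≤ j) (fun j => x (π j))
  have h4 : ∑ j ∈ univ.filter (fun j : Fin n => ¬ i ≤ j), x (π' j) =
      ∑ j ∈ univ.filter (fun j : Fin n => ¬ i ≤ j), x (π j) := by
    apply Finset.sum_congr rfl
    intro j hj
    simp only [mem_filter, mem_univ, true_and, not_le] at hj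
    rw [h j hj.le]
  linarith

private lemma stage_sum_ge_split (f : Fin n → ℝ) (i : Fin n) :
    ∑ j ∈ univ.filter (fun j : Fin n => i ≤ j), f j =
      f i + ∑ j ∈ univ.filter (fun j : Fin n => i < j), f j := by
  have h : univ.filter (fun j : Fin n => i ≤ j) =
      insert i (univ.filter (fun j : Fin n => i < j)) := by
    ext j
    simp only [mem_filter, mem_univ, true_and, mem_insert]
    constructor
    · intro h
      rcases eq_or_lt_of_le h with h | h
      · exact Or.inl h.symm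
      · exact Or.inr h
    · rintro (h | h)
      · exact h.ge
      · exact h.le
  rw [h, Finset.sum_insert (by simp)]

private lemma stage_sum_split (f : Fin n → ℝ) (i : Fin n) :
    ∑ j, f j = ∑ j ∈ univ.filter (fun j : Fin n => ¬ i ≤ j), f j +
      (f i + ∑ j ∈ univ.filter (fun j : Fin n => i < j), f j) := by
  have h2 := Finset.sum_filter_add_sum_filter_not univ (fun j : Fin n => i ≤ j) f
  rw [stage_sum_ge_split] at h2
  linarith

private lemma stage_tail_pos {x : Fin n → ℝ} (hx : ∀ i, 0 < x i) (π : Equiv.Perm (Fin n))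
    (i : Fin n) : 0 < ∑ j ∈ univ.filter (fun j : Fin n => i ≤ j), x (π j) := by
  apply Finset.sum_pos
  · intro j _
    exact hx _
  · exact ⟨i, by simp⟩

private lemma stage_exp_ww {x : Fin n → ℝ} (hx : ∀ i, 0 < x i) (π : Equiv.Perm (Fin n))
    (i : Fin n) : Real.exp (ww x π i) = ∑ j ∈ univ.filter (fun j : Fin n => i ≤ j), x (π j) := by
  unfold ww
  exact Real.exp_log (stage_tail_pos hx π i)

private lemma stage_le_exp_ww {x : Fin n → ℝ} (hx : ∀ i, 0 < x i) (π : Equiv.Perm (Fin n))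
    {i j : Fin n} (hij : i ≤ j) : x (π j) ≤ Real.exp (ww x π i) := by
  rw [stage_exp_ww hx]
  exact Finset.single_le_sum (f := fun j => x (π j)) (fun k _ => (hx _).le) (by simp [hij])

private lemma stage_ww_anti {x : Fin n → ℝ} (hx : ∀ i, 0 < x i) (π : Equiv.Perm (Fin n))
    {i j : Fin n} (hij : i ≤ j) : ww x π j ≤ ww x π i := by
  unfold ww
  apply Real.log_le_log (stage_tail_pos hx π j)
  apply Finset.sum_le_sum_of_subset_of_nonneg
  · intro k hk
    simp only [mem_filter, mem_univ, true_and] at hk ⊢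
    exact hij.trans hk
  · intro k _ _
    exact (hx _).le

/-- The competitor built from `t'` at stage `i`. -/
private lemma exists_competitor {Λ Q : ℝ} (hB : 1 ≤ B) (hΛ : Good Λ B n Q) {x : Fin n → ℝ}
    (hx : ∀ i, 0 < x i) {π : Equiv.Perm (Fin n)} {τ : Fin n → ℝ} (hmax : IsMaxi Λ B x π τ)
    (i : Fin n) (t' : ℝ)
    (hz : ∃ z : ℤ, t' = (z : ℝ) / (den B n i.val : ℝ)) (hle : ∀ j : Fin n, j < i → t' ≤ τ j)
    (hcand : (t' ∈ Pos B τ i.val ∧ t' - ww x π i ≤ MM Λ B τ i.val ∧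
          ww x π i ≤ t' + 2 * MM Λ B τ i.val) ∨
        (IsFree (MM Λ B τ i.val) (Pos B τ i.val) t' ∧ 0 ≤ t' - ww x π i ∧ t' - ww x π i ≤ 1 / 4)) :
    ∃ (π' : Equiv.Perm (Fin n)) (τ' : Fin n → ℝ),
      (∀ a : Fin n, a ≤ i → π' a = π a ∧ τ' a = Function.update τ i t' a) ∧ Lat B τ' ∧
      ∑ j ∈ univ.filter (fun j : Fin n => i < j),
          (om Λ B τ' j * Real.exp (τ' j) + x (π' j) * (t' - τ' j)) ≤
        Real.exp (ww x π i) / 8 := by
  obtain ⟨⟨hanti0, hlat0⟩, -⟩ := hmax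
  set τ₁ : Fin n → ℝ := Function.update τ i t' with hτ₁
  have hτ₁i : τ₁ i = t' := by simp [hτ₁]
  have hτ₁ne : ∀ a : Fin n, a ≠ i → τ₁ a = τ a := fun a ha => by simp [hτ₁, ha]
  have hanti : ∀ a b : Fin n, a ≤ b → b ≤ i → τ₁ b ≤ τ₁ a := by
    intro a b hab hbi
    rcases eq_or_lt_of_le hbi with rfl | hbi'
    · rcases eq_or_lt_of_le hab with rfl | hab'
      · exact le_rfl
      · rw [hτ₁i, hτ₁ne a hab'.ne]
        exact hle a hab'
    · have ha : a ≠ i := (lt_of_le_of_lt hab hbi').ne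
      rw [hτ₁ne b hbi'.ne, hτ₁ne a ha]
      exact hanti0 hab
  have hlat : ∀ a : Fin n, a ≤ i → ∃ z : ℤ, τ₁ a = (z : ℝ) / (den B n a.val : ℝ) := by
    intro a hai
    rcases eq_or_lt_of_le hai with rfl | hai'
    · rw [hτ₁i]; exact hz
    · rw [hτ₁ne a hai'.ne]; exact hlat0 a
  by_cases hlast : i.val + 1 = n
  · -- `i` is the last stage
    have hlast' : ∀ a : Fin n, a ≤ i := fun a => by
      have := a.isLt
      rw [Fin.le_def]; omega
    refine ⟨π, τ₁, fun a _ => ⟨rfl, rfl⟩, ⟨?_, fun a => hlat a (hlast' a)⟩, ?_⟩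
    · intro a b hab
      exact hanti a b hab (hlast' b)
    · have : univ.filter (fun j : Fin n => i < j) = ∅ := by
        ext j
        simp only [mem_filter, mem_univ, true_and, notMem_empty, iff_false, not_lt]
        exact hlast' j
      rw [this, Finset.sum_empty]
      positivity
  · -- apply the completion lemma
    have hlt : i.val + 1 < n := by
      have := i.isLt
      omega
    have hP : Pos B τ₁ i.val = Pos B τ i.val :=
      Pos_congr fun j hj => hτ₁ne j (Fin.ne_of_val_ne hj.ne)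
    have hMi : MM Λ B τ₁ i.val = MM Λ B τ i.val :=
      MM_congr fun j hj => hτ₁ne j (Fin.ne_of_val_ne hj.ne)
    have hΛ2 := hΛ.two_le
    have hΛ16 := hΛ.sq_ge
    set Mstar := MM Λ B τ₁ (i.val + 1) with hMstar
    have hM1 : 1 ≤ Mstar := one_le_MM hΛ2 τ₁ hlt.le
    have hM2 : Mstar ≤ Mbar Λ n := MM_le hΛ2 τ₁ hlt.le
    have hMstar_ge : Λ ^ 2 ≤ Mstar := MM_ge hΛ2 τ₁ hlt
    have hi1 : 1 ≤ MM Λ B τ i.val := one_le_MM hΛ2 τ i.isLt.le
    -- in all cases: `w ≤ t' + 2 Mstar`, and `t' - Mstar ≤ w + 1/4 - Λ²`.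
    have key : ww x π i ≤ t' + 2 * Mstar ∧ t' - Mstar ≤ ww x π i + 1 / 4 - Λ ^ 2 := by
      rcases hcand with ⟨hp, h1, h2⟩ | ⟨hf, h1, h2⟩
      · have hup : Λ ^ 2 * MM Λ B τ₁ i.val ≤ Mstar := by
          apply MM_lex_up hΛ2 τ₁ i (Nat.lt_succ_self _) hlt
          rw [hτ₁i, hP]; exact hp
        rw [hMi] at hup
        have hi16 : 16 ≤ MM Λ B τ i.val := hΛ16.trans (MM_ge hΛ2 τ i.isLt)
        constructor
        · nlinarith
        · nlinarith [mul_nonneg (sub_nonneg.mpr hΛ16) (sub_nonneg.mpr hi16)]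
      · constructor
        · linarith
        · linarith
    have hinv : ∀ j : Fin n, i < j → x (π j) ≤ Real.exp (τ₁ i + 2 * Mstar) := by
      intro j hj
      refine (stage_le_exp_ww hx π hj.le).trans (Real.exp_le_exp.mpr ?_)
      rw [hτ₁i]; exact key.1
    obtain ⟨π', τ', hagree, hLat, hsum⟩ := completion hB hΛ hx i π τ₁ hanti hlat t' Mstar hM1 hM2
      hinv (Or.inl ⟨hτ₁i, le_rfl⟩)
    refine ⟨π', τ', hagree, hLat, hsum.trans ?_⟩
    have hMbar : 0 ≤ 3 * Mbar Λ n + 3 := by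
      have : 0 ≤ Mbar Λ n := le_trans (by linarith) hM2
      linarith
    have hn : ((n - 1 - i.val : ℕ) : ℝ) ≤ (n : ℝ) := by
      exact_mod_cast (by omega : n - 1 - i.val ≤ n)
    have hexp : Real.exp (t' - Mstar) ≤ Real.exp (ww x π i) * Real.exp (1 / 4 - Λ ^ 2) := by
      rw [← Real.exp_add]
      apply Real.exp_le_exp.mpr
      linarith [key.2]
    have herr := hΛ.err
    calc ((n - 1 - i.val : ℕ) : ℝ) * (3 * Mbar Λ n + 3) * Real.exp (t' - Mstar)
        ≤ (n : ℝ) * (3 * Mbar Λ n + 3) * (Real.exp (ww x π i) * Real.exp (1 / 4 - Λ ^ 2)) := by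
          apply mul_le_mul _ hexp (Real.exp_pos _).le (by positivity)
          exact mul_le_mul_of_nonneg_right hn hMbar
      _ = ((n : ℝ) * (3 * Mbar Λ n + 3) * Real.exp (1 / 4 - Λ ^ 2)) * Real.exp (ww x π i) := by ring
      _ ≤ (1 / 8) * Real.exp (ww x π i) :=
          mul_le_mul_of_nonneg_right herr (Real.exp_pos _).le
      _ = Real.exp (ww x π i) / 8 := by ring

/-- The stage inequality: a maximiser beats every candidate at stage `i`, up to `1/8`. -/
theorem stage_ineq {Λ Q : ℝ} (hB : 1 ≤ B) (hΛ : Good Λ B n Q) {x : Fin n → ℝ} (hx : ∀ i, 0 < x i)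
    {π : Equiv.Perm (Fin n)} {τ : Fin n → ℝ} (hmax : IsMaxi Λ B x π τ) (i : Fin n) (t' : ℝ)
    (hz : ∃ z : ℤ, t' = (z : ℝ) / (den B n i.val : ℝ)) (hle : ∀ j : Fin n, j < i → t' ≤ τ j)
    (hcand : (t' ∈ Pos B τ i.val ∧ t' - ww x π i ≤ MM Λ B τ i.val ∧
          ww x π i ≤ t' + 2 * MM Λ B τ i.val) ∨
        (IsFree (MM Λ B τ i.val) (Pos B τ i.val) t' ∧ 0 ≤ t' - ww x π i ∧ t' - ww x π i ≤ 1 / 4)) :
    GG (om Λ B τ i) (τ i - ww x π i) ≤
      GG (omOf (MM Λ B τ i.val) (Pos B τ i.val) t') (t' - ww x π i) + 1 / 8 := by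
  obtain ⟨π', τ', hagree, hLat, hsum⟩ := exists_competitor hB hΛ hx hmax i t' hz hle hcand
  have hcomp : vv Λ B x π' τ' ≤ vv Λ B x π τ := hmax.2 π' τ' hLat
  have hτ'head : ∀ a : Fin n, a < i → τ' a = τ a := fun a ha => by
    rw [(hagree a ha.le).2]
    simp [ha.ne]
  have hπ'head : ∀ a : Fin n, a ≤ i → π' a = π a := fun a ha => (hagree a ha).1
  have hτ'i : τ' i = t' := by
    rw [(hagree i le_rfl).2]
    simp
  -- the own weight at stage `i` and the competitor's weight at stage `i`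
  set ω := om Λ B τ i with hω
  set ω' := omOf (MM Λ B τ i.val) (Pos B τ i.val) t' with hω'
  have hω'eq : om Λ B τ' i = ω' := by
    unfold om
    rw [hω', hτ'i, MM_congr (τ := τ') (τ' := τ) fun j hj => hτ'head j hj,
      Pos_congr (τ := τ') (τ' := τ) fun j hj => hτ'head j hj]
  -- the sums
  set R := ∑ j ∈ univ.filter (fun j : Fin n => i ≤ j), x (π j) with hR
  have hRpos : 0 < R := stage_tail_pos hx π i
  have hexpw : Real.exp (ww x π i) = R := stage_exp_ww hx π i
  have hR' : x (π i) + ∑ j ∈ univ.filter (fun j : Fin n => i < j), x (π j) = R := by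
    rw [hR, stage_sum_ge_split (fun j => x (π j)) i]
  have hR'' : x (π i) + ∑ j ∈ univ.filter (fun j : Fin n => i < j), x (π' j) = R := by
    rw [hR, ← stage_sum_tail_eq x π π' i hπ'head, stage_sum_ge_split (fun j => x (π' j)) i,
      hπ'head i le_rfl]
  -- expand both values
  have hvv : ∀ (p : Equiv.Perm (Fin n)) (t : Fin n → ℝ), vv Λ B x p t =
      ∑ j ∈ univ.filter (fun j : Fin n => ¬ i ≤ j), (t j * x (p j) - om Λ B t j * Real.exp (t j)) +
      ((t i * x (p i) - om Λ B t i * Real.exp (t i)) +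
        ∑ j ∈ univ.filter (fun j : Fin n => i < j),
          (t j * x (p j) - om Λ B t j * Real.exp (t j))) := by
    intro p t
    rw [← stage_sum_split (fun j => t j * x (p j) - om Λ B t j * Real.exp (t j)) i,
      Finset.sum_sub_distrib]
    rfl
  -- heads agree
  have hhead : ∑ j ∈ univ.filter (fun j : Fin n => ¬ i ≤ j),
        (τ' j * x (π' j) - om Λ B τ' j * Real.exp (τ' j)) =
      ∑ j ∈ univ.filter (fun j : Fin n => ¬ i ≤ j),
        (τ j * x (π j) - om Λ B τ j * Real.exp (τ j)) := by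
    apply Finset.sum_congr rfl
    intro j hj
    simp only [mem_filter, mem_univ, true_and, not_le] at hj
    have hom : om Λ B τ' j = om Λ B τ j :=
      om_congr fun k hk => hτ'head k (lt_of_le_of_lt hk hj)
    rw [hτ'head j hj, hπ'head j hj.le, hom]
  -- own tail
  have hown : ∑ j ∈ univ.filter (fun j : Fin n => i < j),
        (τ j * x (π j) - om Λ B τ j * Real.exp (τ j)) ≤
      τ i * ∑ j ∈ univ.filter (fun j : Fin n => i < j), x (π j) := by
    rw [Finset.mul_sum]
    apply Finset.sum_le_sum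
    intro j hj
    simp only [mem_filter, mem_univ, true_and] at hj
    have h1 : τ j ≤ τ i := hmax.1.1 hj.le
    have h2 : 0 < om Λ B τ j := omOf_pos _ _ _
    have h3 := Real.exp_pos (τ j)
    have h4 := hx (π j)
    have h5 : τ j * x (π j) ≤ τ i * x (π j) := mul_le_mul_of_nonneg_right h1 h4.le
    have h6 : 0 < om Λ B τ j * Real.exp (τ j) := mul_pos h2 h3
    linarith
  -- competitor's tail
  have hcomp_tail : t' * ∑ j ∈ univ.filter (fun j : Fin n => i < j), x (π' j) -
        Real.exp (ww x π i) / 8 ≤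
      ∑ j ∈ univ.filter (fun j : Fin n => i < j),
        (τ' j * x (π' j) - om Λ B τ' j * Real.exp (τ' j)) := by
    have : ∑ j ∈ univ.filter (fun j : Fin n => i < j),
        (τ' j * x (π' j) - om Λ B τ' j * Real.exp (τ' j)) =
        t' * ∑ j ∈ univ.filter (fun j : Fin n => i < j), x (π' j) -
        ∑ j ∈ univ.filter (fun j : Fin n => i < j),
          (om Λ B τ' j * Real.exp (τ' j) + x (π' j) * (t' - τ' j)) := by
      rw [Finset.mul_sum, ← Finset.sum_sub_distrib]
      apply Finset.sum_congr rfl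
      intro j _
      ring
    rw [this]
    linarith
  rw [hvv π' τ', hvv π τ, hhead, hτ'i, hω'eq, hπ'head i le_rfl] at hcomp
  -- combine
  have hAA : ∑ j ∈ univ.filter (fun j : Fin n => i < j), x (π' j) =
      ∑ j ∈ univ.filter (fun j : Fin n => i < j), x (π j) := by linarith
  rw [hAA] at hcomp_tail
  have hfinal : t' * R - ω' * Real.exp t' - R / 8 ≤ τ i * R - ω * Real.exp (τ i) := by
    rw [hexpw] at hcomp_tail
    have e1 : t' * R = t' * x (π i) + t' * ∑ j ∈ univ.filter (fun j : Fin n => i < j), x (π j) := by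
      rw [← hR']; ring
    have e2 : τ i * R = τ i * x (π i) + τ i * ∑ j ∈ univ.filter (fun j : Fin n => i < j), x (π j) := by
      rw [← hR']; ring
    linarith
  have h : ω * (Real.exp (τ i) / R) - ω' * (Real.exp t' / R) ≤ τ i - t' + 1 / 8 := by
    rw [← mul_div_assoc, ← mul_div_assoc, ← sub_div, div_le_iff₀ hRpos]
    linarith
  unfold GG
  rw [Real.exp_sub, Real.exp_sub, hexpw]
  linarith

/-- Separation of positions from the structure of the earlier stages. -/
private lemma stage_sep_aux {Λ Q : ℝ} (hB : 1 ≤ B) (hΛ : Good Λ B n Q) {τ : Fin n → ℝ}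
    {w : Fin n → ℝ} (i : Fin n)
    (hprev : ∀ k : Fin n, k < i → SclOut (MM Λ B τ k.val) (w k) (τ k) (Pos B τ k.val))
    {p p' : ℝ} (hp : p ∈ Pos B τ i.val) (hp' : p' ∈ Pos B τ i.val) (hne : p ≠ p') :
    8 * MM Λ B τ i.val ≤ |p - p'| := by
  have hΛ2 := hΛ.two_le
  have hst : ∀ k : Fin n, k < i → τ k ∈ Pos B τ k.val ∨
      ∀ q ∈ Pos B τ k.val, MM Λ B τ k.val / 2 ≤ |τ k - q| := by
    intro k hk
    rcases (hprev k hk).cases with h | h
    · exact Or.inl h
    · exact Or.inr ((hprev k hk).free_far h)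
  obtain ⟨k, hki, hknp, hk⟩ := sep_pos hB τ i hst (fun k => MM_pos hΛ2 τ k.val) hp hp' hne
  have hdn : Λ ^ 2 * MM Λ B τ i.val ≤ MM Λ B τ k.val := MM_lex_dn hΛ2 τ k hki i.isLt hknp
  have hhat : 16 * Bhat B n ≤ Λ ^ 2 := hΛ.hat
  have hB1 : 1 ≤ Bhat B n := one_le_Bhat hB
  have hMi : 0 < MM Λ B τ i.val := MM_pos hΛ2 τ _
  refine le_trans ?_ hk
  rw [le_div_iff₀ (by positivity)]
  nlinarith [mul_le_mul_of_nonneg_right hhat hMi.le]

/-- Structure of maximisers: every stage satisfies the conclusions of `scl`. -/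
theorem stage_structure {Λ Q : ℝ} (hB : 1 ≤ B) (hΛ : Good Λ B n Q) {x : Fin n → ℝ}
    (hx : ∀ i, 0 < x i) {π : Equiv.Perm (Fin n)} {τ : Fin n → ℝ} (hmax : IsMaxi Λ B x π τ)
    (i : Fin n) : SclOut (MM Λ B τ i.val) (ww x π i) (τ i) (Pos B τ i.val) := by
  induction i using WellFoundedLT.induction with
  | ind i ih =>
  have hΛ2 := hΛ.two_le
  have hΛ16 := hΛ.sq_ge
  have hM : 16 ≤ MM Λ B τ i.val := hΛ16.trans (MM_ge hΛ2 τ i.isLt)
  have hsep : ∀ p ∈ Pos B τ i.val, ∀ p' ∈ Pos B τ i.val, p ≠ p' →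
      8 * MM Λ B τ i.val ≤ |p - p'| :=
    fun p hp p' hp' hne => stage_sep_aux hB hΛ i ih hp hp' hne
  obtain ⟨T, hT, hτT, hTj⟩ : ∃ T : ℝ, ((T ∈ Pos B τ i.val ∧ ww x π i ≤ T + MM Λ B τ i.val / 2) ∨
      ((∀ p ∈ Pos B τ i.val, p ≤ T) ∧ ww x π i + 1 ≤ T)) ∧ τ i ≤ T ∧
      ∀ j : Fin n, j < i → T ≤ τ j := by
    by_cases h0 : i.val = 0
    · refine ⟨max (max (τ i) (ww x π i + 1)) 0, Or.inr ⟨?_, ?_⟩, ?_, ?_⟩
      · intro p hp
        rw [h0] at hp
        rw [Pos_zero τ hp]
        exact le_max_right _ _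
      · exact (le_max_right _ _).trans (le_max_left _ _)
      · exact (le_max_left _ _).trans (le_max_left _ _)
      · intro j hj
        rw [Fin.lt_def] at hj
        omega
    · have hk : i.val - 1 < n := by
        have := i.isLt
        omega
      set k : Fin n := ⟨i.val - 1, hk⟩ with hkdef
      have hki : k < i := by
        rw [Fin.lt_def]
        simp only [hkdef]
        omega
      refine ⟨τ k, Or.inl ⟨prev_mem_Pos hB τ hki, ?_⟩, hmax.1.1 hki.le, ?_⟩
      · have hww : ww x π i ≤ ww x π k := stage_ww_anti hx π hki.le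
        have hk' := ih k hki
        rcases hk'.cases with hp | hf
        · have h1 := hk'.pin hp
          have h2 : Λ ^ 2 * MM Λ B τ k.val ≤ MM Λ B τ i.val :=
            MM_lex_up hΛ2 τ k hki i.isLt hp
          have h3 : 0 < MM Λ B τ k.val := MM_pos hΛ2 τ _
          have h4 := (abs_le.mp h1).1
          nlinarith
        · have h1 := hk'.free_lo hf
          linarith
      · intro j hj
        apply hmax.1.1
        rw [Fin.le_def]
        rw [Fin.lt_def] at hj
        simp only [hkdef]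
        omega
  -- the free candidate
  have hd : 0 < (den B n i.val : ℝ) := by exact_mod_cast den_pos hB i.val
  have hd4 : (4 : ℝ) ≤ (den B n i.val : ℝ) := by exact_mod_cast four_le_den hB i.val
  set t₀ : ℝ := (⌈ww x π i * (den B n i.val : ℝ)⌉ : ℤ) / (den B n i.val : ℝ) with ht₀
  have ht1 : 0 ≤ t₀ - ww x π i := by
    have : ww x π i ≤ t₀ := by
      rw [ht₀, le_div_iff₀ hd]
      exact Int.le_ceil _
    linarith
  have ht2 : t₀ - ww x π i ≤ 1 / 4 := by
    have h1 : t₀ ≤ ww x π i + 1 / 4 := by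
      rw [ht₀, div_le_iff₀ hd]
      have h2 := Int.ceil_lt_add_one (ww x π i * (den B n i.val : ℝ))
      have h3 : (1 : ℝ) ≤ 1 / 4 * (den B n i.val : ℝ) := by linarith
      nlinarith
    linarith
  refine scl hM hsep hT hτT ?_ ht1 ht2 ?_
  · intro p hp hpT hp1 hp2
    have hz : ∃ z : ℤ, p = (z : ℝ) / (den B n i.val : ℝ) :=
      Pos_lattice hB (fun a _ => hmax.1.2 a) hp
    have h := stage_ineq hB hΛ hx hmax i p hz (fun j hj => hpT.trans (hTj j hj))
      (Or.inl ⟨hp, hp2, by linarith⟩)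
    rw [omOf_pos_mem hp] at h
    exact h
  · intro hfree ht₀T
    have h := stage_ineq hB hΛ hx hmax i t₀ ⟨_, rfl⟩ (fun j hj => ht₀T.trans (hTj j hj))
      (Or.inr ⟨hfree, ht1, ht2⟩)
    rw [omOf_free hfree] at h
    exact h

/-- Separation of the positions at a genuine stage of a maximiser. -/
theorem stage_sep {Λ Q : ℝ} (hB : 1 ≤ B) (hΛ : Good Λ B n Q) {x : Fin n → ℝ}
    (hx : ∀ i, 0 < x i) {π : Equiv.Perm (Fin n)} {τ : Fin n → ℝ} (hmax : IsMaxi Λ B x π τ)
    (i : Fin n) {p p' : ℝ} (hp : p ∈ Pos B τ i.val) (hp' : p' ∈ Pos B τ i.val) (hne : p ≠ p') :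
    8 * MM Λ B τ i.val ≤ |p - p'| :=
  stage_sep_aux (w := ww x π) hB hΛ i (fun k _ => stage_structure hB hΛ hx hmax k) hp hp' hne

end Crest.Agent.S0122Lib
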