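import Crest.Agent.S0122.Stage

/-! A6: swing bound: each coordinate's log is close to its `τ`. -/

set_option autoImplicit false

namespace Crest.Agent.S0122Lib

open Finset

variable {n : ℕ} {B : ℕ}

private theorem vv_swap {Λ : ℝ} {x : Fin n → ℝ} {π : Equiv.Perm (Fin n)} {τ : Fin n → ℝ}
    {a b : Fin n} (hab : τ a = τ b) :
    vv Λ B x (π * Equiv.swap a b) τ = vv Λ B x π τ := by
  unfold vv
  congr 1
  rw [← Equiv.sum_comp (Equiv.swap a b)]
  apply Finset.sum_congr rfl
  intro i _
  have h1 : τ (Equiv.swap a b i) = τ i := by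
    rcases eq_or_ne i a with rfl | hia
    · simp [hab]
    rcases eq_or_ne i b with rfl | hib
    · simp [hab]
    rw [Equiv.swap_apply_of_ne_of_ne hia hib]
  simp [Equiv.Perm.mul_apply, h1]

/-- A maximiser stays a maximiser after swapping two places with equal `τ`. -/
theorem isMaxi_swap {Λ : ℝ} {x : Fin n → ℝ} {π : Equiv.Perm (Fin n)} {τ : Fin n → ℝ}
    (hmax : IsMaxi Λ B x π τ) {a b : Fin n} (hab : τ a = τ b) :
    IsMaxi Λ B x (π * Equiv.swap a b) τ := by
  refine ⟨hmax.1, fun π' τ' hl => ?_⟩
  rw [vv_swap hab]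
  exact hmax.2 π' τ' hl

private theorem sum_filter_pos {x : Fin n → ℝ} (hx : ∀ i, 0 < x i) (π : Equiv.Perm (Fin n))
    (i : Fin n) : 0 < ∑ j ∈ univ.filter (fun j : Fin n => i ≤ j), x (π j) :=
  Finset.sum_pos (fun j _ => hx _) ⟨i, by simp⟩

private theorem exp_ww {x : Fin n → ℝ} (hx : ∀ i, 0 < x i) (π : Equiv.Perm (Fin n)) (i : Fin n) :
    Real.exp (ww x π i) = ∑ j ∈ univ.filter (fun j : Fin n => i ≤ j), x (π j) :=
  Real.exp_log (sum_filter_pos hx π i)

private theorem log_le_ww {x : Fin n → ℝ} (hx : ∀ i, 0 < x i) (π : Equiv.Perm (Fin n))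
    {j₀ j : Fin n} (hj : j₀ ≤ j) : Real.log (x (π j)) ≤ ww x π j₀ := by
  unfold ww
  apply Real.log_le_log (hx _)
  exact Finset.single_le_sum (f := fun a => x (π a)) (fun a _ => (hx _).le) (by simp [hj])

private theorem sub_exp {s y tail : ℝ} (h : Real.exp s ≤ y + tail) (ht : tail ≤ Real.exp (s - 2)) :
    Real.exp (s - 1) ≤ y := by
  have h1 : Real.exp (s - 1) = Real.exp s * Real.exp (-1) := by
    rw [sub_eq_add_neg, Real.exp_add]
  have h2 : Real.exp (s - 2) = Real.exp s * (Real.exp (-1) * Real.exp (-1)) := by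
    rw [← Real.exp_add, ← Real.exp_add]; ring_nf
  have he : Real.exp (-1) ≤ 1 / 2 := by
    rw [Real.exp_neg]
    have : (2 : ℝ) ≤ Real.exp 1 := by linarith [Real.add_one_le_exp (1 : ℝ)]
    rw [inv_eq_one_div]
    exact one_div_le_one_div_of_le (by norm_num) this
  have he0 : 0 < Real.exp (-1) := Real.exp_pos _
  have hs : 0 < Real.exp s := Real.exp_pos _
  have key : Real.exp (-1) + Real.exp (-1) * Real.exp (-1) ≤ 1 := by nlinarith
  have : Real.exp s * (Real.exp (-1) + Real.exp (-1) * Real.exp (-1)) ≤ Real.exp s * 1 :=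
    mul_le_mul_of_nonneg_left key hs.le
  rw [h1]
  rw [h2] at ht
  nlinarith

/-- The remaining log-mass after a strictly smaller stage. -/
private theorem ww_next_le {Λ Q : ℝ} (hB : 1 ≤ B) (hΛ : Good Λ B n Q) {x : Fin n → ℝ}
    (hx : ∀ i, 0 < x i) {π : Equiv.Perm (Fin n)} {τ : Fin n → ℝ} (hmax : IsMaxi Λ B x π τ)
    {e next : Fin n} (hpos : e.val < next.val) (hlt : τ next < τ e) :
    ww x π next ≤ τ e - MM Λ B τ next.val := by
  have hs := stage_structure hB hΛ hx hmax next
  have hmem : τ e ∈ Pos B τ next.val := prev_mem_Pos hB τ hpos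
  have hM : 0 < MM Λ B τ next.val := MM_pos hΛ.two_le τ _
  rcases hs.cases with hp | hf
  · have hsep := stage_sep hB hΛ hx hmax next hp hmem (ne_of_lt hlt)
    have hpin := abs_le.mp (hs.pin hp)
    have habs : |τ next - τ e| = τ e - τ next := by
      rw [abs_sub_comm]; exact abs_of_pos (by linarith)
    rw [habs] at hsep
    linarith [hpin.1]
  · have := (hs.free_dn hf (τ e) hmem hlt).2
    linarith

/-- Splitting of the mass at the end of a tie block. -/
private theorem tail_split {x : Fin n → ℝ} (hx : ∀ i, 0 < x i) (π : Equiv.Perm (Fin n))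
    {j e : Fin n} (hje : j ≤ e) :
    Real.exp (ww x (π * Equiv.swap j e) e) =
      x (π j) + ∑ a ∈ univ.filter (fun a : Fin n => e < a), x (π a) := by
  rw [exp_ww hx]
  have hsplit : univ.filter (fun a : Fin n => e ≤ a) =
      insert e (univ.filter (fun a : Fin n => e < a)) := by
    ext a
    simp only [mem_filter, mem_univ, true_and, mem_insert]
    constructor
    · intro h
      rcases eq_or_lt_of_le h with h | h
      · exact Or.inl h.symm
      · exact Or.inr h
    · rintro (rfl | h)
      · exact le_rfl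
      · exact h.le
  rw [hsplit, Finset.sum_insert (by simp)]
  congr 1
  · simp [Equiv.Perm.mul_apply]
  · apply Finset.sum_congr rfl
    intro a ha
    have hea : e < a := by simpa using ha
    have h1 : a ≠ j := fun h => absurd (hje.trans_lt hea) (by rw [h]; exact lt_irrefl _)
    have h2 : a ≠ e := ne_of_gt hea
    simp [Equiv.Perm.mul_apply, Equiv.swap_apply_of_ne_of_ne h1 h2]

/-- The tail after the end of a tie block is either empty or controlled by the next window. -/
private theorem tail_bound {Λ Q : ℝ} (hB : 1 ≤ B) (hΛ : Good Λ B n Q) {x : Fin n → ℝ}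
    (hx : ∀ i, 0 < x i) {π : Equiv.Perm (Fin n)} {τ : Fin n → ℝ} (hmax : IsMaxi Λ B x π τ)
    {e : Fin n} (hlast : ∀ a : Fin n, e < a → τ a < τ e) :
    (∑ a ∈ univ.filter (fun a : Fin n => e < a), x (π a)) = 0 ∨
      ∃ next : Fin n, e < next ∧ (∑ a ∈ univ.filter (fun a : Fin n => e < a), x (π a)) ≤
        Real.exp (τ e - MM Λ B τ next.val) := by
  by_cases h : e.val + 1 < n
  · right
    let next : Fin n := ⟨e.val + 1, h⟩
    have hnext : e < next := by
      rw [Fin.lt_def]; simp [next]
    refine ⟨next, hnext, ?_⟩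
    have hset : univ.filter (fun a : Fin n => e < a) = univ.filter (fun a : Fin n => next ≤ a) := by
      ext a
      simp only [mem_filter, mem_univ, true_and, Fin.lt_def, Fin.le_def, next]
      omega
    rw [hset, ← exp_ww hx]
    exact Real.exp_le_exp.mpr (ww_next_le hB hΛ hx hmax hnext (hlast next hnext))
  · left
    have hemp : univ.filter (fun a : Fin n => e < a) = ∅ := by
      ext a
      simp only [mem_filter, mem_univ, true_and, Fin.lt_def, notMem_empty, iff_false]
      have := a.isLt
      omega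
    rw [hemp, Finset.sum_empty]

/-- Swing: each coordinate's log is within `2 M_e + 1` of its `τ`, `e` a pinned stage (the end of the
tie block of `j`), or within `lbar`. -/
theorem swing {Λ Q : ℝ} (hB : 1 ≤ B) (hΛ : Good Λ B n Q) {x : Fin n → ℝ} (hx : ∀ i, 0 < x i)
    {π : Equiv.Perm (Fin n)} {τ : Fin n → ℝ} (hmax : IsMaxi Λ B x π τ) (j : Fin n) :
    (∃ e : Fin n, τ e ∈ Pos B τ e.val ∧ |Real.log (x (π j)) - τ j| ≤ 2 * MM Λ B τ e.val + 1) ∨
      |Real.log (x (π j)) - τ j| ≤ lbar Λ n := by
  classical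
  have hΛ2 : 2 ≤ Λ := hΛ.two_le
  have hanti : Antitone τ := hmax.1.1
  -- the tie block of `j`
  let S : Finset (Fin n) := univ.filter (fun a => τ a = τ j)
  have hSne : S.Nonempty := ⟨j, by simp [S]⟩
  let e : Fin n := S.max' hSne
  let j₀ : Fin n := S.min' hSne
  have he_mem : τ e = τ j := by
    have := S.max'_mem hSne
    simpa [S] using this
  have hj₀_mem : τ j₀ = τ j := by
    have := S.min'_mem hSne
    simpa [S] using this
  have hje : j ≤ e := S.le_max' j (by simp [S])
  have hj₀j : j₀ ≤ j := S.min'_le j (by simp [S])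
  have hlast : ∀ a : Fin n, e < a → τ a < τ e := by
    intro a hea
    have hle : τ a ≤ τ e := hanti hea.le
    rcases lt_or_eq_of_le hle with h | h
    · exact h
    · exfalso
      have ha : a ∈ S := by
        simp only [S, mem_filter, mem_univ, true_and]
        rw [h, he_mem]
      exact absurd (S.le_max' a ha) (not_le.mpr hea)
  -- if the block is long, its end is pinned
  have hblock : j₀ < e → τ e ∈ Pos B τ e.val := by
    intro hlt
    have := prev_mem_Pos (n := n) hB τ (j := j₀) (m := e.val) hlt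
    rwa [hj₀_mem, ← he_mem] at this
  -- upper bound
  set y := x (π j) with hy
  have hypos : 0 < y := hx _
  have hup0 : Real.log y ≤ ww x π j₀ := log_le_ww hx π hj₀j
  have hs₀ := stage_structure hB hΛ hx hmax j₀
  -- the swapped maximiser at `e`
  have hmax₁ : IsMaxi Λ B x (π * Equiv.swap j e) τ := isMaxi_swap hmax he_mem.symm
  have hs₁ := stage_structure hB hΛ hx hmax₁ e
  have hsplit := tail_split hx π hje
  have htail := tail_bound hB hΛ hx hmax hlast
  set tail := ∑ a ∈ univ.filter (fun a : Fin n => e < a), x (π a) with htaildef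
  have htail_nonneg : 0 ≤ tail := Finset.sum_nonneg (fun a _ => (hx _).le)
  have hMe : 1 ≤ MM Λ B τ e.val := one_le_MM hΛ2 τ (le_of_lt e.isLt)
  have hsq : (16 : ℝ) ≤ Λ ^ 2 := hΛ.sq_ge
  by_cases hp : τ e ∈ Pos B τ e.val
  · -- `e` pinned
    left
    refine ⟨e, hp, ?_⟩
    -- lower bound
    have hpin := abs_le.mp (hs₁.pin hp)
    have h1 : Real.exp (τ e - 2 * MM Λ B τ e.val) ≤ y + tail := by
      rw [← hsplit]
      exact Real.exp_le_exp.mpr (by linarith [hpin.2])
    have h2 : tail ≤ Real.exp (τ e - 2 * MM Λ B τ e.val - 2) := by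
      rcases htail with h0 | ⟨next, hnext, hle⟩
      · rw [h0]; exact (Real.exp_pos _).le
      · refine hle.trans (Real.exp_le_exp.mpr ?_)
        have hlex := MM_lex_up (B := B) hΛ2 τ e (q := next.val) hnext next.isLt hp
        have : 16 * MM Λ B τ e.val ≤ Λ ^ 2 * MM Λ B τ e.val :=
          mul_le_mul_of_nonneg_right hsq (by linarith)
        linarith
    have h3 := sub_exp h1 h2
    have hlow : τ e - 2 * MM Λ B τ e.val - 1 ≤ Real.log y :=
      (Real.le_log_iff_exp_le hypos).mpr h3
    have hupper : Real.log y ≤ τ j + 2 * MM Λ B τ e.val + 1 := by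
      rcases hs₀.cases with hp₀ | hf₀
      · have hpin₀ := abs_le.mp (hs₀.pin hp₀)
        have hMM : MM Λ B τ j₀.val ≤ MM Λ B τ e.val := by
          rcases eq_or_lt_of_le (hj₀j.trans hje) with heq | hlt
          · rw [heq]
          · have hlex := MM_lex_up (B := B) hΛ2 τ j₀ (q := e.val) hlt e.isLt hp₀
            have hM0 : 0 < MM Λ B τ j₀.val := MM_pos hΛ2 τ _
            have : 16 * MM Λ B τ j₀.val ≤ Λ ^ 2 * MM Λ B τ j₀.val :=
              mul_le_mul_of_nonneg_right hsq hM0.le
            linarith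
        linarith [hpin₀.1]
      · have := hs₀.free_lo hf₀
        linarith
    rw [abs_le]
    constructor <;> linarith
  · -- `e` not pinned: the block is a singleton
    right
    have hj₀e : j₀ = e := by
      by_contra hne
      exact hp (hblock (lt_of_le_of_ne (hj₀j.trans hje) hne))
    have hfree : IsFree (MM Λ B τ e.val) (Pos B τ e.val) (τ e) :=
      (hs₁.cases).resolve_left hp
    have hMle : MM Λ B τ e.val ≤ Mbar Λ n := MM_le hΛ2 τ (le_of_lt e.isLt)
    have hhi := hs₁.free_hi hfree
    have hlog : Real.log (2 * MM Λ B τ e.val + 3) ≤ Real.log (2 * Mbar Λ n + 3) :=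
      Real.log_le_log (by linarith) (by linarith)
    have h1 : Real.exp (τ e - lbar Λ n + 1) ≤ y + tail := by
      rw [← hsplit]
      apply Real.exp_le_exp.mpr
      unfold lbar
      linarith
    have h2 : tail ≤ Real.exp (τ e - lbar Λ n + 1 - 2) := by
      rcases htail with h0 | ⟨next, hnext, hle⟩
      · rw [h0]; exact (Real.exp_pos _).le
      · refine hle.trans (Real.exp_le_exp.mpr ?_)
        have hge := MM_ge (B := B) hΛ2 τ next.isLt
        have hsw := hΛ.swing
        linarith
    have h3 := sub_exp h1 h2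
    have hlow : τ e - lbar Λ n + 1 - 1 ≤ Real.log y :=
      (Real.le_log_iff_exp_le hypos).mpr h3
    have hlbar : (7 : ℝ) / 10 ≤ lbar Λ n := by
      unfold lbar
      have hM : 0 < Mbar Λ n := by unfold Mbar; positivity
      have : 0 ≤ Real.log (2 * Mbar Λ n + 3) := Real.log_nonneg (by linarith)
      linarith
    have hupper : Real.log y ≤ τ j + lbar Λ n := by
      have hfree₀ : IsFree (MM Λ B τ j₀.val) (Pos B τ j₀.val) (τ j₀) := by
        rw [hj₀e]; exact hfree
      have := hs₀.free_lo hfree₀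
      linarith
    rw [abs_le]
    constructor <;> linarith

end Crest.Agent.S0122Lib
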